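import Vale.Agent.P139.Def

/-! P139 task C/Bdry, auxiliary complex algebra. -/

noncomputable section

open Set Complex
open scoped ComplexConjugate

namespace Vale.Agent.P139

theorem cbdry_div {r : ℂ × ℂ} {f A : ℂ} {T : ℝ} (hT : 0 < T) (hr : T ≤ ‖r.2‖) :
    ∃ e : ℂ, A = (-r.1 / r.2 - 5 / 2) * f + e ∧ T * ‖e‖ ≤ ‖r.1 * f + r.2 * (A + 5 / 2 * f)‖ := by
  have h0 : r.2 ≠ 0 := norm_pos_iff.1 (hT.trans_le hr)
  refine ⟨(r.1 * f + r.2 * (A + 5 / 2 * f)) / r.2, by field_simp; ring, ?_⟩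
  rw [norm_div, ← mul_div_assoc, div_le_iff₀ (hT.trans_le hr), mul_comm]
  exact mul_le_mul_of_nonneg_left hr (norm_nonneg _)

theorem cbdry_nrm {N f e : ℂ} {C s : ℝ} (hN : ‖N‖ ≤ C * s) (hs : 1 ≤ s) :
    ‖(N - 5 / 2) * f + e‖ ≤ (C + 5 / 2) * s * ‖f‖ + ‖e‖ := by
  have h1 : ‖N - 5 / 2‖ ≤ (C + 5 / 2) * s := by
    have h2 := norm_sub_le N (5 / 2)
    have h3 : ‖(5 / 2 : ℂ)‖ = 5 / 2 := by simp
    linarith
  refine (norm_add_le _ _).trans (add_le_add_left ?_ _)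
  rw [norm_mul]
  exact mul_le_mul_of_nonneg_right h1 (norm_nonneg _)

theorem cbdry_abs {r r' : ℂ × ℂ} {f g A B : ℂ} {T C s δ : ℝ} (hT : 0 < T) (hr : T ≤ ‖r.2‖)
    (hr' : T ≤ ‖r'.2‖) (hN : ‖-r.1 / r.2‖ ≤ C * s) (hN' : ‖-r'.1 / r'.2‖ ≤ C * s) (hs : 1 ≤ s)
    (h0 : 0 ≤ δ) (h1 : δ ≤ 1 / 2)
    (h : ‖r.1 * f + r.2 * (A + 5 / 2 * f)‖ + ‖r'.1 * g + r'.2 * (B + 5 / 2 * g)‖ ≤
      T * (δ * (s * (‖f‖ + ‖g‖) + (‖A‖ + ‖B‖)))) :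
    ∃ e e' : ℂ, A = (-r.1 / r.2 - 5 / 2) * f + e ∧ B = (-r'.1 / r'.2 - 5 / 2) * g + e' ∧
      ‖e‖ + ‖e'‖ ≤ δ * (2 * C + 7) * s * (‖f‖ + ‖g‖) := by
  obtain ⟨e, a1, a2⟩ := cbdry_div (f := f) (A := A) hT hr
  obtain ⟨e', b1, b2⟩ := cbdry_div (f := g) (A := B) hT hr'
  refine ⟨e, e', a1, b1, ?_⟩
  have h2 : ‖e‖ + ‖e'‖ ≤ δ * (s * (‖f‖ + ‖g‖) + (‖A‖ + ‖B‖)) :=
    le_of_mul_le_mul_left (by linarith) hT
  have a3 : ‖A‖ ≤ (C + 5 / 2) * s * ‖f‖ + ‖e‖ := a1 ▸ cbdry_nrm hN hs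
  have b3 : ‖B‖ ≤ (C + 5 / 2) * s * ‖g‖ + ‖e'‖ := b1 ▸ cbdry_nrm hN' hs
  have h3 : 0 ≤ s * (‖f‖ + ‖g‖) + (‖A‖ + ‖B‖) := by
    have : 0 ≤ s := by linarith
    positivity
  have h4 := mul_le_mul_of_nonneg_right h1 h3
  have h5 : s * (‖f‖ + ‖g‖) + (‖A‖ + ‖B‖) ≤ (2 * C + 7) * s * (‖f‖ + ‖g‖) := by nlinarith
  have h6 := mul_le_mul_of_nonneg_left h5 h0
  nlinarith

theorem cbdry_one {N Z F F1 e : ℂ} {X K : ℝ} (h : X * F1 = (N - 5 / 2 - Z) * F + e)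
    (hZ : ‖Z‖ ≤ K) :
    X * (F1 * conj F).re ≤ (N.re + K) * ‖F‖ ^ 2 + ‖e‖ * ‖F‖ ∧
      (N.im - K) * ‖F‖ ^ 2 - ‖e‖ * ‖F‖ ≤ X * (F1 * conj F).im := by
  have h1 : X * (F1 * conj F) = ((‖F‖ ^ 2 : ℝ) : ℂ) * (N - 5 / 2 - Z) + e * conj F := by
    rw [← normSq_eq_norm_sq, ← mul_conj]
    linear_combination conj F * h
  have h2 := congrArg re h1
  have h3 := congrArg im h1
  rw [re_ofReal_mul, add_re, re_ofReal_mul] at h2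
  rw [im_ofReal_mul, add_im, im_ofReal_mul] at h3
  have h4 : ‖e * conj F‖ = ‖e‖ * ‖F‖ := by rw [norm_mul, norm_conj]
  have h5 := abs_le.1 (abs_re_le_norm (e * conj F))
  have h6 := abs_le.1 (abs_im_le_norm (e * conj F))
  have h7 := abs_le.1 ((abs_re_le_norm Z).trans hZ)
  have h8 := abs_le.1 ((abs_im_le_norm Z).trans hZ)
  have h9 : (N - 5 / 2 - Z).re ≤ N.re + K := by
    simp only [sub_re, div_ofNat_re, re_ofNat]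
    linarith [h7.1]
  have h10 : N.im - K ≤ (N - 5 / 2 - Z).im := by
    simp only [sub_im, div_ofNat_im, im_ofNat]
    linarith [h8.2]
  have h11 := mul_le_mul_of_nonneg_left h9 (sq_nonneg ‖F‖)
  have h12 := mul_le_mul_of_nonneg_left h10 (sq_nonneg ‖F‖)
  constructor <;> linarith [h5.2, h6.1]

theorem cbdry_nrm2 {N Z F F1 e : ℂ} {X K C s : ℝ} (h : X * F1 = (N - 5 / 2 - Z) * F + e)
    (hZ : ‖Z‖ ≤ K) (hN : ‖N‖ ≤ C * s) (hs : 1 ≤ s) (hX : 1 ≤ X) :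
    ‖F1‖ ≤ (C + 5 / 2 + K) * s * ‖F‖ + ‖e‖ := by
  have hK : 0 ≤ K := (norm_nonneg _).trans hZ
  have h1 : ‖N - Z‖ ≤ (C + K) * s := by
    have h2 := norm_sub_le N Z
    nlinarith
  have h2 := cbdry_nrm (f := F) (e := e) h1 hs
  have h3 : (N - Z - 5 / 2) * F + e = X * F1 := by rw [h]; ring
  rw [h3, norm_mul, norm_real, Real.norm_of_nonneg (by linarith)] at h2
  have h4 := norm_nonneg F1
  nlinarith

theorem cbdry_le {X z a b : ℝ} (hX : X ∈ Icc (2 : ℝ) 4) (ha : 0 ≤ a) (hb : 0 ≤ b)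
    (h : X * z ≤ -(4 * a) + b) : z ≤ -a + b := by
  obtain ⟨h1, h2⟩ := hX
  by_contra hc
  have h3 := mul_lt_mul_of_pos_left (not_le.1 hc) (show 0 < X by linarith)
  nlinarith

theorem cbdry_fin {N N' Z F F1 G G1 e e' : ℂ} {X Kc C s ε D c w : ℝ} (hX : X ∈ Icc (2 : ℝ) 4)
    (hF : X * F1 = (N - 5 / 2 - Z) * F + e) (hG : X * conj G1 = (N' - 5 / 2 - Z) * conj G + e')
    (hZ : ‖Z‖ ≤ Kc) (hN : ‖N‖ ≤ C * s) (hN' : ‖N'‖ ≤ C * s) (hs : 1 ≤ s) (hC : 0 ≤ C)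
    (hre : N.re ≤ C) (hre' : N'.re ≤ C) (he : ‖e‖ + ‖e'‖ ≤ D * ε * s * (‖F‖ + ‖G‖))
    (hD : 0 ≤ D) (hε : ε ∈ Icc (0 : ℝ) 1) (hc : 0 ≤ c) (hw : 0 ≤ w) :
    ‖F1‖ + ‖G1‖ ≤ (C + 5 / 2 + Kc + D) * s * (‖F‖ + ‖G‖) ∧
      (F1 * conj F + G1 * conj G).re ≤ (C + 5 / 2 + Kc + D) * (1 + ε * s) * (‖F‖ + ‖G‖) ^ 2 ∧
      (N.re ≤ -(4 * c * w) → (F1 * conj F).re ≤
        -c * w * ‖F‖ ^ 2 + (C + 5 / 2 + Kc + D) * (1 + ε * s) * (‖F‖ + ‖G‖) ^ 2) ∧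
      (4 * c * w ≤ N'.im → (G1 * conj G).im ≤
        -c * w * ‖G‖ ^ 2 + (C + 5 / 2 + Kc + D) * (1 + ε * s) * (‖F‖ + ‖G‖) ^ 2) := by
  have hK : 0 ≤ Kc := (norm_nonneg _).trans hZ
  have hX1 : 1 ≤ X := by linarith [hX.1]
  have hs0 : 0 ≤ s := by linarith
  have hε0 := hε.1
  obtain ⟨a1, -⟩ := cbdry_one hF hZ
  obtain ⟨b1, b2⟩ := cbdry_one hG hZ
  have a3 := cbdry_nrm2 hF hZ hN hs hX1
  have b3 := cbdry_nrm2 hG hZ hN' hs hX1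
  rw [← map_mul, conj_re] at b1
  rw [← map_mul, conj_im] at b2
  rw [norm_conj] at b1 b2
  rw [norm_conj, norm_conj] at b3
  obtain ⟨x, hx⟩ : ∃ x, x = ‖F‖ := ⟨_, rfl⟩
  obtain ⟨y, hy⟩ : ∃ y, y = ‖G‖ := ⟨_, rfl⟩
  have x0 : 0 ≤ x := hx ▸ norm_nonneg _
  have y0 : 0 ≤ y := hy ▸ norm_nonneg _
  rw [← hx] at a1 a3 he ⊢
  rw [← hy] at b1 b2 b3 he ⊢
  have e0 := norm_nonneg e
  have e0' := norm_nonneg e'
  have k1 : ‖e‖ * x + ‖e'‖ * y ≤ D * ε * s * (x + y) ^ 2 := by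
    have := mul_le_mul_of_nonneg_right he (add_nonneg x0 y0)
    linarith [mul_nonneg e0 y0, mul_nonneg e0' x0]
  have k2 : 0 ≤ ‖e‖ * x := mul_nonneg e0 x0
  have k3 : 0 ≤ ‖e'‖ * y := mul_nonneg e0' y0
  have k4 : (C + Kc) * (x ^ 2 + y ^ 2) + D * ε * s * (x + y) ^ 2 ≤
      (C + 5 / 2 + Kc + D) * (1 + ε * s) * (x + y) ^ 2 := by
    have t1 : x ^ 2 + y ^ 2 ≤ (x + y) ^ 2 := by linarith [mul_nonneg x0 y0]
    have t2 := mul_le_mul_of_nonneg_left t1 (add_nonneg hC hK)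
    have t3 : 0 ≤ ((5 / 2 + D) + (C + 5 / 2 + Kc) * (ε * s)) * (x + y) ^ 2 := by positivity
    linarith
  have k5 : 0 ≤ (C + 5 / 2 + Kc + D) * (1 + ε * s) * (x + y) ^ 2 := by positivity
  have k6 : 0 ≤ C * x ^ 2 := by positivity
  have k7 : 0 ≤ C * y ^ 2 := by positivity
  have k8 : 0 ≤ Kc * x ^ 2 := by positivity
  have k9 : 0 ≤ Kc * y ^ 2 := by positivity
  refine ⟨?_, ?_, fun h => ?_, fun h => ?_⟩
  · have t1 : D * ε * s * (x + y) ≤ D * 1 * s * (x + y) := by gcongr; exact hε.2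
    linarith
  · have t1 := mul_le_mul_of_nonneg_right hre (sq_nonneg x)
    have t2 := mul_le_mul_of_nonneg_right hre' (sq_nonneg y)
    have := cbdry_le (z := (F1 * conj F + G1 * conj G).re) hX le_rfl k5 (by
      rw [add_re]
      linarith)
    simpa only [neg_zero, zero_add] using this
  · have t1 := mul_le_mul_of_nonneg_right h (sq_nonneg x)
    have := cbdry_le (z := (F1 * conj F).re) (a := c * w * x ^ 2) hX (by positivity) k5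
      (by linarith)
    linarith
  · have t1 := mul_le_mul_of_nonneg_right h (sq_nonneg y)
    have := cbdry_le (z := (G1 * conj G).im) (a := c * w * y ^ 2) hX (by positivity) k5
      (by linarith)
    linarith

end Vale.Agent.P139
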