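import Vale.Agent.P139.C.CoAux

/-! P139 task C/Co (PROOF.md section C). The coefficients of a profile. Riccati equation `X lg' + X lg² + (6 + iX) lg + β + ia = P` gives `al'`, `w'`, `div` (`κ = 6 - 2a`);
`w_pos` from the flux identity `X⁶(|q|² + 2 im (q' conj q)) = (6 - 2a) ∫₀^X s⁵|q|²`; `M' = 2 m al M`.
Bounds: on `[X0, ∞)`, `X lg = -ν₀ - Du G / (X G)`, `|q| = X^(-a)|G|`, `X M = 2m/(m+1) W1`, `X² M' = 2m/(m+1)(-Du W1 / X - W1)`;
`al + X al' = P - β - 5 al + X im lg - X re (lg²)`.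
-/

noncomputable section

open MeasureTheory Filter Topology Set Complex
open scoped ComplexConjugate

namespace Vale.Agent.P139

variable {c : Co} {L Y : ℝ} {lam : ℂ} {u u1 v η η1 ψ ψ1 sη sψ f g ef eg : ℝ → ℂ} {m l : ℕ}
  {Q : Prof m}

theorem c_co (C : ℝ) (hC : 0 < C) : ∃ K, 0 < K ∧ ∀ (m : ℕ) (Q : Prof m), ∃ c : Co, Q.IsCo c ∧
    ∀ X0 ε, ε ∈ Ioc (0 : ℝ) (1 / 4) → Q.Good X0 ε C → c.Bd X0 ε K (aa m) ∧
      ∀ X : ℝ, 0 < X → ‖(X : ℂ) * Q.lg X‖ ≤ K := by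
  obtain ⟨A, hA⟩ : ∃ A, A = 1 + C ^ 2 := ⟨_, rfl⟩
  have hC2 : 0 < C ^ 2 := by positivity
  have hA1 : 1 ≤ A := by linarith
  obtain ⟨K, hK⟩ : ∃ K, K = 40 + 20 * A + 2 * (A * A) := ⟨_, rfl⟩
  have hAA : 0 ≤ A * A := by positivity
  have hK0 : 0 < K := by linarith
  refine ⟨K, hK0, fun m Q => ⟨cco_co Q, fun X _ => ⟨rfl, rfl, rfl, rfl⟩, fun X0 ε hε h => ?_⟩⟩
  obtain ⟨⟨b1, b2⟩, b3, b4⟩ := h.box
  norm_num [Xlo, Xhi, βlo, βhi] at b1 b2 b3 b4
  obtain ⟨a1, a2, a3⟩ := cco_a Q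
  obtain ⟨e1, e2⟩ := hε
  have hm : (1 : ℝ) ≤ m := by exact_mod_cast Q.m_pos
  have hl : ∀ X : ℝ, 0 < X → ‖(X : ℂ) * Q.lg X‖ ≤ A ∧ ‖Q.lg X‖ ≤ A := fun X hX =>
    hA ▸ cco_lg hC ⟨e1, e2⟩ h hX
  have hxl : ∀ X : ℝ, 0 < X → ‖cco_xl Q X‖ ≤ 2 + 7 * A + A * A := fun X hX => by
    have h1 := cco_xl_le Q (hl X hX).1 (hl X hX).2
    have h2 : |Q.P X - Q.β| ≤ 1 :=
      abs_le.2 ⟨by linarith [cco_P_nonneg Q X], by linarith [h.P_le X hX.le]⟩
    linarith
  have hout : ∀ X, X0 ≤ X → X ^ (-2 * aa m) / (K / 4) ≤ normSq (Q.q X) ∧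
      normSq (Q.q X) ≤ K * X ^ (-2 * aa m) := fun X hx => by
    have hX : 0 < X := by linarith
    have h1 := Real.rpow_pos_of_pos hX (-2 * aa m)
    obtain ⟨h2, h3⟩ := cco_out hC h hx
    rw [cco_normG Q hX, div_eq_mul_one_div, mul_comm K]
    refine ⟨mul_le_mul_of_nonneg_left (le_trans ?_ h2) h1.le,
      mul_le_mul_of_nonneg_left (by linarith) h1.le⟩
    exact one_div_le_one_div_of_le hC2 (by linarith)
  refine ⟨⟨⟨by linarith, by linarith⟩, ⟨a1.le, a2⟩, fun X hX => ?_, fun X hX => ?_,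
    fun X hX => ?_, fun X hX => (abs_re_le_norm _).trans (h.near X ⟨hX.1.le, hX.2⟩).2, ?_,
    fun X hX => ?_, fun X hX => ?_, fun X hx => ?_, fun X hx => ⟨le_trans ?_ (hout X hx).1,
    (hout X hx).2⟩⟩, fun X hX => (hl X hX).1.trans (by linarith)⟩
  · show 1 / K ≤ normSq (Q.q X) ∧ normSq (Q.q X) ≤ K
    rcases le_total X X0 with hx | hx
    · obtain ⟨h1, h2⟩ := abs_le.1 (h.near X ⟨hX.1.le, hx⟩).1
      have h3 : 1 / K ≤ 1 / 2 := one_div_le_one_div_of_le (by norm_num) (by linarith)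
      rw [Complex.normSq_eq_norm_sq]
      constructor <;> nlinarith
    · obtain ⟨h1, h2⟩ := hout X hx
      have h3 : X ^ (-2 * aa m) ≤ 1 :=
        Real.rpow_le_one_of_one_le_of_nonpos (by linarith) (by linarith)
      have h4 : X ^ (-1 : ℝ) ≤ X ^ (-2 * aa m) :=
        Real.rpow_le_rpow_of_exponent_le (by linarith) (by linarith)
      have h5 : (4 : ℝ)⁻¹ ≤ X⁻¹ := inv_anti₀ hX.1 (by linarith [hX.2])
      rw [Real.rpow_neg_one] at h4
      refine ⟨le_trans ?_ h1, h2.trans (mul_le_of_le_one_right hK0.le h3)⟩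
      rw [le_div_iff₀ (by positivity)]
      refine le_trans (le_of_eq ?_) (h5.trans h4)
      field_simp
  · show |(Q.lg X).re| ≤ K ∧ |(Q.lg X).re + X * (cco_xl Q X / X).re| ≤ K
    have h1 := (abs_re_le_norm _).trans (hl X hX.1).2
    have h2 := (abs_re_le_norm _).trans (hxl X hX.1)
    rw [cco_re hX.1]
    exact ⟨by linarith, (abs_add_le _ _).trans (by linarith)⟩
  · show 1 + 2 * (Q.lg X).im ≤ K ∧ |X * (2 * (cco_xl Q X / X).im)| ≤ K ∧ |X * (Q.lg X).re| ≤ K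
    have h1 := (le_abs_self _).trans ((abs_im_le_norm _).trans (hl X hX).2)
    have h2 := (abs_im_le_norm _).trans (hxl X hX)
    have h3 := (abs_re_le_norm _).trans (hl X hX).1
    rw [Complex.re_ofReal_mul] at h3
    rw [mul_left_comm X, cco_im hX, abs_mul, abs_two]
    exact ⟨by linarith, by linarith, by linarith⟩
  · show ∫ X in (0 : ℝ)..X0, |(Q.lg X).re + X * (cco_xl Q X / X).re| ≤ K * ε
    have h0 : (0 : ℝ) ≤ X0 := by linarith
    have hi : IntervalIntegrable (fun X => |Q.P X - Q.β|) volume 0 X0 :=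
      ((((cco_cP Q).mono Icc_subset_Ici_self).sub continuousOn_const).abs).intervalIntegrable_of_Icc
        h0
    have h1 : ∫ X in (0 : ℝ)..X0, |(Q.lg X).re + X * (cco_xl Q X / X).re| ≤
        ∫ X in (0 : ℝ)..X0, (|Q.P X - Q.β| + 12 * ε) := by
      rw [intervalIntegral.integral_of_le h0, intervalIntegral.integral_of_le h0]
      refine integral_mono_of_nonneg (Eventually.of_forall fun X => abs_nonneg _)
        (hi.add intervalIntegrable_const).1 ?_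
      filter_upwards [ae_restrict_mem measurableSet_Ioc] with X hX
      have h2 := (h.near X ⟨hX.1.le, hX.2⟩).2
      have h3 : ‖(X : ℂ) * Q.lg X‖ ≤ 3 * ε := by
        rw [norm_mul, norm_real, Real.norm_of_nonneg hX.1.le]
        exact mul_le_mul (by linarith [hX.2]) h2 (norm_nonneg _) (by norm_num)
      have h4 := (abs_re_le_norm _).trans (cco_xl_le Q h3 h2)
      have h5 := (abs_re_le_norm _).trans h2
      have h6 := h.a_le
      rw [cco_re hX.1]
      refine (abs_add_le _ _).trans ?_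
      nlinarith
    rw [intervalIntegral.integral_add hi intervalIntegrable_const, intervalIntegral.integral_const,
      smul_eq_mul] at h1
    have h2 := h.pres
    nlinarith
  · show X * (2 * m * (2 * m * (Q.lg X).re * Q.P X)) ≤ ε * (2 * m * Q.P X)
    have h1 := mul_le_mul_of_nonneg_right (h.mono X ⟨hX.1.le, hX.2⟩)
      (mul_nonneg (by positivity : (0 : ℝ) ≤ 2 * m) (cco_P_nonneg Q X))
    linarith
  · obtain ⟨Xc, h1, h2⟩ := h.core
    exact h2 X ⟨hX.1.le, hX.2.trans h1.1⟩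
  · show X * (2 * m * Q.P X) ≤ K * ε ∧ X * |X * (2 * m * (2 * m * (Q.lg X).re * Q.P X))| ≤ K * ε
    have hX : 0 < X := by linarith
    have h1 : ‖Q.W1 X‖ ≤ ε := (h.ext 0 (by norm_num) X hx).1
    have h2 : ‖Du Q.W1 X‖ ≤ ε := (h.ext 1 (by norm_num) X hx).1
    have hP := mul_nonneg hX.le (cco_P_nonneg Q X)
    rw [cco_W1 Q hX, norm_real, Real.norm_of_nonneg (by positivity)] at h1
    rw [cco_DuW Q hX, norm_real, Real.norm_eq_abs] at h2
    obtain ⟨t, ht⟩ : ∃ t, t = X * (X * (2 * m * (Q.lg X).re * Q.P X)) := ⟨_, rfl⟩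
    have e : -X ^ 2 * ((m + 1) * (Q.P X + X * (2 * m * (Q.lg X).re * Q.P X))) =
        -(X * ((m + 1) * (X * Q.P X) + (m + 1) * t)) := by rw [ht]; ring
    have h3 : |(m + 1) * (X * Q.P X) + (m + 1) * t| ≤ ε := by
      rw [e, abs_neg, abs_mul, abs_of_pos hX] at h2
      exact (le_mul_of_one_le_left (abs_nonneg _) (by linarith)).trans h2
    have h4 : |(m + 1) * t| ≤ 2 * ε := by
      obtain ⟨h5, h6⟩ := abs_le.1 h3
      have h7 : 0 ≤ ((m : ℝ) + 1) * (X * Q.P X) := by positivity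
      exact abs_le.2 ⟨by linarith, by linarith⟩
    have e' : X * |X * (2 * m * (2 * m * (Q.lg X).re * Q.P X))| = 2 * (m * |t|) := by
      rw [ht, abs_mul X (X * _), abs_of_pos hX, mul_left_comm X (2 * (m : ℝ)), abs_mul (2 * (m : ℝ)),
        abs_of_nonneg (by positivity : (0 : ℝ) ≤ 2 * m)]
      ring
    rw [abs_mul, abs_of_nonneg (by positivity : (0 : ℝ) ≤ (m : ℝ) + 1)] at h4
    have h8 : 4 * ε ≤ K * ε := mul_le_mul_of_nonneg_right (by linarith) e1.le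
    rw [e']
    constructor <;> nlinarith [abs_nonneg t]
  · have h1 := Real.rpow_pos_of_pos (by linarith : 0 < X) (-2 * aa m)
    exact div_le_div_of_nonneg_left h1.le (by positivity) (by linarith)

end Vale.Agent.P139
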