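import Vale.Agent.P139.C.Bz

/-! P139 task C/Sys (PROOF.md section C). From `(f, g)` to `(η, ψ)`. `F = f / q` satisfies `D F + i (T + λ) F - M η = i ef / q` (profile equation),
`G = g / conj q` satisfies `D G - i (T + λ) G - M η = -i eg / conj q`. Near `0`: `q` is `C¹` on `[0, 1]` and does not vanish.
-/

noncomputable section

open MeasureTheory Filter Topology Set Complex
open scoped ComplexConjugate

namespace Vale.Agent.P139

variable {c : Co} {L Y : ℝ} {lam : ℂ} {u u1 v η η1 ψ ψ1 sη sψ f g ef eg : ℝ → ℂ} {m l : ℕ}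
  {Q : Prof m}

theorem csys_d2 {φ : ℝ → ℂ} {s : Set ℝ} (hs : IsOpen s) {n : WithTop ℕ∞}
    (h : ContDiffOn ℝ n φ s) (hn : 2 ≤ n) {X : ℝ} (hX : X ∈ s) :
    HasDerivAt φ (deriv φ X) X ∧ HasDerivAt (deriv φ) (deriv (deriv φ) X) X := by
  have h2 : ContDiffOn ℝ 2 φ s := h.of_le hn
  have h1 : ContDiffOn ℝ 1 (deriv φ) s := h2.deriv_of_isOpen hs (by norm_num)
  exact ⟨((h2.differentiableOn (by norm_num)).differentiableAt (hs.mem_nhds hX)).hasDerivAt,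
    ((h1.differentiableOn (by norm_num)).differentiableAt (hs.mem_nhds hX)).hasDerivAt⟩

theorem csys_q (Q : Prof m) {X : ℝ} (hX : 0 ≤ X) :
    HasDerivAt Q.q (deriv Q.q X) X ∧ HasDerivAt (deriv Q.q) (deriv (deriv Q.q) X) X := by
  obtain ⟨δ, hδ, h⟩ := Q.smooth
  exact csys_d2 isOpen_Ioi h (by norm_cast) (show -δ < X by linarith)

theorem csys_qb (Q : Prof m) {X : ℝ} (hX : 0 ≤ X) :
    HasDerivAt (fun Y => conj (Q.q Y)) (conj (deriv Q.q X)) X ∧
      HasDerivAt (fun Y => conj (deriv Q.q Y)) (conj (deriv (deriv Q.q) X)) X :=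
  ⟨(csys_q Q hX).1.star, (csys_q Q hX).2.star⟩

theorem csys_bz {φ : ℝ → ℂ} (h : ContinuousOn φ (Ici 0)) : Bz φ := by
  obtain ⟨K, hK⟩ := isCompact_Icc.exists_bound_of_continuousOn
    (h.mono (Icc_subset_Ici_self : Icc (0 : ℝ) 1 ⊆ Ici 0))
  exact ⟨h.mono Ioi_subset_Ici_self, K, fun X hX => hK X ⟨hX.1.le, hX.2⟩⟩

theorem csys_inv (Q : Prof m) : Bz fun X => (Q.q X)⁻¹ :=
  csys_bz (ContinuousOn.inv₀ (fun _ hX => (csys_q Q hX).1.continuousAt.continuousWithinAt) Q.ne)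

theorem csys_lg (Q : Prof m) : Bz Q.lg :=
  csys_bz (ContinuousOn.div (fun _ hX => (csys_q Q hX).2.continuousAt.continuousWithinAt)
    (fun _ hX => (csys_q Q hX).1.continuousAt.continuousWithinAt) Q.ne)

theorem csys_η (Q : Prof m) (hf : Bz f) (hg : Bz g) : Bz (Q.Fη f g) :=
  (((hf.mul (csys_inv Q)).add (hg.mul (csys_inv Q).cj)).div_const 2).congr fun X _ => by
    simp only [Prof.Fη, div_eq_mul_inv, map_inv₀]

theorem csys_ψ (Q : Prof m) (hf : Bz f) (hg : Bz g) : Bz (Q.Fψ f g) :=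
  (((hf.mul (csys_inv Q)).sub (hg.mul (csys_inv Q).cj)).div_const (2 * I)).congr fun X _ => by
    simp only [Prof.Fψ, div_eq_mul_inv, map_inv₀]

theorem csys_quot {p f : ℝ → ℂ} {X : ℝ} {p1 f1 : ℂ} (hp : HasDerivAt p p1 X)
    (hf : HasDerivAt f f1 X) (h0 : p X ≠ 0) :
    HasDerivAt (fun Y => f Y / p Y) ((f1 - p1 / p X * f X) / p X) X :=
  (hf.fun_div hp h0).congr_deriv (by field_simp)

theorem csys_core {p dp f df : ℝ → ℂ} {R : ℝ → ℝ} {X a : ℝ} {p2 f2 : ℂ}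
    (hp : HasDerivAt p (dp X) X) (hp2 : HasDerivAt dp p2 X) (hf : HasDerivAt f (df X) X)
    (hf2 : HasDerivAt df f2 X) (hR : HasDerivAt R (2 * a * R X) X) (h0 : p X ≠ 0) :
    HasDerivAt (fun Y => ((R Y * Y ^ 6 : ℝ) : ℂ) * ((df Y - dp Y / p Y * f Y) / p Y))
      ((R X * X ^ 5 : ℝ) * ((2 * a * X + 6 - 2 * X * (dp X / p X)) *
        ((df X - dp X / p X * f X) / p X) + (X * f2 - X * p2 / p X * f X) / p X)) X := by
  have h1 := (hR.fun_mul (hasDerivAt_pow 6 X)).ofReal_comp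
  have h2 := (hf2.fun_sub ((hp2.fun_div hp h0).fun_mul hf)).fun_div hp h0
  refine (h1.fun_mul h2).congr_deriv ?_
  push_cast
  field_simp
  ring

theorem csys_alg {X q qb f g f1 f2 q1 q2 al ph N m A lam b ef J : ℂ} (hq : q ≠ 0) (hqb : qb ≠ 0)
    (hl : q1 / q = al + J * ph)
    (e1 : X * f2 + (6 + J * X) * f1 - A * f + (b + J * lam) * f - (m + 1) * (N * (q * qb)) * f -
      m * N * q ^ 2 * g = J * ef)
    (e2 : X * q2 + (6 + J * X) * q1 + b * q = N * (q * qb) * q) :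
    (2 * al * X + 6 - 2 * X * (q1 / q)) * ((f1 - q1 / q * f) / q) + (X * f2 - X * q2 / q * f) / q =
      A * (f / q) - J * (lam * (f / q) + (1 + 2 * ph) * X * ((f1 - q1 / q * f) / q)) +
        m * (N * (q * qb)) * (f / q + g / qb) + J * (ef / q) := by
  obtain ⟨F, rfl⟩ : ∃ F, f = F * q := ⟨f / q, by field_simp⟩
  obtain ⟨G, rfl⟩ : ∃ G, g = G * qb := ⟨g / qb, by field_simp⟩
  obtain ⟨E, rfl⟩ : ∃ E, ef = E * q := ⟨ef / q, by field_simp⟩
  obtain ⟨F1, rfl⟩ : ∃ F, f1 = F * q := ⟨f1 / q, by field_simp⟩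
  obtain ⟨F2, rfl⟩ : ∃ F, f2 = F * q := ⟨f2 / q, by field_simp⟩
  obtain ⟨S, rfl⟩ : ∃ F, q2 = F * q := ⟨q2 / q, by field_simp⟩
  obtain ⟨T, rfl⟩ : ∃ F, q1 = F * q := ⟨q1 / q, by field_simp⟩
  have r0 : ∀ z : ℂ, z * q / q = z := fun z => mul_div_cancel_right₀ z hq
  have r1 : G * qb / qb = G := mul_div_cancel_right₀ G hqb
  have r2 : (F1 * q - T * (F * q)) / q = F1 - T * F := by field_simp
  have r3 : (X * (F2 * q) - X * (S * q) / q * (F * q)) / q = X * F2 - X * S * F := by field_simp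
  rw [r0] at hl
  rw [r3, r0, r0, r0, r1, r2]
  have a1 : X * F2 + (6 + J * X) * F1 - A * F + (b + J * lam) * F - (m + 1) * (N * (q * qb)) * F -
      m * N * (q * qb) * G = J * E := mul_right_cancel₀ hq (by linear_combination e1)
  have a2 : X * S + (6 + J * X) * T + b = N * (q * qb) :=
    mul_right_cancel₀ hq (by linear_combination e2)
  linear_combination a1 - F * a2 - 2 * X * (F1 - T * F) * hl

/-- The derivative of `f / q`. -/
def csysF (Q : Prof m) (f : ℝ → ℂ) (Y : ℝ) : ℂ := (deriv f Y - deriv Q.q Y / Q.q Y * f Y) / Q.q Y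

/-- The derivative of `g / conj q`. -/
def csysG (Q : Prof m) (g : ℝ → ℂ) (Y : ℝ) : ℂ :=
  (deriv g Y - conj (deriv Q.q Y) / conj (Q.q Y) * g Y) / conj (Q.q Y)

theorem csys_ne (Q : Prof m) {X : ℝ} (hX : 0 < X) : conj (Q.q X) ≠ 0 :=
  (map_ne_zero _).2 (Q.ne X hX.le)

theorem csys_d1 (h : Q.RSol l lam f g ef eg) {X : ℝ} (hX : 0 < X) :
    HasDerivAt (Q.Fη f g) ((csysF Q f X + csysG Q g X) / 2) X ∧
      HasDerivAt (Q.Fψ f g) ((csysF Q f X - csysG Q g X) / (2 * I)) X := by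
  have a := csys_quot (csys_q Q hX.le).1 (csys_d2 isOpen_Ioi h.sf (by norm_num) hX).1 (Q.ne X hX.le)
  have b := csys_quot (csys_qb Q hX.le).1 (csys_d2 isOpen_Ioi h.sg (by norm_num) hX).1
    (csys_ne Q hX)
  exact ⟨(a.fun_add b).div_const 2, (a.fun_sub b).div_const (2 * I)⟩

theorem csys_FG (hc : Q.IsCo c) (h : Q.RSol l lam f g ef eg) {X : ℝ} (hX : 0 < X) :
    HasDerivAt (fun Y => ((c.R Y * Y ^ 6 : ℝ) : ℂ) * csysF Q f Y)
      ((c.R X * X ^ 5 : ℝ) * (l * (l + 10) / (4 * X) * (f X / Q.q X) -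
        I * (lam * (f X / Q.q X) + c.w X * X * csysF Q f X) + c.M X * Q.Fη f g X +
          I * (ef X / Q.q X))) X ∧
    HasDerivAt (fun Y => ((c.R Y * Y ^ 6 : ℝ) : ℂ) * csysG Q g Y)
      ((c.R X * X ^ 5 : ℝ) * (l * (l + 10) / (4 * X) * (g X / conj (Q.q X)) +
        I * (lam * (g X / conj (Q.q X)) + c.w X * X * csysG Q g X) + c.M X * Q.Fη f g X -
          I * (eg X / conj (Q.q X)))) X := by
  obtain ⟨-, hal, hw, hM⟩ := hc X hX
  obtain ⟨f1, f2⟩ := csys_d2 isOpen_Ioi h.sf (by norm_num) hX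
  obtain ⟨g1, g2⟩ := csys_d2 isOpen_Ioi h.sg (by norm_num) hX
  have hN : (normSq (Q.q X) : ℂ) ^ m = (normSq (Q.q X) : ℂ) ^ (m - 1) * (Q.q X * conj (Q.q X)) := by
    rw [mul_conj, ← pow_succ, Nat.sub_add_cancel Q.m_pos]
  have hP : (Q.P X : ℂ) = (normSq (Q.q X) : ℂ) ^ (m - 1) * (Q.q X * conj (Q.q X)) := by
    rw [← hN, Prof.P, ofReal_pow]
  have hl : deriv Q.q X / Q.q X = (Q.lg X).re + I * (Q.lg X).im := by
    rw [mul_comm, re_add_im]; rfl
  have hl' : conj (deriv Q.q X) / conj (Q.q X) = (Q.lg X).re + -I * (Q.lg X).im := by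
    rw [← map_div₀, hl]; simp
  have e2 := Q.ode X hX.le
  have e2' := congrArg conj e2
  simp only [map_add, map_mul, map_pow, conj_ofReal, conj_I, map_ofNat] at e2'
  have e1 := h.odef X hX
  have e1' := h.odeg X hX
  simp only [Prof.V1, Prof.V2, map_mul, map_pow, conj_ofReal, map_natCast, hP] at e1 e1'
  rw [hN] at e2 e2'
  constructor
  · refine (csys_core (csys_q Q hX.le).1 (csys_q Q hX.le).2 f1 f2 (c.dR X hX)
      (Q.ne X hX.le)).congr_deriv (congrArg _ ?_)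
    have k := csys_alg (X := X) (Q.ne X hX.le) (csys_ne Q hX) hl (b := Q.β + I * aa m)
      (by linear_combination e1) e2 (A := l * (l + 10) / (4 * X)) (f := f X) (g := g X)
      (f1 := deriv f X) (f2 := deriv (deriv f) X) (m := m) (lam := lam) (ef := ef X)
    rw [hal, hw, hM, k]
    simp only [csysF, Prof.Fη, ofReal_add, ofReal_mul, ofReal_one, ofReal_ofNat, ofReal_natCast, hP]
    ring
  · refine (csys_core (csys_qb Q hX.le).1 (csys_qb Q hX.le).2 g1 g2 (c.dR X hX)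
      (csys_ne Q hX)).congr_deriv (congrArg _ ?_)
    have k := csys_alg (X := X) (csys_ne Q hX) (Q.ne X hX.le) hl' (b := Q.β - I * aa m)
      (N := (normSq (Q.q X) : ℂ) ^ (m - 1)) (q2 := conj (deriv (deriv Q.q) X))
      (by linear_combination e1') (by linear_combination e2') (A := l * (l + 10) / (4 * X))
      (f := g X) (g := f X)
      (f1 := deriv g X) (f2 := deriv (deriv g) X) (m := m) (lam := lam) (ef := eg X)
    rw [hal, hw, hM, k]
    simp only [csysG, Prof.Fη, ofReal_add, ofReal_mul, ofReal_one, ofReal_ofNat, ofReal_natCast, hP]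
    ring

theorem csys_sq : Bz fun X : ℝ => ((√X : ℝ) : ℂ) :=
  csys_bz (continuous_ofReal.comp Real.continuous_sqrt).continuousOn

theorem csys_sqd {φ : ℝ → ℂ} (h : ContDiffOn ℝ 10 φ (Ioi 0))
    (hb : ∃ K, ∀ X ∈ Ioc (0 : ℝ) 1, √X * ‖deriv φ X‖ ≤ K) :
    Bz fun X : ℝ => ((√X : ℝ) : ℂ) * deriv φ X :=
  ⟨csys_sq.c.mul fun _ hX =>
    (csys_d2 isOpen_Ioi h (by norm_num) hX).2.continuousAt.continuousWithinAt,
    hb.imp fun _ hK X hX => by
      rw [norm_mul, Complex.norm_real, Real.norm_of_nonneg (Real.sqrt_nonneg X)]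
      exact hK X hX⟩

theorem csys_dv {u u1 v : ℝ → ℂ} (hu : Bz u) (h1 : Bz fun X : ℝ => ((√X : ℝ) : ℂ) * u1 X)
    (hv : Bz v) : ∃ K, ∀ X ∈ Ioc (0 : ℝ) 1, ‖u X‖ ≤ K ∧ √X * ‖u1 X‖ ≤ K ∧ ‖v X‖ ≤ K := by
  obtain ⟨K1, k1⟩ := hu.b
  obtain ⟨K2, k2⟩ := h1.b
  obtain ⟨K3, k3⟩ := hv.b
  refine ⟨max K1 (max K2 K3), fun X hX => ⟨le_max_of_le_left (k1 X hX),
    le_max_of_le_right (le_max_of_le_left ?_), le_max_of_le_right (le_max_of_le_right (k3 X hX))⟩⟩
  have := k2 X hX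
  rwa [norm_mul, Complex.norm_real, Real.norm_of_nonneg (Real.sqrt_nonneg X)] at this

theorem c_sys (hc : Q.IsCo c) (h : Q.RSol l lam f g ef eg) (h1 : ContinuousOn ef (Ioi 0))
    (h2 : ContinuousOn eg (Ioi 0)) (hb : ∃ K, ∀ X ∈ Ioc (0 : ℝ) 1, ‖ef X‖ ≤ K ∧ ‖eg X‖ ≤ K) :
    c.Sys (l * (l + 10)) lam (Q.Fη f g) (deriv (Q.Fη f g)) (Q.Fψ f g) (deriv (Q.Fψ f g))
      (Q.Fη ef eg) (Q.Fψ ef eg) := by
  obtain ⟨C, hC⟩ := h.at0
  obtain ⟨K, hK⟩ := hb
  have bf : Bz f := ⟨h.sf.continuousOn, C, fun X hX => (hC X hX).1⟩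
  have bg : Bz g := ⟨h.sg.continuousOn, C, fun X hX => (hC X hX).2.2.1⟩
  have bef : Bz ef := ⟨h1, K, fun X hX => (hK X hX).1⟩
  have beg : Bz eg := ⟨h2, K, fun X hX => (hK X hX).2⟩
  have bf1 := csys_sqd h.sf ⟨C, fun X hX => (hC X hX).2.1⟩
  have bg1 := csys_sqd h.sg ⟨C, fun X hX => (hC X hX).2.2.2⟩
  have bF : Bz fun X : ℝ => ((√X : ℝ) : ℂ) * csysF Q f X :=
    ((bf1.sub ((csys_lg Q).mul (csys_sq.mul bf))).mul (csys_inv Q)).congr fun X _ => by
      simp only [csysF, Prof.lg, div_eq_mul_inv]; ring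
  have bG : Bz fun X : ℝ => ((√X : ℝ) : ℂ) * csysG Q g X :=
    ((bg1.sub ((csys_lg Q).cj.mul (csys_sq.mul bg))).mul (csys_inv Q).cj).congr fun X _ => by
      simp only [csysG, Prof.lg, div_eq_mul_inv, map_mul, map_inv₀]; ring
  have bη1 : Bz fun X : ℝ => ((√X : ℝ) : ℂ) * deriv (Q.Fη f g) X :=
    ((bF.add bG).div_const 2).congr fun X hX => by rw [(csys_d1 h hX).1.deriv]; ring
  have bψ1 : Bz fun X : ℝ => ((√X : ℝ) : ℂ) * deriv (Q.Fψ f g) X :=
    ((bF.sub bG).div_const (2 * I)).congr fun X hX => by rw [(csys_d1 h hX).2.deriv]; ring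
  have hsq : ∀ X : ℝ, 0 < X → (X : ℂ) = ((√X : ℝ) : ℂ) * ((√X : ℝ) : ℂ) := fun X hX => by
    rw [← ofReal_mul, Real.mul_self_sqrt hX.le]
  have bη := csys_η Q bf bg
  have bψ := csys_ψ Q bf bg
  have sη := csys_η Q bef beg
  have sψ := csys_ψ Q bef beg
  have xη : Bz fun X : ℝ => (c.w X : ℂ) * X * deriv (Q.Fη f g) X :=
    (c.bz_w.ofReal.mul (csys_sq.mul bη1)).congr fun X hX => by
      rw [← mul_assoc ((√X : ℝ) : ℂ), ← hsq X hX, mul_assoc]
  have xψ : Bz fun X : ℝ => (c.w X : ℂ) * X * deriv (Q.Fψ f g) X :=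
    (c.bz_w.ofReal.mul (csys_sq.mul bψ1)).congr fun X hX => by
      rw [← mul_assoc ((√X : ℝ) : ℂ), ← hsq X hX, mul_assoc]
  have v1 := (((Bz.const lam).mul bη).add xη).neg.add sη
  have v2 := ((((Bz.const lam).mul bψ).add xψ).add (c.bz_M.ofReal.mul bη)).sub sψ
  obtain ⟨K1, k1⟩ := sη.b
  obtain ⟨K2, k2⟩ := sψ.b
  refine ⟨by positivity, ⟨fun X hX => (csys_d1 h hX).2.differentiableAt.hasDerivAt, fun X hX => ?_,
    v1.c, csys_dv bψ bψ1 v1⟩, ⟨fun X hX => (csys_d1 h hX).1.differentiableAt.hasDerivAt,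
    fun X hX => ?_, v2.c, csys_dv bη bη1 v2⟩, sη.c, sψ.c, max K1 K2,
    fun X hX => ⟨le_max_of_le_left (k1 X hX), le_max_of_le_right (k2 X hX)⟩⟩
  · obtain ⟨a, b⟩ := csys_FG hc h hX
    refine (((a.fun_sub b).div_const (2 * I)).congr_of_eventuallyEq ?_).congr_deriv ?_
    · filter_upwards [Ioi_mem_nhds hX] with Y hY
      rw [(csys_d1 h hY).2.deriv]; ring
    · rw [(csys_d1 h hX).1.deriv]
      simp only [Prof.Fη, Prof.Fψ, ofReal_mul, ofReal_add, ofReal_natCast, ofReal_ofNat]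
      generalize f X / Q.q X = F
      generalize g X / conj (Q.q X) = G
      generalize ef X / Q.q X = E
      generalize eg X / conj (Q.q X) = E'
      generalize (l : ℂ) * (l + 10) / (4 * X) = A
      field_simp
      ring
  · obtain ⟨a, b⟩ := csys_FG hc h hX
    refine (((a.fun_add b).div_const 2).congr_of_eventuallyEq ?_).congr_deriv ?_
    · filter_upwards [Ioi_mem_nhds hX] with Y hY
      rw [(csys_d1 h hY).1.deriv]; ring
    · rw [(csys_d1 h hX).2.deriv]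
      simp only [Prof.Fη, Prof.Fψ, ofReal_mul, ofReal_add, ofReal_natCast, ofReal_ofNat]
      generalize f X / Q.q X = F
      generalize g X / conj (Q.q X) = G
      generalize ef X / Q.q X = E
      generalize eg X / conj (Q.q X) = E'
      generalize (l : ℂ) * (l + 10) / (4 * X) = A
      have hI : (2 * I)⁻¹ = -I / 2 := by
        rw [mul_inv, inv_I]; ring
      simp only [div_eq_mul_inv _ (2 * I), hI]
      ring

theorem c_sys0 (hc : Q.IsCo c) (h : Q.RSol l lam f g 0 0) :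
    c.Sys (l * (l + 10)) lam (Q.Fη f g) (deriv (Q.Fη f g)) (Q.Fψ f g) (deriv (Q.Fψ f g)) 0 0 := by
  have k := c_sys hc h continuousOn_const continuousOn_const ⟨0, fun X _ => by simp⟩
  have e1 : Q.Fη 0 0 = 0 := by ext X; simp [Prof.Fη]
  have e2 : Q.Fψ 0 0 = 0 := by ext X; simp [Prof.Fψ]
  rwa [e1, e2] at k

theorem c_FG (h : Q.RSol l lam f g ef eg) {X : ℝ} (hX : 0 < X) :
    Q.Fη f g X + I * Q.Fψ f g X = f X / Q.q X ∧
    Q.Fη f g X - I * Q.Fψ f g X = g X / conj (Q.q X) ∧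
    deriv (Q.Fη f g) X + I * deriv (Q.Fψ f g) X = (deriv f X - Q.lg X * f X) / Q.q X ∧
    deriv (Q.Fη f g) X - I * deriv (Q.Fψ f g) X =
      (deriv g X - conj (Q.lg X) * g X) / conj (Q.q X) := by
  rw [(csys_d1 h hX).1.deriv, (csys_d1 h hX).2.deriv]
  have e : ∀ z : ℂ, I * (z / (2 * I)) = z / 2 := fun z => by field_simp
  simp only [Prof.Fη, Prof.Fψ, e, csysF, csysG, Prof.lg, map_div₀]
  refine ⟨by ring, by ring, by ring, by ring⟩

end Vale.Agent.P139
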