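import Vale.Agent.P139.X
import Vale.Agent.P139.C.Sys
import Vale.Agent.P139.C.Co
import Vale.Agent.P139.C.BdryAux

/-! P139 task C/Bdry (PROOF.md section C). Boundary inequalities for large parameters. `ext_hom` divided by `‖row.2‖ ≥ c Θ⁴` (`row_big`, `ℓ = (l+5)/2`, `im ν = ± ω - β`) gives
`Lam f + 5/2 f = N0 f + O(ε (s n + ‖Lam f‖ + ‖Lam g‖))`, same for `conj g`; absorb for small `ε`; then `c_FG` with `‖X lg‖ ≤ K`, `|q|` between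
`1/√K` and `√K` on `[X0, X0+1]` (`c_co`, `in_R`).
-/

noncomputable section

open MeasureTheory Filter Topology Set Complex
open scoped ComplexConjugate

namespace Vale.Agent.P139

variable {c : Co} {L Y : ℝ} {lam : ℂ} {u u1 v η η1 ψ ψ1 sη sψ f g ef eg : ℝ → ℂ} {m l : ℕ}
  {Q : Prof m}

theorem cbdry_row (μ0 : ℝ) {θ : ℝ} (hθ : 0 < θ) : ∃ Λ C c : ℝ, 0 < c ∧ 0 ≤ C ∧
    ∀ (ν : ℂ) (l : ℕ) (ω : ℝ), ν.re ∈ Icc (-5 / 2) μ0 → |ν.im| ≤ |ω| + 1 → |ω| ≤ |ν.im| + 1 →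
      Λ ≤ l + |ω| → ∀ X ∈ Icc (2 : ℝ) 4, ∀ r : ℂ × ℂ, r = row ν ((l + 5) / 2) X →
        c * (l + |ω| + 1) ^ 4 ≤ ‖r.2‖ ∧ ‖-r.1 / r.2‖ ≤ C * (l + √|ω| + 1) ∧ (-r.1 / r.2).re ≤ C ∧
        (θ * ((l + 5) / 2) ^ 2 ≤ ν.im → (-r.1 / r.2).re ≤ -c * √|ν.im|) ∧
        ((1 + θ) * ((l + 5) / 2) ^ 2 ≤ X * -ν.im → c * √|ν.im| ≤ (-r.1 / r.2).im) := by
  obtain ⟨Λ, C, c, hc, h⟩ := row_big μ0 hθ
  refine ⟨2 * Λ, 5 * |C|, c / 16, by positivity, by positivity,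
    fun ν l ω h1 h2 h3 h4 X hX r hr => ?_⟩
  have hl : (0 : ℝ) ≤ l := Nat.cast_nonneg l
  have hω := abs_nonneg ω
  obtain ⟨a1, a2, a3, a4, a5⟩ := h ν ((l + 5) / 2) (by linarith) h1 (by linarith) X hX
  rw [← hr] at a1 a2 a3 a4 a5
  have hs := Real.sqrt_nonneg |ω|
  have hs' := Real.sqrt_nonneg |ν.im|
  have b1 : √|ν.im| ≤ √|ω| + 1 := by
    rw [Real.sqrt_le_left (by linarith)]
    have := Real.sq_sqrt hω
    nlinarith
  have b2 : c / 16 * √|ν.im| ≤ c * √|ν.im| := mul_le_mul_of_nonneg_right (by linarith) hs'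
  refine ⟨le_trans ?_ a1, ?_, by linarith [le_abs_self C, abs_nonneg C],
    fun h => (a4 h).trans (by linarith), fun h => b2.trans (a5 h)⟩
  · have t1 : ((l + |ω| + 1) / 2) ^ 4 ≤ ((l + 5) / 2 + |ν.im| + 1) ^ 4 :=
      pow_le_pow_left₀ (by positivity) (by linarith) 4
    have t2 := mul_le_mul_of_nonneg_left t1 hc.le
    linarith
  · rw [neg_div, norm_neg]
    have t1 : C * ((l + 5) / 2 + √|ν.im| + 1) ≤ |C| * (5 * (l + √|ω| + 1)) :=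
      mul_le_mul (le_abs_self C) (by linarith) (by positivity) (abs_nonneg C)
    linarith

theorem cbdry_nu (Q : Prof m) (lam : ℂ) :
    (Q.nu lam).re = lam.re + aa m - 5 / 2 ∧ (Q.nu lam).im = lam.im - Q.β := by
  constructor
  · simp [Prof.nu, nu0]
  · simp [Prof.nu, nu0, sub_eq_add_neg]

theorem c_bdry (C μ0 : ℝ) (hC : 0 < C) {θ : ℝ} (hθ : 0 < θ) : ∃ Λ K c1 ε0 : ℝ, 0 < c1 ∧ 0 < ε0 ∧
    0 ≤ K ∧ ∀ (m : ℕ) (Q : Prof m) (X0 ε : ℝ), ε ∈ Ioc 0 ε0 → Q.Good X0 ε C →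
      ∀ (l : ℕ) (lam : ℂ) (f g : ℝ → ℂ), Q.RSol l lam f g 0 0 → lam.re ∈ Icc 0 μ0 →
        Λ ≤ l + |lam.im| → ∀ X ∈ Icc X0 (X0 + 1), ∀ (F F1 G G1 : ℂ) (s : ℝ),
          F = f X / Q.q X → F1 = (deriv f X - Q.lg X * f X) / Q.q X → G = g X / conj (Q.q X) →
          G1 = (deriv g X - conj (Q.lg X) * g X) / conj (Q.q X) → s = l + √|lam.im| + 1 →
          ‖F1‖ + ‖G1‖ ≤ K * s * (‖F‖ + ‖G‖) ∧
          (F1 * conj F + G1 * conj G).re ≤ K * (1 + ε * s) * (‖F‖ + ‖G‖) ^ 2 ∧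
          (θ * ((l + 5) / 2) ^ 2 + 1 ≤ lam.im → (F1 * conj F).re ≤
            -c1 * √lam.im * ‖F‖ ^ 2 + K * (1 + ε * s) * (‖F‖ + ‖G‖) ^ 2) ∧
          ((1 + θ) * ((l + 5) / 2) ^ 2 ≤ X * lam.im → (G1 * conj G).im ≤
            -c1 * √lam.im * ‖G‖ ^ 2 + K * (1 + ε * s) * (‖F‖ + ‖G‖) ^ 2) := by
  obtain ⟨K1, ε1, hε1, hE⟩ := ext_hom C μ0
  obtain ⟨Kc, hKc, hco⟩ := c_co C hC
  obtain ⟨Λ, C0, c0, hc0, hC0, hR⟩ := cbdry_row μ0 hθ
  have hK1 := abs_nonneg K1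
  refine ⟨Λ, C0 + 5 / 2 + Kc + |K1| / c0 * (2 * C0 + 7), c0 / 8,
    min ε1 (min (1 / 4) (c0 / (2 * (|K1| + 1)))), by positivity, by positivity, by positivity,
    fun m Q X0 ε hε hG l lam f g h hre hΛ X hX F F1 G G1 s hF hF1 hG' hG1 hs => ?_⟩
  obtain ⟨hε0, hε'⟩ := hε
  obtain ⟨e1, e2, e3⟩ : ε ≤ ε1 ∧ ε ≤ 1 / 4 ∧ ε ≤ c0 / (2 * (|K1| + 1)) := by
    simpa only [le_min_iff] using hε'
  obtain ⟨⟨x1, x2⟩, β1, β2⟩ := hG.box
  simp only [Xlo, Xhi, βlo, βhi] at x1 x2 β1 β2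
  have hX' : X ∈ Icc (2 : ℝ) 4 := ⟨by linarith [hX.1], by linarith [hX.2]⟩
  have hX0 : 0 < X := by linarith [hX'.1]
  have ha0 : 0 ≤ aa m := by unfold aa; positivity
  have ha1 := hG.a_le
  obtain ⟨n1, n2⟩ := cbdry_nu Q lam
  obtain ⟨n3, n4⟩ := cbdry_nu Q (conj lam)
  rw [conj_re] at n3
  rw [conj_im] at n4
  have hl : (0 : ℝ) ≤ l := Nat.cast_nonneg l
  have w1 := le_abs_self lam.im
  have w2 := neg_abs_le lam.im
  have w3 := le_abs_self (Q.nu lam).im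
  have w4 := neg_abs_le (Q.nu lam).im
  have w5 := le_abs_self (Q.nu (conj lam)).im
  have w6 := neg_abs_le (Q.nu (conj lam)).im
  obtain ⟨r, hr⟩ : ∃ r, r = row (Q.nu lam) ((l + 5) / 2) X := ⟨_, rfl⟩
  obtain ⟨r', hr'⟩ : ∃ r, r = row (Q.nu (conj lam)) ((l + 5) / 2) X := ⟨_, rfl⟩
  obtain ⟨a1, a2, a3, a4, -⟩ := hR (Q.nu lam) l lam.im ⟨by linarith [hre.1], by linarith [hre.2]⟩
    (abs_le.2 ⟨by linarith, by linarith⟩) (abs_le.2 ⟨by linarith, by linarith⟩) hΛ X hX' r hr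
  obtain ⟨b1, b2, b3, -, b5⟩ := hR (Q.nu (conj lam)) l lam.im
    ⟨by linarith [hre.1], by linarith [hre.2]⟩ (abs_le.2 ⟨by linarith, by linarith⟩)
    (abs_le.2 ⟨by linarith, by linarith⟩) hΛ X hX' r' hr'
  have hE1 := hE m Q X0 ε hε0 e1 hG l lam f g hre h X hX
  rw [← hr, ← hr', ← hs] at hE1
  rw [← hs] at a2 b2
  have hs1 : 1 ≤ s := by linarith [Real.sqrt_nonneg |lam.im|]
  have hB : Lam (fun Y => conj (g Y)) X = conj (Lam g X) := by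
    have : deriv (fun Y => conj (g Y)) X = conj (deriv g X) := deriv.star
    simp only [Lam, this, map_mul, conj_ofReal]
  have hδ : |K1| / c0 * ε ≤ 1 / 2 := by
    rw [le_div_iff₀ (by positivity)] at e3
    rw [div_mul_eq_mul_div, div_le_iff₀ hc0]
    linarith
  obtain ⟨e, e', p1, p2, p3⟩ := cbdry_abs (f := f X) (g := conj (g X)) (A := Lam f X)
    (B := conj (Lam g X)) (δ := |K1| / c0 * ε) (by positivity) a1 b1 a2 b2 hs1 (by positivity) hδ (by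
      simp only [dotR, dat, hB] at hE1
      rw [norm_conj, norm_conj]
      refine hE1.trans ?_
      have t0 : 0 ≤ s := by linarith
      have t1 : 0 ≤ ε * (l + |lam.im| + 1) ^ 4 *
          (s * (‖f X‖ + ‖g X‖) + (‖Lam f X‖ + ‖Lam g X‖)) := by positivity
      have t2 := mul_le_mul_of_nonneg_right (le_abs_self K1) t1
      refine le_of_eq_of_le (by ring) (t2.trans_eq ?_)
      field_simp)
  obtain ⟨c, -, hc⟩ := hco m Q
  have hZ := (hc X0 ε ⟨hε0, e2⟩ hG).2 X hX0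
  have hq : Q.q X ≠ 0 := Q.ne X hX0.le
  have hq' : 0 < ‖Q.q X‖ := norm_pos_iff.2 hq
  have q1 : X * F1 = (-r.1 / r.2 - 5 / 2 - X * Q.lg X) * F + e / Q.q X := by
    rw [hF, hF1, Lam] at *
    linear_combination p1 / Q.q X
  have q2 : X * conj G1 = (-r'.1 / r'.2 - 5 / 2 - X * Q.lg X) * conj G + e' / Q.q X := by
    rw [hG', hG1]
    simp only [Lam, map_mul, conj_ofReal] at p2
    simp only [map_div₀, map_sub, map_mul, conj_conj]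
    linear_combination p2 / Q.q X
  have q3 : ‖e / Q.q X‖ + ‖e' / Q.q X‖ ≤ |K1| / c0 * (2 * C0 + 7) * ε * s * (‖F‖ + ‖G‖) := by
    rw [hF, hG', norm_div, norm_div, norm_div, norm_div, norm_conj, ← add_div, ← add_div,
      ← mul_div_assoc]
    rw [norm_conj] at p3
    exact div_le_div_of_nonneg_right (p3.trans_eq (by ring)) hq'.le
  obtain ⟨z1, z2, z3, z4⟩ := cbdry_fin (c := c0 / 8) (w := √lam.im) hX' q1 q2 hZ a2 b2 hs1 hC0 a3 b3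
    q3 (by positivity) ⟨hε0.le, by linarith⟩ (by positivity) (Real.sqrt_nonneg _)
  refine ⟨z1, z2, fun h => z3 ?_, fun h => z4 ?_⟩
  · have t0 : 0 ≤ θ * ((l + 5) / 2) ^ 2 := by positivity
    have t1 : √lam.im ≤ 2 * √|(Q.nu lam).im| := by
      rw [Real.sqrt_le_left (by positivity), mul_pow, Real.sq_sqrt (abs_nonneg _)]
      linarith
    have t2 := mul_le_mul_of_nonneg_left t1 hc0.le
    have t3 := a4 (by linarith)
    linarith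
  · have t0 : X * lam.im ≤ X * -(Q.nu (conj lam)).im :=
      mul_le_mul_of_nonneg_left (by linarith) hX0.le
    have t1 : √lam.im ≤ √|(Q.nu (conj lam)).im| := Real.sqrt_le_sqrt (by linarith)
    have t2 := mul_le_mul_of_nonneg_left t1 hc0.le
    have t3 := b5 (h.trans t0)
    have t4 := mul_nonneg hc0.le (Real.sqrt_nonneg lam.im)
    linarith

end Vale.Agent.P139
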