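import Vale.Agent.P139.C.Def

/-! P139 task C/Lin (PROOF.md section C). Linear algebra of `RSol` and uniqueness for the ODE system (`ODE_solution_unique_of_mem_Ioo` or Gronwall on a compact interval
of `(0, ∞)` for the vector `(f, f', g, g')`, coefficients continuous).
-/

noncomputable section

open MeasureTheory Filter Topology Set Complex
open scoped ComplexConjugate

namespace Vale.Agent.P139

variable {c : Co} {L Y : ℝ} {lam : ℂ} {u u1 v η η1 ψ ψ1 sη sψ f g ef eg : ℝ → ℂ} {m l : ℕ}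
  {Q : Prof m}

theorem clin_gron {E : Type*} [NormedAddCommGroup E] [NormedSpace ℝ E] {y y' : ℝ → E}
    {a b K t0 : ℝ} (hd : ∀ t ∈ Icc a b, HasDerivAt y (y' t) t)
    (hb : ∀ t ∈ Icc a b, ‖y' t‖ ≤ K * ‖y t‖) (ht : t0 ∈ Icc a b) (h0 : y t0 = 0) :
    ∀ t ∈ Icc a b, y t = 0 := by
  intro t h
  rcases le_total t0 t with h1 | h1
  · have hs : Icc t0 b ⊆ Icc a b := Icc_subset_Icc_left ht.1
    exact eq_zero_of_abs_deriv_le_mul_abs_self_of_eq_zero_right (f := y) (f' := y') (K := K)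
      (fun x hx => (hd x (hs hx)).continuousAt.continuousWithinAt)
      (fun x hx => (hd x (hs (Ico_subset_Icc_self hx))).hasDerivWithinAt) h0
      (fun x hx => hb x (hs (Ico_subset_Icc_self hx))) t ⟨h1, h.2⟩
  · have hs : ∀ x ∈ Icc (-t0) (-a), -x ∈ Icc a b := fun x hx =>
      ⟨by linarith [hx.2], by linarith [hx.1, ht.2]⟩
    have hd' : ∀ x ∈ Icc (-t0) (-a), HasDerivAt (fun s => y (-s)) (-y' (-x)) x := fun x hx => by
      have := (hd (-x) (hs x hx)).scomp x (hasDerivAt_neg x)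
      simpa [Function.comp_def] using this
    have := eq_zero_of_abs_deriv_le_mul_abs_self_of_eq_zero_right (f := fun s => y (-s))
      (f' := fun x => -y' (-x)) (K := K)
      (fun x hx => (hd' x hx).continuousAt.continuousWithinAt)
      (fun x hx => (hd' x (Ico_subset_Icc_self hx)).hasDerivWithinAt) (by simpa using h0)
      (fun x hx => by simpa using hb (-x) (hs x (Ico_subset_Icc_self hx))) (-t)
      ⟨by linarith, by linarith [h.1]⟩
    simpa using this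

theorem clin_tri {p q r u v w : ℂ} {K n : ℝ} (hp : ‖p‖ ≤ K) (hq : ‖q‖ ≤ K) (hr : ‖r‖ ≤ K)
    (hu : ‖u‖ ≤ n) (hv : ‖v‖ ≤ n) (hw : ‖w‖ ≤ n) : ‖p * u + q * v + r * w‖ ≤ 3 * K * n := by
  have hK : 0 ≤ K := (norm_nonneg _).trans hp
  have h1 : ‖p * u‖ ≤ K * n := by rw [norm_mul]; gcongr
  have h2 : ‖q * v‖ ≤ K * n := by rw [norm_mul]; gcongr
  have h3 : ‖r * w‖ ≤ K * n := by rw [norm_mul]; gcongr
  have h4 := norm_add₃_le (a := p * u) (b := q * v) (c := r * w)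
  linarith

theorem clin_uniq {f f1 g g1 a1 a2 a3 b1 b2 b3 : ℝ → ℂ}
    (hc : ContinuousOn (fun X => (a1 X, a2 X, a3 X, b1 X, b2 X, b3 X)) (Ioi 0))
    (hf : ∀ X, 0 < X → HasDerivAt f (f1 X) X) (hg : ∀ X, 0 < X → HasDerivAt g (g1 X) X)
    (hf1 : ∀ X, 0 < X → HasDerivAt f1 (a1 X * f X + a2 X * f1 X + a3 X * g X) X)
    (hg1 : ∀ X, 0 < X → HasDerivAt g1 (b1 X * g X + b2 X * g1 X + b3 X * f X) X)
    {X : ℝ} (hX : 0 < X) (h1 : f X = 0) (h2 : g X = 0) (h3 : f1 X = 0) (h4 : g1 X = 0) :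
    ∀ Y, 0 < Y → f Y = 0 ∧ g Y = 0 := by
  intro Y hY
  have hs : Icc (min X Y) (max X Y) ⊆ Ioi 0 := fun t ht => (lt_min hX hY).trans_le ht.1
  obtain ⟨K, hK⟩ := isCompact_Icc.exists_bound_of_continuousOn (hc.mono hs)
  have key := clin_gron (y := fun t => (f t, f1 t, g t, g1 t))
    (y' := fun t => (f1 t, a1 t * f t + a2 t * f1 t + a3 t * g t, g1 t,
      b1 t * g t + b2 t * g1 t + b3 t * f t)) (K := 3 * K + 1) (a := min X Y) (b := max X Y)
    (fun t ht => (hf t (hs ht)).prodMk ((hf1 t (hs ht)).prodMk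
      ((hg t (hs ht)).prodMk (hg1 t (hs ht))))) (fun t ht => ?_)
    ⟨min_le_left X Y, le_max_left X Y⟩ (by simp [h1, h2, h3, h4]) Y
    ⟨min_le_right X Y, le_max_right X Y⟩
  · simp only [Prod.mk_eq_zero] at key
    exact ⟨key.1, key.2.2.1⟩
  · have hk := hK t ht
    have hK0 : 0 ≤ K := (norm_nonneg _).trans hk
    simp only [norm_prod_le_iff] at hk
    obtain ⟨k1, k2, k3, k4, k5, k6⟩ := hk
    obtain ⟨n, hn⟩ : ∃ n, n = ‖(f t, f1 t, g t, g1 t)‖ := ⟨_, rfl⟩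
    have hn0 : 0 ≤ n := hn ▸ norm_nonneg _
    have hn' := hn.ge
    simp only [norm_prod_le_iff] at hn'
    obtain ⟨n1, n2, n3, n4⟩ := hn'
    rw [← hn]
    have e1 := clin_tri k1 k2 k3 n1 n2 n3
    have e2 := clin_tri k4 k5 k6 n3 n4 n1
    have e3 : 0 ≤ 3 * K * n := by positivity
    simp only [norm_prod_le_iff]
    refine ⟨?_, ?_, ?_, ?_⟩ <;> linarith

theorem clin_it {f e : ℝ → ℂ} (hf : ContDiffOn ℝ 10 f (Ioi 0)) (he : ContDiffOn ℝ 10 e (Ioi 0))
    (κ : ℂ) {j : ℕ} (hj : j ≤ 10) {X : ℝ} (hX : 0 < X) :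
    iteratedDeriv j (fun X => f X - κ * e X) X =
      iteratedDeriv j f X - κ * iteratedDeriv j e X := by
  have hj' : (j : WithTop ℕ∞) ≤ 10 := by exact_mod_cast hj
  have h1 : ContDiffAt ℝ j f X := (hf.contDiffAt (Ioi_mem_nhds hX)).of_le hj'
  have h2 : ContDiffAt ℝ j e X := (he.contDiffAt (Ioi_mem_nhds hX)).of_le hj'
  rw [← iteratedDeriv_const_mul κ h2]
  exact iteratedDeriv_sub h1 (contDiffAt_const.mul h2)

theorem clin_d1 {f e : ℝ → ℂ} (hf : ContDiffOn ℝ 10 f (Ioi 0)) (he : ContDiffOn ℝ 10 e (Ioi 0))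
    (κ : ℂ) {X : ℝ} (hX : 0 < X) :
    deriv (fun X => f X - κ * e X) X = deriv f X - κ * deriv e X := by
  simpa only [iteratedDeriv_one] using clin_it hf he κ (j := 1) (by norm_num) hX

theorem clin_d2 {f e : ℝ → ℂ} (hf : ContDiffOn ℝ 10 f (Ioi 0)) (he : ContDiffOn ℝ 10 e (Ioi 0))
    (κ : ℂ) {X : ℝ} (hX : 0 < X) :
    deriv (deriv fun X => f X - κ * e X) X = deriv (deriv f) X - κ * deriv (deriv e) X := by
  simpa only [iteratedDeriv_succ, iteratedDeriv_zero] using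
    clin_it hf he κ (j := 2) (by norm_num) hX

theorem clin_nsub {a b κ : ℂ} {A B w : ℝ} (ha : ‖a‖ ≤ A * w) (hb : ‖b‖ ≤ B * w) :
    ‖a - κ * b‖ ≤ (A + ‖κ‖ * B) * w := by
  have h1 := norm_sub_le a (κ * b)
  have h2 := mul_le_mul_of_nonneg_left hb (norm_nonneg κ)
  rw [norm_mul] at h1
  nlinarith

theorem clin_conj (j : ℕ) (g : ℝ → ℂ) :
    iteratedDeriv j (fun X => conj (g X)) = fun X => conj (iteratedDeriv j g X) := by
  induction j with
  | zero => simp only [iteratedDeriv_zero]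
  | succ j ih =>
    rw [iteratedDeriv_succ, iteratedDeriv_succ, ih]
    exact deriv.star'

theorem clin_cd1 (g : ℝ → ℂ) : deriv (fun X => conj (g X)) = fun X => conj (deriv g X) :=
  deriv.star'

theorem clin_V1 (Q : Prof m) (X : ℝ) : conj (Q.V1 X) = Q.V1 X := by
  simp [Prof.V1]

theorem clin_qc (Q : Prof m) : ContinuousOn Q.q (Ioi 0) := by
  obtain ⟨δ, hδ, h⟩ := Q.smooth
  exact h.continuousOn.mono (Ioi_subset_Ioi (by linarith))

theorem clin_V1c (Q : Prof m) : ContinuousOn Q.V1 (Ioi 0) := by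
  have h := continuous_normSq.comp_continuousOn (clin_qc Q)
  exact continuousOn_const.mul (continuous_ofReal.comp_continuousOn (h.pow m))

theorem clin_V2c (Q : Prof m) : ContinuousOn Q.V2 (Ioi 0) := by
  have h := continuous_normSq.comp_continuousOn (clin_qc Q)
  exact (continuousOn_const.mul ((continuous_ofReal.comp_continuousOn h).pow _)).mul
    ((clin_qc Q).pow 2)

theorem clin_der {f : ℝ → ℂ} (hf : ContDiffOn ℝ 10 f (Ioi 0)) {X : ℝ} (hX : 0 < X) :
    HasDerivAt f (deriv f X) X ∧ HasDerivAt (deriv f) (deriv (deriv f) X) X := by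
  have h1 : ContDiffAt ℝ 10 f X := hf.contDiffAt (Ioi_mem_nhds hX)
  have h2 : ContDiffAt ℝ 9 (deriv f) X := h1.derivWithin (by norm_num)
  exact ⟨(h1.differentiableAt (by norm_num)).hasDerivAt,
    (h2.differentiableAt (by norm_num)).hasDerivAt⟩

theorem c_sub (h : Q.RSol l lam f g ef eg) {z : ℂ} {e e' : ℝ → ℂ} (he : Q.RSol l z e e' 0 0)
    (κ : ℂ) : Q.RSol l lam (fun X => f X - κ * e X) (fun X => g X - κ * e' X)
      (fun X => ef X - κ * (lam - z) * e X) fun X => eg X - κ * (lam - z) * e' X := by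
  refine ⟨h.sf.sub (contDiffOn_const.mul he.sf), h.sg.sub (contDiffOn_const.mul he.sg),
    fun X hX => ?_, fun X hX => ?_, ?_, fun j hj => ?_⟩
  · rw [clin_d2 h.sf he.sf κ hX, clin_d1 h.sf he.sf κ hX]
    have h2 := he.odef X hX
    simp only [Pi.zero_apply, mul_zero] at h2
    linear_combination h.odef X hX - κ * h2
  · rw [clin_d2 h.sg he.sg κ hX, clin_d1 h.sg he.sg κ hX]
    have h2 := he.odeg X hX
    simp only [Pi.zero_apply, mul_zero] at h2
    linear_combination h.odeg X hX - κ * h2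
  · obtain ⟨A, hA⟩ := h.at0
    obtain ⟨B, hB⟩ := he.at0
    refine ⟨A + ‖κ‖ * B, fun X hX => ?_⟩
    obtain ⟨a1, a2, a3, a4⟩ := hA X hX
    obtain ⟨b1, b2, b3, b4⟩ := hB X hX
    have hw : ∀ {u v : ℂ}, √X * ‖u‖ ≤ A → √X * ‖v‖ ≤ B → √X * ‖u - κ * v‖ ≤ A + ‖κ‖ * B := by
      intro u v hu hv
      have h1 := mul_le_mul_of_nonneg_left (norm_sub_le u (κ * v)) (Real.sqrt_nonneg X)
      have h2 := mul_le_mul_of_nonneg_left hv (norm_nonneg κ)
      rw [norm_mul] at h1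
      nlinarith
    rw [clin_d1 h.sf he.sf κ hX.1, clin_d1 h.sg he.sg κ hX.1]
    refine ⟨?_, hw a2 b2, ?_, hw a4 b4⟩
    · simpa using clin_nsub (κ := κ) (w := 1) (by simpa using a1) (by simpa using b1)
    · simpa using clin_nsub (κ := κ) (w := 1) (by simpa using a3) (by simpa using b3)
  · obtain ⟨A, hA⟩ := h.atInf j hj
    obtain ⟨B, hB⟩ := he.atInf j hj
    refine ⟨A + ‖κ‖ * B, fun X hX => ?_⟩
    have hX' : 0 < X := by linarith
    rw [clin_it h.sf he.sf κ hj hX', clin_it h.sg he.sg κ hj hX']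
    exact ⟨clin_nsub (hA X hX).1 (hB X hX).1, clin_nsub (hA X hX).2 (hB X hX).2⟩

theorem c_congr (h : Q.RSol l lam f g ef eg) {ef' eg' : ℝ → ℂ}
    (he : ∀ X, 0 < X → ef' X = ef X ∧ eg' X = eg X) : Q.RSol l lam f g ef' eg' :=
  ⟨h.sf, h.sg, fun X hX => by rw [(he X hX).1]; exact h.odef X hX,
    fun X hX => by rw [(he X hX).2]; exact h.odeg X hX, h.at0, h.atInf⟩

theorem c_swap (h : Q.RSol l lam f g 0 0) :
    Q.RSol l (conj lam) (fun X => conj (g X)) (fun X => conj (f X)) 0 0 := by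
  refine ⟨conjCLE.contDiff.comp_contDiffOn h.sg, conjCLE.contDiff.comp_contDiffOn h.sf,
    fun X hX => ?_, fun X hX => ?_, ?_, fun j hj => ?_⟩
  · have h2 := congrArg conj (h.odeg X hX)
    simp only [clin_cd1]
    simp only [Pi.zero_apply, mul_zero, map_zero, map_sub, map_add, map_mul, map_div₀, conj_ofReal,
      conj_I, map_ofNat, map_natCast, clin_V1, conj_conj] at h2 ⊢
    linear_combination h2
  · have h2 := congrArg conj (h.odef X hX)
    simp only [clin_cd1]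
    simp only [Pi.zero_apply, mul_zero, map_zero, map_sub, map_add, map_mul, map_div₀, conj_ofReal,
      conj_I, map_ofNat, map_natCast, clin_V1, conj_conj] at h2 ⊢
    linear_combination h2
  · obtain ⟨A, hA⟩ := h.at0
    refine ⟨A, fun X hX => ?_⟩
    obtain ⟨a1, a2, a3, a4⟩ := hA X hX
    simp only [clin_cd1, norm_conj]
    exact ⟨a3, a4, a1, a2⟩
  · obtain ⟨A, hA⟩ := h.atInf j hj
    refine ⟨A, fun X hX => ?_⟩
    simp only [clin_conj, norm_conj]
    exact (hA X hX).symm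

theorem c_uniq (h : Q.RSol l lam f g 0 0) {X : ℝ} (hX : 0 < X) (h1 : f X = 0) (h2 : g X = 0)
    (h3 : deriv f X = 0) (h4 : deriv g X = 0) : ∀ Y, 0 < Y → f Y = 0 ∧ g Y = 0 := by
  have hi : ContinuousOn (fun X : ℝ => ((X : ℂ))⁻¹) (Ioi 0) :=
    continuous_ofReal.continuousOn.inv₀ fun x hx => ofReal_ne_zero.2 (ne_of_gt hx)
  have hr : ContinuousOn (fun X : ℝ => (X : ℂ)) (Ioi 0) := continuous_ofReal.continuousOn
  have hV1 := clin_V1c Q
  have hV2 := clin_V2c Q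
  have hV2' : ContinuousOn (fun X => conj (Q.V2 X)) (Ioi 0) :=
    continuous_conj.comp_continuousOn hV2
  refine clin_uniq (f1 := deriv f) (g1 := deriv g)
    (a1 := fun X => (X : ℂ)⁻¹ * (l * (l + 10) / 4 * (X : ℂ)⁻¹ - (Q.β + I * aa m + I * lam) + Q.V1 X))
    (a2 := fun X => (X : ℂ)⁻¹ * -(6 + I * X)) (a3 := fun X => (X : ℂ)⁻¹ * Q.V2 X)
    (b1 := fun X => (X : ℂ)⁻¹ * (l * (l + 10) / 4 * (X : ℂ)⁻¹ - (Q.β - I * aa m - I * lam) + Q.V1 X))
    (b2 := fun X => (X : ℂ)⁻¹ * -(6 - I * X)) (b3 := fun X => (X : ℂ)⁻¹ * conj (Q.V2 X)) ?_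
    (fun Y hY => (clin_der h.sf hY).1) (fun Y hY => (clin_der h.sg hY).1) (fun Y hY => ?_)
    (fun Y hY => ?_) hX h1 h2 h3 h4
  · fun_prop
  · have hY' : (Y : ℂ) ≠ 0 := ofReal_ne_zero.2 hY.ne'
    have h5 := h.odef Y hY
    simp only [Pi.zero_apply, mul_zero] at h5
    refine (clin_der h.sf hY).2.congr_deriv (mul_left_cancel₀ hY' ?_)
    field_simp at h5 ⊢
    linear_combination h5
  · have hY' : (Y : ℂ) ≠ 0 := ofReal_ne_zero.2 hY.ne'
    have h5 := h.odeg Y hY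
    simp only [Pi.zero_apply, mul_zero] at h5
    refine (clin_der h.sg hY).2.congr_deriv (mul_left_cancel₀ hY' ?_)
    field_simp at h5 ⊢
    linear_combination h5

end Vale.Agent.P139
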