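import Vale.Agent.P139.C.Int

/-! P139 task C/Sob (PROOF.md section C). Radial Sobolev, Poincare, trace and Hardy inequalities. `u X' - u X = ∫ u1`, Cauchy-Schwarz with the weight
`s⁶`. `c_trace`: `Y⁶‖u Y‖² = ∫ (6X⁵‖u‖² + 2X⁶ re (u1 conj u))`. `c_core`: on `(0, X0-ε]` use `1/ε ≤ M`; average the point inequality over
`X' ∈ [X0 - ε - √ε, X0 - ε]`. `c_hardy`: differentiate `X^(5-2a)‖u‖²`.
-/

noncomputable section

open MeasureTheory Filter Topology Set Complex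
open scoped ComplexConjugate

namespace Vale.Agent.P139

variable {c : Co} {L Y : ℝ} {lam : ℂ} {u u1 v η η1 ψ ψ1 sη sψ f g ef eg : ℝ → ℂ} {m l : ℕ}
  {Q : Prof m}

theorem csob_int {E : Type} [NormedAddCommGroup E] {φ : ℝ → E} (hc : ContinuousOn φ (Ioi 0))
    {a b : ℝ} (ha : 0 < a) (hb : a ≤ b) : IntervalIntegrable φ volume a b :=
  (hc.mono fun _ hs => ha.trans_le hs.1).intervalIntegrable_of_Icc hb

theorem csob_le {φ : ℝ → ℝ} {a b B : ℝ} (hab : a ≤ b) (hφ : IntervalIntegrable φ volume a b)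
    (h : ∀ s ∈ Ioc a b, φ s ≤ B) : ∫ s in a..b, φ s ≤ (b - a) * B := by
  simpa using c_mono hab hφ intervalIntegrable_const h

theorem csob_sq (a b : ℂ) : ‖a‖ ^ 2 ≤ 2 * ‖a - b‖ ^ 2 + 2 * ‖b‖ ^ 2 := by
  have h := pow_le_pow_left₀ (norm_nonneg _) (norm_le_norm_sub_add a b) 2
  nlinarith [sq_nonneg (‖a - b‖ - ‖b‖)]

theorem c_pt (h : c.Dv L u u1 v) (hL : 0 ≤ L) {K X X' : ℝ} (hK : 0 < K)
    (hR : ∀ s ∈ Ioc 0 Y, 1 / K ≤ c.R s) (h0 : 0 < X) (h1 : X ≤ X') (h2 : X' ≤ Y) :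
    X ^ 5 * ‖u X' - u X‖ ^ 2 ≤ K * c.Gr L u u1 Y ∧
      X ^ 6 * ‖u X' - u X‖ ^ 2 ≤ K * (X' - X) * c.Gr L u u1 Y := by
  have hY : 0 ≤ Y := h0.le.trans (h1.trans h2)
  have hG := c_Gr_nonneg (u := u) (u1 := u1) c hL hY
  have i1 := csob_int h.c1 h0 h1
  have i2 : IntervalIntegrable (fun s : ℝ => (s ^ 6)⁻¹) volume X X' :=
    csob_int ((continuousOn_pow 6).inv₀ fun s hs => (pow_pos hs 6).ne') h0 h1
  have i3 := (h.int_gr h0.le (h0.le.trans h1)).const_mul K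
  have k1 := c_cs h1 i1.norm i3 i2 (fun s hs => mul_nonneg hK.le (c_gr_nonneg c hL (h0.trans hs.1)))
    (fun s hs => by positivity) fun s hs => by
      have s0 := h0.trans hs.1
      have k := (div_le_iff₀' hK).1 (hR s ⟨s0, hs.2.trans h2⟩)
      rw [← div_eq_mul_inv, le_div_iff₀ (pow_pos s0 6), Co.gr, ← mul_assoc]
      refine le_trans ?_ (le_mul_of_one_le_left (by positivity) k)
      rw [mul_comm]
      exact le_add_of_nonneg_right (by positivity)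
  have k2 : ∫ s in X..X', K * c.gr L u u1 s ≤ K * c.Gr L u u1 Y := by
    rw [intervalIntegral.integral_const_mul]
    exact mul_le_mul_of_nonneg_left (intervalIntegral.integral_mono_interval h0.le h1 h2
      ((ae_restrict_mem measurableSet_Ioc).mono fun s hs => c_gr_nonneg c hL hs.1)
      (h.int_gr le_rfl hY)) hK.le
  have k3 : ‖u X' - u X‖ ≤ |∫ s in X..X', ‖u1 s‖| := by
    rw [← intervalIntegral.integral_eq_sub_of_hasDerivAt (fun s hs => h.d1 s (h0.trans_le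
      (by rw [uIcc_of_le h1] at hs; exact hs.1))) i1]
    exact intervalIntegral.norm_integral_le_abs_integral_norm
  have k4 : 0 ≤ ∫ s in X..X', (s ^ 6)⁻¹ :=
    intervalIntegral.integral_nonneg h1 fun s _ => by positivity
  have k5 : ‖u X' - u X‖ ^ 2 ≤ K * c.Gr L u u1 Y * ∫ s in X..X', (s ^ 6)⁻¹ := by
    refine (pow_le_pow_left₀ (norm_nonneg _) ((k3.trans k1).trans (mul_le_mul_of_nonneg_right
      (Real.sqrt_le_sqrt k2) (Real.sqrt_nonneg _))) 2).trans_eq ?_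
    rw [mul_pow, Real.sq_sqrt (by positivity), Real.sq_sqrt k4]
  have k6 : ∫ s in X..X', (s ^ 6)⁻¹ ≤ (X ^ 5)⁻¹ := by
    rw [intervalIntegral.integral_eq_sub_of_hasDerivAt (f := fun s => -(s ^ 5)⁻¹ / 5)
      (fun s hs => by
        have s0 : 0 < s := h0.trans_le (by rw [uIcc_of_le h1] at hs; exact hs.1)
        exact ((((hasDerivAt_pow 5 s).fun_inv (pow_pos s0 5).ne').neg).div_const 5).congr_deriv
          (by field_simp; norm_num; ring)) i2]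
    have : 0 < X' := h0.trans_le h1
    have : 0 < (X' ^ 5)⁻¹ := by positivity
    have : 0 < (X ^ 5)⁻¹ := by positivity
    linarith
  have k7 := csob_le (B := (X ^ 6)⁻¹) h1 i2 fun s hs => by gcongr; exact hs.1.le
  exact ⟨(mul_le_mul_of_nonneg_left (k5.trans (mul_le_mul_of_nonneg_left k6 (by positivity)))
    (by positivity)).trans_eq (by field_simp),
    (mul_le_mul_of_nonneg_left (k5.trans (mul_le_mul_of_nonneg_left k7 (by positivity)))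
    (by positivity)).trans_eq (by field_simp)⟩

theorem csob_near (h : c.Dv L u u1 v) (hL : 0 ≤ L) {K X Y0 Y1 : ℝ} (hK : 0 < K)
    (hR : ∀ s ∈ Ioc 0 Y, 1 / K ≤ c.R s) (h0 : 1 / 2 ≤ Y0) (h1 : Y0 < Y1) (h2 : Y1 ≤ X)
    (h3 : X ≤ Y) : ‖u X‖ ^ 2 ≤
      128 * K * (X - Y0) * c.Gr L u u1 Y + 64 * K * (c.Ms u Y0 Y1 / (Y1 - Y0)) := by
  have hG := c_Gr_nonneg (u := u) (u1 := u1) c hL (show 0 ≤ Y by linarith)
  have k := csob_le (B := -(‖u X‖ ^ 2 - 128 * K * (X - Y0) * c.Gr L u u1 Y)) h1.le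
    ((h.int_ms (by linarith) (by linarith)).const_mul (-(64 * K))) fun s hs => by
      have s1 : 1 / 2 ≤ s := h0.trans hs.1.le
      have s0 : 0 < s := by linarith
      have k1 := (c_pt h hL hK hR s0 (hs.2.trans h2) h3).2
      have k2 := (div_le_iff₀' hK).1 (hR s ⟨s0, hs.2.trans (h2.trans h3)⟩)
      have k3 : (1 / 2) ^ 6 * ‖u X - u s‖ ^ 2 ≤ s ^ 6 * ‖u X - u s‖ ^ 2 := by gcongr
      have k4 : K * (X - s) * c.Gr L u u1 Y ≤ K * (X - Y0) * c.Gr L u u1 Y := by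
        gcongr
        exact hs.1.le
      have k5 : 1 * ((1 / 2) ^ 5 * ‖u s‖ ^ 2) ≤ K * c.R s * (s ^ 5 * ‖u s‖ ^ 2) := by gcongr
      rw [Co.dm]
      linarith [csob_sq (u X) (u s)]
  rw [intervalIntegral.integral_const_mul] at k
  rw [← sub_le_iff_le_add', ← mul_div_assoc, le_div_iff₀ (sub_pos.2 h1), Co.Ms]
  linarith

theorem c_poin (K : ℝ) (hK : 0 < K) : ∃ K', 0 ≤ K' ∧ ∀ (c : Co) (L Y : ℝ) (u u1 v : ℝ → ℂ),
    c.Dv L u u1 v → 0 ≤ L → Y ∈ Icc (1 : ℝ) 4 → (∀ s ∈ Ioc 0 Y, 1 / K ≤ c.R s ∧ c.R s ≤ K) →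
      c.Ms u 0 Y ≤ K' * (c.Gr L u u1 Y + ‖u Y‖ ^ 2) ∧ ∀ Y0 ∈ Ico 1 Y,
        c.Ms u 0 Y ≤ K' * (c.Gr L u u1 Y + c.Ms u Y0 Y / (Y - Y0)) ∧
        ∀ X ∈ Ioc 0 Y, X ^ 5 * ‖u X‖ ^ 2 ≤ K' * (c.Gr L u u1 Y + c.Ms u Y0 Y / (Y - Y0)) := by
  refine ⟨(4 * K + 1) * ((2 * K + 2048) * (384 * K + 1)), by positivity,
    fun c L Y u u1 v h hL hY hR => ?_⟩
  have Y0 : 0 ≤ Y := zero_le_one.trans hY.1
  have hG := c_Gr_nonneg (u := u) (u1 := u1) c hL Y0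
  have k1 : ∀ X ∈ Ioc 0 Y, X ^ 5 * ‖u X‖ ^ 2 ≤ (2 * K + 2048) * (c.Gr L u u1 Y + ‖u Y‖ ^ 2) :=
    fun X hX => by
      have k1 := (c_pt h hL hK (fun s hs => (hR s hs).1) hX.1 hX.2 le_rfl).1
      have k2 := mul_le_mul_of_nonneg_left (csob_sq (u X) (u Y)) (pow_pos hX.1 5).le
      have k3 : X ^ 5 * ‖u Y‖ ^ 2 ≤ 4 ^ 5 * ‖u Y‖ ^ 2 := by
        have := hX.1.le
        gcongr
        exact hX.2.trans hY.2
      rw [norm_sub_rev] at k2
      nlinarith [mul_nonneg hK.le (sq_nonneg ‖u Y‖)]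
  have k2 : ∀ B, 0 ≤ B → (∀ X ∈ Ioc 0 Y, X ^ 5 * ‖u X‖ ^ 2 ≤ B) → c.Ms u 0 Y ≤ 4 * K * B :=
    fun B hB k => (csob_le (B := K * B) Y0 (h.int_ms le_rfl Y0) fun s hs => by
      rw [Co.dm, mul_assoc]
      have := hs.1.le
      exact mul_le_mul (hR s hs).2 (k s hs) (by positivity) hK.le).trans (by
        nlinarith [mul_nonneg hK.le hB, hY.2])
  refine ⟨(k2 _ (by positivity) k1).trans ?_, fun Y0 h0 => ?_⟩
  · rw [← mul_assoc]
    gcongr
    · linarith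
    · exact le_mul_of_one_le_right (by positivity) (by linarith)
  have k3 := csob_near h hL hK (fun s hs => (hR s hs).1) (by linarith [h0.1]) h0.2 le_rfl le_rfl
  have k4 : 0 ≤ c.Ms u Y0 Y / (Y - Y0) :=
    div_nonneg (c_Ms_nonneg c (by linarith [h0.1]) h0.2.le) (sub_pos.2 h0.2).le
  have k5 : ∀ X ∈ Ioc 0 Y, X ^ 5 * ‖u X‖ ^ 2 ≤
      (2 * K + 2048) * (384 * K + 1) * (c.Gr L u u1 Y + c.Ms u Y0 Y / (Y - Y0)) := fun X hX => by
    rw [mul_assoc]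
    refine (k1 X hX).trans (mul_le_mul_of_nonneg_left ?_ (by positivity))
    nlinarith [mul_nonneg hK.le hG, mul_nonneg hK.le k4, h0.1, hY.2]
  refine ⟨(k2 _ (by positivity) k5).trans ?_, fun X hX => (k5 X hX).trans ?_⟩
  · rw [← mul_assoc]
    gcongr
    linarith
  · exact mul_le_mul_of_nonneg_right (le_mul_of_one_le_left (by positivity) (by linarith))
      (add_nonneg hG k4)

theorem c_ang (h : c.Dv L u u1 v) (hL : 0 ≤ L) (hY : 0 < Y) :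
    L * c.Ms u 0 Y ≤ 4 * Y * c.Gr L u u1 Y := by
  rw [Co.Ms, Co.Gr, ← intervalIntegral.integral_const_mul, ← intervalIntegral.integral_const_mul]
  refine c_mono hY.le ((h.int_ms le_rfl hY.le).const_mul _) ((h.int_gr le_rfl hY.le).const_mul _)
    fun s hs => ?_
  have := hs.1
  have := c.R_pos s hs.1
  have k1 := mul_le_mul_of_nonneg_right hs.2
    (show 0 ≤ L * c.R s * s ^ 4 * ‖u s‖ ^ 2 by positivity)
  have k2 : 0 ≤ Y * c.R s * s ^ 6 * ‖u1 s‖ ^ 2 := by positivity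
  rw [Co.dm, Co.gr]
  linarith

theorem c_trace (K : ℝ) (hK : 0 < K) : ∃ K', 0 ≤ K' ∧ ∀ (c : Co) (L Y : ℝ) (u u1 v : ℝ → ℂ),
    c.Dv L u u1 v → 1 ≤ L → Y ∈ Icc (1 : ℝ) 4 → (∀ s ∈ Ioc 0 Y, 1 / K ≤ c.R s) →
      √L * ‖u Y‖ ^ 2 ≤ K' * c.Gr L u u1 Y := by
  refine ⟨2112 * K, by positivity, fun c L Y u u1 v h hL hY hR => ?_⟩
  have L0 : 0 ≤ L := zero_le_one.trans hL
  have Y0 : 0 < Y := one_pos.trans_le hY.1
  have r1 : 1 ≤ √L := Real.one_le_sqrt.2 hL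
  have r2 : 1 / (2 * √L) ≤ 1 / 2 := one_div_le_one_div_of_le two_pos (by linarith)
  have r3 : 0 < 1 / (2 * √L) := by positivity
  have k1 := csob_near (Y0 := Y - 1 / (2 * √L)) h L0 hK hR (by linarith [hY.1])
    (sub_lt_self _ r3) le_rfl le_rfl
  have k2 := mul_le_mul_of_nonneg_left (h.Ms_mono le_rfl
    (show 0 ≤ Y - 1 / (2 * √L) by linarith [hY.1]) (sub_le_self _ r3.le) le_rfl) L0
  have k3 := (k2.trans (c_ang h L0 Y0)).trans (mul_le_mul_of_nonneg_right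
    (show 4 * Y ≤ 16 by linarith [hY.2]) (c_Gr_nonneg c L0 Y0.le))
  refine (mul_le_mul_of_nonneg_left k1 (Real.sqrt_nonneg L)).trans (le_of_eq_of_le
    (b := 64 * K * c.Gr L u u1 Y + 128 * K * (√L ^ 2 * c.Ms u (Y - 1 / (2 * √L)) Y)) ?_ ?_)
  · rw [sub_sub_cancel]
    generalize c.Ms u _ Y = M
    field_simp
    ring
  · rw [Real.sq_sqrt L0]
    nlinarith

theorem c_core (K : ℝ) (hK : 0 < K) : ∃ K', 0 ≤ K' ∧ ∀ (c : Co) (L X0 ε a : ℝ) (u u1 v : ℝ → ℂ),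
    c.Dv L u u1 v → 0 ≤ L → c.Bd X0 ε K a → ε ∈ Ioc (0 : ℝ) (1 / 4) →
      c.Ms u 0 X0 ≤ K' * ε * (c.Gr L u u1 X0 + c.Pot u X0) ∧
        ‖u X0‖ ^ 2 ≤ K' * √ε * (c.Gr L u u1 X0 + c.Pot u X0) := by
  refine ⟨1 + 256 * K + 243 * K * (256 * K), by positivity, fun c L X0 ε a u u1 v h hL hB hε => ?_⟩
  obtain ⟨x1, x2⟩ := hB.X0_mem
  obtain ⟨e0, e1⟩ := hε
  have r0 := Real.sqrt_pos.2 e0
  have r1 : √ε ≤ 1 / 2 := Real.sqrt_le_iff.2 ⟨by norm_num, by linarith⟩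
  have r2 := Real.mul_self_sqrt e0.le
  have y0 : 0 ≤ X0 - ε := by linarith
  have hG := c_Gr_nonneg (u := u) (u1 := u1) c hL (show 0 ≤ X0 by linarith)
  have hP := c_Pot_nonneg (u := u) c (show 0 ≤ X0 by linarith)
  have k1 : c.Ms u 0 (X0 - ε) ≤ ε * c.Pot u X0 := by
    refine le_trans ?_ (mul_le_mul_of_nonneg_left (h.Pot_mono y0 (sub_le_self _ e0.le)) e0.le)
    rw [Co.Pot, ← intervalIntegral.integral_const_mul]
    refine c_mono y0 (h.int_ms le_rfl y0) ((h.int_pot le_rfl y0).const_mul _) fun s hs => ?_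
    have := hs.1
    have := c.R_pos s hs.1
    exact (le_mul_of_one_le_left (by unfold Co.dm; positivity)
      ((div_le_iff₀' e0).1 (hB.core s hs))).trans_eq (by ring)
  have k2 : ∀ X ∈ Icc (X0 - ε) X0,
      ‖u X‖ ^ 2 ≤ 256 * K * √ε * (c.Gr L u u1 X0 + c.Pot u X0) := fun X hX => by
    have k2 := csob_near (Y0 := X0 - ε - √ε) h hL hK (fun s hs => (hB.in_R s
      ⟨hs.1, by linarith [hs.2]⟩).1) (by linarith) (sub_lt_self _ r0) hX.1 hX.2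
    have k3 : c.Ms u (X0 - ε - √ε) (X0 - ε) / (X0 - ε - (X0 - ε - √ε)) ≤ √ε * c.Pot u X0 := by
      rw [sub_sub_cancel, div_le_iff₀' r0, ← mul_assoc, r2]
      exact (h.Ms_mono le_rfl (by linarith) (sub_le_self _ r0.le) le_rfl).trans k1
    have k4 : 128 * K * (X - (X0 - ε - √ε)) * c.Gr L u u1 X0 ≤
        128 * K * (2 * √ε) * c.Gr L u u1 X0 := by
      gcongr
      nlinarith [hX.2]
    nlinarith [mul_le_mul_of_nonneg_left k3 hK.le, mul_nonneg (mul_pos hK r0).le hP]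
  refine ⟨?_, (k2 X0 ⟨sub_le_self _ e0.le, le_rfl⟩).trans ?_⟩
  · have k3 := csob_le (B := K * 3 ^ 5 * (256 * K * 1 * (c.Gr L u u1 X0 + c.Pot u X0)))
      (sub_le_self X0 e0.le) (h.int_ms y0 (by linarith)) fun s hs => by
        have s0 : 0 < s := y0.trans_lt hs.1
        rw [Co.dm]
        gcongr
        · exact (hB.in_R s ⟨s0, by linarith [hs.2]⟩).2
        · exact hs.2.trans x2
        · refine (k2 s ⟨hs.1.le, hs.2⟩).trans ?_
          gcongr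
          linarith
    rw [Co.Ms, ← intervalIntegral.integral_add_adjacent_intervals (h.int_ms le_rfl y0)
      (h.int_ms y0 (by linarith))]
    rw [Co.Ms] at k1
    nlinarith [mul_nonneg e0.le hG, mul_nonneg (mul_pos hK e0).le (add_nonneg hG hP)]
  · gcongr
    nlinarith

theorem c_hardy {a X0 : ℝ} (ha : a ∈ Icc (0 : ℝ) (1 / 2)) (h0 : 0 < X0) (h1 : X0 ≤ Y)
    (hd : ∀ X, 0 < X → HasDerivAt u (u1 X) X) (hc : ContinuousOn u1 (Ioi 0)) :
    ∫ X in X0..Y, X ^ (4 - 2 * a) * ‖u X‖ ^ 2 ≤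
      (∫ X in X0..Y, X ^ (6 - 2 * a) * ‖u1 X‖ ^ 2) + Y ^ (5 - 2 * a) * ‖u Y‖ ^ 2 := by
  have cu : ContinuousOn u (Ioi 0) := fun X hX => (hd X hX).continuousAt.continuousWithinAt
  have cp : ∀ t : ℝ, ContinuousOn (fun X : ℝ => X ^ t) (Ioi 0) := fun t =>
    continuousOn_id.rpow_const fun X hX => .inl (ne_of_gt hX)
  have i1 : IntervalIntegrable (fun X : ℝ => (5 - 2 * a) * X ^ (5 - 2 * a - 1) * ‖u X‖ ^ 2 +
      X ^ (5 - 2 * a) * (2 * inner ℝ (u X) (u1 X))) volume X0 Y :=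
    csob_int (((continuousOn_const.mul (cp _)).mul (cu.norm.pow 2)).add
      ((cp _).mul (continuousOn_const.mul (ContinuousOn.inner (𝕜 := ℝ) cu hc)))) h0 h1
  have i2 : IntervalIntegrable (fun X : ℝ => X ^ (6 - 2 * a) * ‖u1 X‖ ^ 2) volume X0 Y :=
    csob_int ((cp _).mul (hc.norm.pow 2)) h0 h1
  have k1 := intervalIntegral.integral_eq_sub_of_hasDerivAt
    (f := fun X : ℝ => X ^ (5 - 2 * a) * ‖u X‖ ^ 2) (fun s hs => by
      have s0 : 0 < s := h0.trans_le (by rw [uIcc_of_le h1] at hs; exact hs.1)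
      exact (Real.hasDerivAt_rpow_const (.inl s0.ne')).fun_mul (hd s s0).norm_sq) i1
  have k2 := c_mono (φ := fun X : ℝ => X ^ (4 - 2 * a) * ‖u X‖ ^ 2) h1
    (csob_int ((cp _).mul (cu.norm.pow 2)) h0 h1) (i2.add i1) fun s hs => by
      have s0 := h0.trans hs.1
      have p := Real.rpow_pos_of_pos s0 (4 - 2 * a)
      have k := (abs_le.1 (abs_real_inner_le_norm (u s) (u1 s))).1
      rw [show 5 - 2 * a - 1 = 4 - 2 * a by ring, show 5 - 2 * a = 4 - 2 * a + 1 by ring,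
        show 6 - 2 * a = 4 - 2 * a + 1 + 1 by ring, Real.rpow_add_one s0.ne',
        Real.rpow_add_one s0.ne']
      nlinarith [mul_nonneg p.le (sq_nonneg (s * ‖u1 s‖ - ‖u s‖)),
        mul_le_mul_of_nonneg_left k (mul_pos p s0).le, mul_nonneg p.le (sq_nonneg ‖u s‖),
        mul_nonneg (mul_nonneg p.le (sq_nonneg ‖u s‖)) (sub_nonneg.2 ha.2)]
  rw [intervalIntegral.integral_add i2 i1, k1] at k2
  have : 0 ≤ X0 ^ (5 - 2 * a) * ‖u X0‖ ^ 2 := by positivity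
  linarith

end Vale.Agent.P139
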