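import Vale.Agent.P139.C.Pair
import Vale.Agent.P139.C.Sob

/-! P139 task C/R1 (PROOF.md section C). Regime I. `c_pair_I` on `[0, X0]`; `c_ang` bounds the masses by `4 X0 Gr / L`, `c_trace` the boundary values:
`(1 - θ) En ≤ C (1 / √L + ε) En`. Then `zero_of_Gr`.
-/

noncomputable section

open MeasureTheory Filter Topology Set Complex
open scoped ComplexConjugate

namespace Vale.Agent.P139

variable {c : Co} {L Y : ℝ} {lam : ℂ} {u u1 v η η1 ψ ψ1 sη sψ f g ef eg : ℝ → ℂ} {m l : ℕ}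
  {Q : Prof m}

theorem cr1_am {B M A s : ℝ} (hB : 0 ≤ B) (hM : 0 ≤ M) (hs : 0 < s) (h : s ^ 2 * M ≤ 12 * A) :
    s * (√B * √M) ≤ B / 2 + 6 * A := by
  have h1 := Real.sq_sqrt hB
  have h2 := Real.sq_sqrt hM
  nlinarith [sq_nonneg (√B - s * √M)]

theorem c_r1 (K K1 : ℝ) (hK : 0 < K) {θ : ℝ} (hθ : θ < 1) : ∃ L0 ε0, 0 < ε0 ∧ ∀ (c : Co)
    (L X0 ε a : ℝ) (lam : ℂ) (η η1 ψ ψ1 : ℝ → ℂ), c.Bd X0 ε K a → ε ∈ Ioc 0 ε0 →
      c.Sys L lam η η1 ψ ψ1 0 0 → L0 ≤ L → 4 * X0 * |lam.im| ≤ θ * L →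
      (ψ1 X0 * conj (ψ X0) + η1 X0 * conj (η X0)).re ≤
        K1 * (1 + ε * √L) * (‖ψ X0‖ ^ 2 + ‖η X0‖ ^ 2) →
      η X0 = 0 ∧ ψ X0 = 0 ∧ η1 X0 = 0 ∧ ψ1 X0 = 0 := by
  obtain ⟨K', hK', hT⟩ := c_trace K hK
  obtain ⟨C, hC⟩ : ∃ C, C = 729 * K * |K1| * K' := ⟨_, rfl⟩
  have hC0 : 0 ≤ C := by rw [hC]; positivity
  obtain ⟨e, he⟩ : ∃ e, e = (1 - θ) / (4 * (C + 13 * K + 1)) := ⟨_, rfl⟩
  have hθ' : 0 < 1 - θ := by linarith
  have he0 : 0 < e := by rw [he]; positivity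
  have he1 : e * (4 * (C + 13 * K + 1)) = 1 - θ := by rw [he]; field_simp
  refine ⟨max 1 ((1 / e) ^ 2), e, he0, fun c L X0 ε a lam η η1 ψ ψ1 hB hε hS hL him hbd => ?_⟩
  have hL1 : 1 ≤ L := (le_max_left _ _).trans hL
  have hL0 : 0 < L := by linarith
  obtain ⟨x2, x3⟩ := hB.X0_mem
  have hX : 0 < X0 := by linarith
  have hR : ∀ s ∈ Ioc 0 X0, 1 / K ≤ c.R s := fun s hs => (hB.in_R s ⟨hs.1, by linarith [hs.2]⟩).1
  have hp := c_pair_I hS hX fun X hX' => (hB.all_w X hX'.1).1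
  have a1 := c_ang hS.dψ hL0.le hX
  have a2 := c_ang hS.dη hL0.le hX
  have t1 := hT c L X0 _ _ _ hS.dψ hL1 ⟨by linarith, by linarith⟩ hR
  have t2 := hT c L X0 _ _ _ hS.dη hL1 ⟨by linarith, by linarith⟩ hR
  have hA : 0 ≤ c.Gr L ψ ψ1 X0 := c_Gr_nonneg c hL0.le hX.le
  have hB' : 0 ≤ c.Gr L η η1 X0 := c_Gr_nonneg c hL0.le hX.le
  have hP : 0 ≤ c.Pot η X0 := c_Pot_nonneg c hX.le
  have m1 : 0 ≤ c.Ms ψ 0 X0 := c_Ms_nonneg c le_rfl hX.le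
  have m2 : 0 ≤ c.Ms η 0 X0 := c_Ms_nonneg c le_rfl hX.le
  have hJ0 : 0 ≤ c.J X0 := (mul_pos (c.R_pos X0 hX) (pow_pos hX 6)).le
  have hJ : c.J X0 ≤ K * 3 ^ 6 :=
    mul_le_mul (hB.in_R X0 ⟨hX, by linarith⟩).2 (pow_le_pow_left₀ hX.le x3 6) (by positivity) hK.le
  have hs0 : 0 < √L := Real.sqrt_pos.2 hL0
  have hs2 : √L ^ 2 = L := Real.sq_sqrt hL0.le
  have hse : 1 ≤ e * √L := by
    have h1 : 1 / e ≤ √L := Real.le_sqrt_of_sq_le ((le_max_right _ _).trans hL)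
    rw [div_le_iff₀ he0] at h1
    linarith
  have hr : √X0 ≤ 2 := Real.sqrt_le_iff.2 ⟨by norm_num, by linarith⟩
  have key : c.Gr L ψ ψ1 X0 + c.Gr L η η1 X0 ≤ 0 := by
    rw [Co.En] at hp
    generalize c.Gr L ψ ψ1 X0 = A at *
    generalize c.Gr L η η1 X0 = B at *
    generalize c.Ms ψ 0 X0 = M at *
    generalize c.Ms η 0 X0 = N at *
    have b1 := cr1_am hB' m1 hs0 (A := A) (by rw [hs2]; nlinarith)
    have b2 := cr1_am hA m2 hs0 (A := B) (by rw [hs2]; nlinarith)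
    have hε0 := hε.1
    have c1 : |lam.im| * (N + M) ≤ θ * (A + B) := by
      refine le_of_mul_le_mul_left ?_ hL0
      calc L * (|lam.im| * (N + M)) = |lam.im| * (L * N + L * M) := by ring
        _ ≤ |lam.im| * (4 * X0 * B + 4 * X0 * A) := by gcongr
        _ = 4 * X0 * |lam.im| * (A + B) := by ring
        _ ≤ θ * L * (A + B) := by gcongr
        _ = _ := by ring
    have c2 : K * √X0 * (√B * √M + √A * √N) ≤ 13 * K * e * (A + B) :=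
      calc _ ≤ K * 2 * (e * √L * (√B * √M + √A * √N)) := by
            gcongr
            exact le_mul_of_one_le_left (by positivity) hse
        _ = K * 2 * e * (√L * (√B * √M) + √L * (√A * √N)) := by ring
        _ ≤ K * 2 * e * (B / 2 + 6 * A + (A / 2 + 6 * B)) := by gcongr
        _ = _ := by ring
    have c3 : c.J X0 * (ψ1 X0 * conj (ψ X0) + η1 X0 * conj (η X0)).re ≤ 2 * C * e * (A + B) :=
      calc _ ≤ c.J X0 * (K1 * (1 + ε * √L) * (‖ψ X0‖ ^ 2 + ‖η X0‖ ^ 2)) := by gcongr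
        _ ≤ K * 3 ^ 6 * (|K1| * (e * √L + e * √L) * (‖ψ X0‖ ^ 2 + ‖η X0‖ ^ 2)) := by
            refine le_trans (mul_le_mul_of_nonneg_left ?_ hJ0)
              (mul_le_mul_of_nonneg_right hJ (by positivity))
            refine mul_le_mul_of_nonneg_right ?_ (by positivity)
            refine mul_le_mul (le_abs_self _) ?_ (by positivity) (abs_nonneg _)
            gcongr
            exact hε.2
        _ = K * 3 ^ 6 * |K1| * (2 * e) * (√L * ‖ψ X0‖ ^ 2 + √L * ‖η X0‖ ^ 2) := by ring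
        _ ≤ K * 3 ^ 6 * |K1| * (2 * e) * (K' * A + K' * B) := by gcongr
        _ = _ := by rw [hC]; ring
    have c4 : (1 - θ - 2 * C * e - 13 * K * e) * (A + B) ≤ 0 := by linarith
    have c5 : 0 < 1 - θ - 2 * C * e - 13 * K * e := by
      rw [← he1]
      have : 0 < e * (2 * C + 39 * K + 4) := by positivity
      linarith
    exact nonpos_of_mul_nonpos_right c4 c5
  obtain ⟨z1, z2⟩ := hS.dψ.zero_of_Gr hL0.le hX (by linarith)
  obtain ⟨z3, z4⟩ := hS.dη.zero_of_Gr hL0.le hX (by linarith)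
  exact ⟨z4 hL0, z2 hL0, (z3 X0 ⟨hX, le_rfl⟩).1, (z1 X0 ⟨hX, le_rfl⟩).1⟩

end Vale.Agent.P139
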