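import Vale.Agent.P139.C.Int

/-! P139 part C: functions that are continuous on `(0, ∞)` and bounded near `0` (toolbox for
integrability side goals: build `Bz φ` with the closure lemmas, then `Bz.intble`, `Bz.c`, `Bz.b`). -/

noncomputable section

open MeasureTheory Filter Topology Set Complex
open scoped ComplexConjugate

namespace Vale.Agent.P139

structure Bz {E : Type} [NormedAddCommGroup E] (φ : ℝ → E) : Prop where
  c : ContinuousOn φ (Ioi 0)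
  b : ∃ K, ∀ X ∈ Ioc (0 : ℝ) 1, ‖φ X‖ ≤ K

namespace Bz

variable {E : Type} [NormedAddCommGroup E] {φ ψ : ℝ → E}

theorem intble (h : Bz φ) {Y0 Y : ℝ} (h0 : 0 ≤ Y0) (h1 : 0 ≤ Y) :
    IntervalIntegrable φ volume Y0 Y := c_intble h.c h.b h0 h1

theorem congr (h : Bz φ) (he : ∀ X, 0 < X → ψ X = φ X) : Bz ψ :=
  ⟨h.c.congr fun X hX => he X hX, h.b.imp fun _ hK X hX => by rw [he X hX.1]; exact hK X hX⟩

theorem const (a : E) : Bz fun _ : ℝ => a := ⟨continuousOn_const, ‖a‖, fun _ _ => le_rfl⟩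

theorem id : Bz fun X : ℝ => X :=
  ⟨continuousOn_id, 1, fun X hX => by rw [Real.norm_of_nonneg hX.1.le]; exact hX.2⟩

theorem add (h : Bz φ) (h' : Bz ψ) : Bz fun X => φ X + ψ X := by
  obtain ⟨K, hK⟩ := h.b
  obtain ⟨K', hK'⟩ := h'.b
  exact ⟨h.c.add h'.c, K + K', fun X hX => norm_add_le_of_le (hK X hX) (hK' X hX)⟩

theorem neg (h : Bz φ) : Bz fun X => -φ X :=
  ⟨h.c.neg, h.b.imp fun _ hK X hX => by rw [norm_neg]; exact hK X hX⟩

theorem sub (h : Bz φ) (h' : Bz ψ) : Bz fun X => φ X - ψ X := by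
  simpa only [sub_eq_add_neg] using h.add h'.neg

theorem norm (h : Bz φ) : Bz fun X => ‖φ X‖ :=
  ⟨h.c.norm, h.b.imp fun _ hK X hX => by rw [norm_norm]; exact hK X hX⟩

theorem mul {A : Type} [NormedRing A] {φ ψ : ℝ → A} (h : Bz φ) (h' : Bz ψ) :
    Bz fun X => φ X * ψ X := by
  obtain ⟨K, hK⟩ := h.b
  obtain ⟨K', hK'⟩ := h'.b
  exact ⟨h.c.mul h'.c, K * K', fun X hX => (norm_mul_le _ _).trans
    (mul_le_mul (hK X hX) (hK' X hX) (norm_nonneg _) ((norm_nonneg _).trans (hK X hX)))⟩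

theorem pow {A : Type} [NormedRing A] {φ : ℝ → A} (h : Bz φ) (n : ℕ) : Bz fun X => φ X ^ n := by
  induction n with
  | zero => simpa only [pow_zero] using const (1 : A)
  | succ n ih => simpa only [pow_succ] using ih.mul h

theorem div_const {A : Type} [NormedField A] {φ : ℝ → A} (h : Bz φ) (a : A) :
    Bz fun X => φ X / a := by
  simpa only [div_eq_mul_inv] using h.mul (const a⁻¹)

theorem abs {φ : ℝ → ℝ} (h : Bz φ) : Bz fun X => |φ X| := h.norm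

theorem clm {F : Type} [NormedAddCommGroup F] [NormedSpace ℝ E] [NormedSpace ℝ F] (T : E →L[ℝ] F)
    (h : Bz φ) : Bz fun X => T (φ X) := by
  obtain ⟨K, hK⟩ := h.b
  exact ⟨T.continuous.comp_continuousOn h.c, ‖T‖ * K, fun X hX =>
    (T.le_opNorm _).trans (mul_le_mul_of_nonneg_left (hK X hX) (norm_nonneg _))⟩

theorem ofReal {φ : ℝ → ℝ} (h : Bz φ) : Bz fun X => (φ X : ℂ) := h.clm ofRealCLM

theorem re {φ : ℝ → ℂ} (h : Bz φ) : Bz fun X => (φ X).re := h.clm reCLM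

theorem im {φ : ℝ → ℂ} (h : Bz φ) : Bz fun X => (φ X).im := h.clm imCLM

theorem cj {φ : ℝ → ℂ} (h : Bz φ) : Bz fun X => conj (φ X) := h.clm conjCLE.toContinuousLinearMap

theorem idC : Bz fun X : ℝ => (X : ℂ) := id.ofReal

end Bz

variable {c : Co} {L : ℝ} {u u1 v : ℝ → ℂ}

theorem Co.bz_R (c : Co) : Bz c.R := by
  obtain ⟨K, hK⟩ := c.loc 1
  exact ⟨c.cR, K, fun X hX => by
    rw [Real.norm_of_nonneg (c.R_pos X hX.1).le]; exact (hK X hX).1⟩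

theorem Co.bz_al (c : Co) : Bz c.al := by
  obtain ⟨K, hK⟩ := c.loc 1
  exact ⟨c.cal0, K, fun X hX => (hK X hX).2.1⟩

theorem Co.bz_w (c : Co) : Bz c.w := by
  obtain ⟨K, hK⟩ := c.loc 1
  exact ⟨c.cw0, K, fun X hX => by
    rw [Real.norm_of_nonneg (c.w_pos X hX.1).le]; exact (hK X hX).2.2.1⟩

theorem Co.bz_Xal' (c : Co) : Bz fun X => X * c.al' X := by
  obtain ⟨K, hK⟩ := c.loc 1
  exact ⟨continuousOn_id.mul c.cal, K, fun X hX => (hK X hX).2.2.2.1⟩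

theorem Co.bz_Xw' (c : Co) : Bz fun X => X * c.w' X := by
  obtain ⟨K, hK⟩ := c.loc 1
  exact ⟨continuousOn_id.mul c.cw, K, fun X hX => (hK X hX).2.2.2.2.1⟩

theorem Co.bz_M (c : Co) : Bz c.M := by
  obtain ⟨K, hK⟩ := c.loc 1
  exact ⟨c.cM0, K, fun X hX => by
    rw [Real.norm_of_nonneg (c.M_nonneg X hX.1)]; exact (hK X hX).2.2.2.2.2.1⟩

theorem Co.bz_M' (c : Co) : Bz c.M' := by
  obtain ⟨K, hK⟩ := c.loc 1
  exact ⟨c.cM, K, fun X hX => (hK X hX).2.2.2.2.2.2⟩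

theorem Co.bz_dm (c : Co) : Bz c.dm := c.bz_R.mul (Bz.id.pow 5)

theorem Co.bz_J (c : Co) : Bz c.J := c.bz_R.mul (Bz.id.pow 6)

/-- `dm / X`. -/
theorem Co.bz_d4 (c : Co) : Bz fun X => c.R X * X ^ 4 := c.bz_R.mul (Bz.id.pow 4)

theorem Co.Dv.bz (h : c.Dv L u u1 v) : Bz u := by
  obtain ⟨K, hK⟩ := h.at0
  exact ⟨h.c0, K, fun X hX => (hK X hX).1⟩

theorem Co.Dv.bz_v (h : c.Dv L u u1 v) : Bz v := by
  obtain ⟨K, hK⟩ := h.at0
  exact ⟨h.cv, K, fun X hX => (hK X hX).2.2⟩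

theorem Co.Dv.bz_Xu1 (h : c.Dv L u u1 v) : Bz fun X : ℝ => (X : ℂ) * u1 X := by
  obtain ⟨K, hK⟩ := h.at0
  refine ⟨continuous_ofReal.continuousOn.mul h.c1, K, fun X hX => le_trans ?_ (hK X hX).2.1⟩
  rw [norm_mul, Complex.norm_real, Real.norm_of_nonneg hX.1.le]
  refine mul_le_mul_of_nonneg_right ?_ (norm_nonneg _)
  exact Real.le_sqrt_of_sq_le (by nlinarith [hX.1, hX.2])

theorem Co.Dv.bz_Xn1 (h : c.Dv L u u1 v) : Bz fun X : ℝ => X * ‖u1 X‖ :=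
  h.bz_Xu1.norm.congr fun X hX => by rw [norm_mul, Complex.norm_real, Real.norm_of_nonneg hX.le]

theorem Co.Dv.bz_gr (h : c.Dv L u u1 v) : Bz (c.gr L u u1) :=
  (c.bz_d4.mul ((h.bz_Xn1.pow 2).add ((Bz.const (L / 4)).mul (h.bz.norm.pow 2)))).congr
    fun X _ => by simp only [Co.gr]; ring

end Vale.Agent.P139
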