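import Vale.Agent.P139.C.Green
import Vale.Agent.P139.C.Bz

/-! P139 task C/En (PROOF.md section C). The energy inequality (En). Pointwise `re [(λ+T)ψ conj (-Dψ) + (λ+T)η conj ((M-D)η)] = 0`.
The `λ` terms: `c_green` (with `z = conj ψ`, `conj η`, conjugated) ; the `T` terms: `c_rellich` with `χ = w`
(`w (5+2X al) - X w' = κ - w - 2 X w'`, `w (5+2X al) + X w' = κ - w` by `c.div`) and `c_transport` with `χ = w`,
`k = M ‖η‖²`. Drop the boundary terms `-w J L/(4Y) |.|²/2` and `-w J M |η|²/2`.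
-/

noncomputable section

open MeasureTheory Filter Topology Set Complex
open scoped ComplexConjugate

namespace Vale.Agent.P139

variable {c : Co} {L Y : ℝ} {lam : ℂ} {u u1 v η η1 ψ ψ1 sη sψ f g ef eg : ℝ → ℂ} {m l : ℕ}
  {Q : Prof m}

theorem cen_bz {θ θ' : ℝ → ℝ} (h : Wf θ θ') : Bz θ := by
  obtain ⟨K, hK⟩ := h.b
  exact ⟨fun X hX => (h.d X hX).continuousAt.continuousWithinAt, K, fun X hX => (hK X hX).1⟩

theorem cen_bz' {θ θ' : ℝ → ℝ} (h : Wf θ θ') : Bz fun X => X * θ' X := by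
  obtain ⟨K, hK⟩ := h.b
  exact ⟨continuousOn_id.mul h.c, K, fun X hX => (hK X hX).2⟩

theorem cen_congr {φ p : ℝ → ℝ} (hY : 0 < Y) (he : ∀ X, 0 < X → φ X = p X) :
    ∫ X in (0 : ℝ)..Y, φ X = ∫ X in (0 : ℝ)..Y, p X :=
  intervalIntegral.integral_congr_ae (Eventually.of_forall fun X hX => by
    rw [uIoc_of_le hY.le] at hX
    exact he X hX.1)

theorem cen_green (h : c.Dv L u u1 v) (hY : 0 < Y) (μ : ℂ) :
    ∫ X in (0 : ℝ)..Y, (μ.re * c.gr L u u1 X + c.dm X * (μ * v X * conj (u X)).re) =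
      c.J Y * (μ * u1 Y * conj (u Y)).re := by
  obtain ⟨K, hK⟩ := h.bz.b
  obtain ⟨K', hK'⟩ := h.bz_Xn1.b
  have h1 := c_green h (z := fun X => conj (u X)) (z1 := fun X => conj (u1 X))
    (fun X hX => (h.d1 X hX).star) (continuous_conj.comp_continuousOn h.c1)
    ⟨max K K', fun X hX => ⟨by rw [RCLike.norm_conj]; exact (hK X hX).trans (le_max_left _ _),
      by rw [RCLike.norm_conj]; exact ((le_abs_self _).trans (hK' X hX)).trans (le_max_right _ _)⟩⟩
    hY
  have hb : Bz fun X : ℝ => μ * ((c.dm X : ℂ) * (v X * conj (u X) + X * u1 X * conj (u1 X) +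
      L / (4 * X) * u X * conj (u X))) := by
    refine (Bz.const μ).mul (((c.bz_dm.ofReal.mul (h.bz_v.mul h.bz.cj)).add
      (c.bz_d4.ofReal.mul ((h.bz_Xu1.mul h.bz_Xu1.cj).add
        ((Bz.const ((L : ℂ) / 4)).mul (h.bz.mul h.bz.cj))))).congr fun X hX => ?_)
    have hX' : (X : ℂ) ≠ 0 := ofReal_ne_zero.2 hX.ne'
    simp only [Co.dm, map_mul, conj_ofReal]
    push_cast
    field_simp
    ring
  have h2 := reCLM.intervalIntegral_comp_comm (hb.intble le_rfl hY.le)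
  rw [intervalIntegral.integral_const_mul, h1] at h2
  refine (cen_congr hY fun X hX => ?_).trans (h2.trans ?_)
  · have e : (L : ℂ) / (4 * X) = ((L / (4 * X) : ℝ) : ℂ) := by push_cast; rfl
    rw [e]
    simp only [Co.gr, Co.dm, reCLM_apply, mul_re, mul_im, add_re, add_im, ofReal_re, ofReal_im,
      conj_re, conj_im, Complex.sq_norm, normSq_apply]
    field_simp
    ring
  · simp only [reCLM_apply, mul_re, mul_im, ofReal_re, ofReal_im]
    ring

theorem cen_bz_green (h : c.Dv L u u1 v) (μ : ℂ) :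
    Bz fun X => μ.re * c.gr L u u1 X + c.dm X * (μ * v X * conj (u X)).re :=
  ((Bz.const _).mul h.bz_gr).add (c.bz_dm.mul (((Bz.const μ).mul h.bz_v).mul h.bz.cj).re)

theorem cen_bz_rel (h : c.Dv L u u1 v) : Bz fun X => c.dm X *
    (c.w X * X * (v X * conj (u1 X)).re -
      ((c.w X * (5 + 2 * X * c.al X) - X * c.w' X) * X * ‖u1 X‖ ^ 2 +
        (c.w X * (5 + 2 * X * c.al X) + X * c.w' X) * (L / (4 * X)) * ‖u X‖ ^ 2) / 2) := by
  have h5 : Bz fun X => c.w X * (5 + 2 * X * c.al X) :=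
    c.bz_w.mul ((Bz.const 5).add (((Bz.const 2).mul Bz.id).mul c.bz_al))
  refine (c.bz_d4.mul (((c.bz_w.mul Bz.id).mul (h.bz_v.mul h.bz_Xu1.cj).re).sub
    ((((h5.sub c.bz_Xw').mul (h.bz_Xn1.pow 2)).add
      (((h5.add c.bz_Xw').mul (Bz.const (L / 4))).mul (h.bz.norm.pow 2))).div_const 2))).congr
    fun X hX => ?_
  simp only [Co.dm, mul_re, mul_im, ofReal_re, ofReal_im, conj_re, conj_im]
  field_simp
  ring

theorem cen_bz_tr (c : Co) {k k' : ℝ → ℝ} (hk : Wf k k') : Bz fun X => c.dm X *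
    (c.w X * X * k' X + (c.w X * (6 + 2 * X * c.al X) + X * c.w' X) * k X) :=
  (c.bz_dm.mul ((c.bz_w.mul (cen_bz' hk)).add (((c.bz_w.mul ((Bz.const 6).add
    (((Bz.const 2).mul Bz.id).mul c.bz_al))).add c.bz_Xw').mul (cen_bz hk)))).congr
    fun X _ => by ring

theorem c_energy (h : c.Sys L lam η η1 ψ ψ1 0 0) (hY : 0 < Y) {K : ℝ}
    (hK : ∀ X ∈ Ioc 0 Y, |X * c.w' X| ≤ K) :
    lam.re * c.En L η η1 ψ ψ1 Y ≤ (3 + K) * c.En L η η1 ψ ψ1 Y +
      (∫ X in (0 : ℝ)..Y, c.dm X * (c.w X * X * c.M' X * ‖η X‖ ^ 2)) / 2 +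
      c.J Y * ((lam * (ψ Y * conj (ψ1 Y) + η Y * conj (η1 Y))).re +
        c.w Y * Y * (‖ψ1 Y‖ ^ 2 + ‖η1 Y‖ ^ 2) / 2) := by
  have hK0 : 0 ≤ K := (abs_nonneg _).trans (hK Y ⟨hY, le_rfl⟩)
  have hk := (c_wf_M c).mul (c_wf_re h.dη h.dη 1)
  have g1 := cen_green h.dψ hY (conj lam)
  have g2 := cen_green h.dη hY (conj lam)
  have g3 := c_rellich h.dψ (c_wf_w c) hY
  have g4 := c_rellich h.dη (c_wf_w c) hY
  have g5 := c_transport c (c_wf_w c) hk hY
  have i1 := (cen_bz_green h.dψ (conj lam)).intble le_rfl hY.le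
  have i2 := (cen_bz_green h.dη (conj lam)).intble le_rfl hY.le
  have i3 := (cen_bz_rel h.dψ).intble le_rfl hY.le
  have i4 := (cen_bz_rel h.dη).intble le_rfl hY.le
  have i5 := (cen_bz_tr c hk).intble le_rfl hY.le
  have j1 := h.dψ.int_gr le_rfl hY.le
  have j2 := h.dη.int_gr le_rfl hY.le
  have j3 := h.dη.int_pot le_rfl hY.le
  have j4 : IntervalIntegrable (fun X => c.dm X * (c.w X * X * c.M' X * ‖η X‖ ^ 2)) volume 0 Y :=
    (c.bz_dm.mul (((c.bz_w.mul Bz.id).mul c.bz_M').mul (h.dη.bz.norm.pow 2))).intble le_rfl hY.le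
  have key := c_mono hY.le ((((j1.add j2).add j3).const_mul (lam.re - (3 + K))).sub
    (j4.div_const 2)) ((((i1.add i2).add i3).add i4).sub (i5.div_const 2)) fun X hX => by
      have hX0 := hX.1
      have hκ := (c.div X hX0).trans_le c.κ_mem.2
      have hw := (c.w_pos X hX0).le
      have hw' := abs_le.1 (hK X hX)
      have hR := (c.R_pos X hX0).le
      have hM := c.M_nonneg X hX0
      have hL := h.L_nonneg
      have a1 : 0 ≤ 3 + K - (c.w X * (5 + 2 * X * c.al X) - X * c.w' X) / 2 := by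
        nlinarith [hw'.1]
      have a2 : 0 ≤ 3 + K - (c.w X * (5 + 2 * X * c.al X) + X * c.w' X) / 2 := by nlinarith
      have a3 : 0 ≤ 3 + K - (c.w X * (6 + 2 * X * c.al X) + X * c.w' X) / 2 := by linarith
      have a4 : 0 ≤ c.R X * ((3 + K - (c.w X * (5 + 2 * X * c.al X) - X * c.w' X) / 2) *
          (X ^ 6 * (‖ψ1 X‖ ^ 2 + ‖η1 X‖ ^ 2)) +
          (3 + K - (c.w X * (5 + 2 * X * c.al X) + X * c.w' X) / 2) *
            (L / 4 * X ^ 4 * (‖ψ X‖ ^ 2 + ‖η X‖ ^ 2)) +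
          (3 + K - (c.w X * (6 + 2 * X * c.al X) + X * c.w' X) / 2) *
            (X ^ 5 * c.M X * ‖η X‖ ^ 2)) := by positivity
      refine sub_nonneg.1 (a4.trans_eq ?_)
      simp only [Co.gr, Co.dm, mul_re, mul_im, add_re, add_im, sub_re, sub_im, neg_re, neg_im,
        ofReal_re, ofReal_im, conj_re, conj_im, one_re, one_im, Complex.sq_norm, normSq_apply,
        Pi.zero_apply, zero_re, zero_im]
      field_simp
      ring
  rw [intervalIntegral.integral_sub (((j1.add j2).add j3).const_mul _) (j4.div_const 2),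
    intervalIntegral.integral_sub (((i1.add i2).add i3).add i4) (i5.div_const 2),
    intervalIntegral.integral_const_mul, intervalIntegral.integral_div,
    intervalIntegral.integral_div, intervalIntegral.integral_add (j1.add j2) j3,
    intervalIntegral.integral_add j1 j2, intervalIntegral.integral_add ((i1.add i2).add i3) i4,
    intervalIntegral.integral_add (i1.add i2) i3, intervalIntegral.integral_add i1 i2,
    g1, g2, g3, g4, g5] at key
  have hJ : 0 ≤ c.w Y * c.J Y := mul_nonneg (c.w_pos Y hY).le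
    (mul_nonneg (c.R_pos Y hY).le (by positivity))
  have hL := h.L_nonneg
  have hM := c.M_nonneg Y hY
  have b1 : 0 ≤ c.w Y * c.J Y * (L / (4 * Y) * (‖ψ Y‖ ^ 2 + ‖η Y‖ ^ 2) + c.M Y * ‖η Y‖ ^ 2) := by
    positivity
  have b2 : (1 * η Y * conj (η Y)).re = ‖η Y‖ ^ 2 := by
    rw [one_mul, mul_conj, ofReal_re, Complex.sq_norm]
  have b3 : (lam * (ψ Y * conj (ψ1 Y) + η Y * conj (η1 Y))).re =
      (conj lam * ψ1 Y * conj (ψ Y)).re + (conj lam * η1 Y * conj (η Y)).re := by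
    simp only [mul_re, mul_im, add_re, add_im, conj_re, conj_im]
    ring
  rw [b2] at key
  rw [b3]
  simp only [Co.En, Co.Gr, Co.Pot]
  linarith

end Vale.Agent.P139
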