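import Vale.Agent.P139.C.Bz

/-! P139 task C/Green (PROOF.md section C). Green, Rellich and transport identities on `[0, Y]`: each one is `c_ftc` for an explicit
boundary function whose derivative is computed from `d1`, `d2`, `dR` (for Rellich write
`χ X / J * ‖J u1‖² / 2`; `J' = J (6 / X + 2 al)`). `Wf θ θ'` are admissible real weights.
-/

noncomputable section

open MeasureTheory Filter Topology Set Complex
open scoped ComplexConjugate

namespace Vale.Agent.P139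

variable {c : Co} {L Y : ℝ} {lam : ℂ} {u u1 v η η1 ψ ψ1 sη sψ f g ef eg : ℝ → ℂ} {m l : ℕ}
  {Q : Prof m}

/-- Admissible real weights. -/
structure Wf (θ θ' : ℝ → ℝ) : Prop where
  d : ∀ X, 0 < X → HasDerivAt θ (θ' X) X
  c : ContinuousOn θ' (Ioi 0)
  b : ∃ K, ∀ X ∈ Ioc (0 : ℝ) 1, |θ X| ≤ K ∧ |X * θ' X| ≤ K

theorem Wf.cgreen_bz {θ θ' : ℝ → ℝ} (h : Wf θ θ') : Bz θ :=
  ⟨fun X hX => (h.d X hX).continuousAt.continuousWithinAt, h.b.imp fun _ hK X hX => (hK X hX).1⟩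

theorem Wf.cgreen_bz' {θ θ' : ℝ → ℝ} (h : Wf θ θ') : Bz fun X => X * θ' X :=
  ⟨continuousOn_id.mul h.c, h.b.imp fun _ hK X hX => (hK X hX).2⟩

theorem cgreen_wf {θ θ' : ℝ → ℝ} (hd : ∀ X, 0 < X → HasDerivAt θ (θ' X) X) (h : Bz θ)
    (h' : Bz fun X => X * θ' X) : Wf θ θ' := by
  obtain ⟨K, hK⟩ := h.b
  obtain ⟨K', hK'⟩ := h'.b
  exact ⟨hd, (h'.c.div continuousOn_id fun X hX => ne_of_gt hX).congr fun X hX =>
    (mul_div_cancel_left₀ _ (ne_of_gt hX)).symm, max K K', fun X hX =>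
      ⟨(hK X hX).trans (le_max_left _ _), (hK' X hX).trans (le_max_right _ _)⟩⟩

theorem cgreen_ftc {E : Type} [NormedAddCommGroup E] [NormedSpace ℝ E] [CompleteSpace E]
    {Φ φ Ψ : ℝ → E} (hd : ∀ X, 0 < X → HasDerivAt Φ (φ X) X) (hφ : Bz φ) (hΨ : Bz Ψ)
    (e : ∀ X, 0 < X → Φ X = X • Ψ X) (hY : 0 < Y) : ∫ X in (0 : ℝ)..Y, φ X = Φ Y :=
  c_ftc hd hφ.c hφ.b (hΨ.b.imp fun K hK X hX => by
    rw [e X hX.1, norm_smul, Real.norm_of_nonneg hX.1.le, mul_comm]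
    exact mul_le_mul_of_nonneg_right (hK X hX) hX.1.le) hY

theorem cgreen_re {φ : ℝ → ℂ} {φ' : ℂ} {X : ℝ} (h : HasDerivAt φ φ' X) :
    HasDerivAt (fun Y => (φ Y).re) φ'.re X := reCLM.hasFDerivAt.comp_hasDerivAt X h

theorem cgreen_cj {φ : ℝ → ℂ} {φ' : ℂ} {X : ℝ} (h : HasDerivAt φ φ' X) :
    HasDerivAt (fun Y => conj (φ Y)) (conj φ') X := h.star

theorem cgreen_sq {φ : ℝ → ℂ} {φ' : ℂ} {X : ℝ} (h : HasDerivAt φ φ' X) :
    HasDerivAt (fun Y => ‖φ Y‖ ^ 2) (2 * (φ' * conj (φ X)).re) X :=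
  h.norm_sq.congr_deriv (by rw [Complex.inner])

theorem cgreen_J (c : Co) {X : ℝ} (hX : 0 < X) :
    HasDerivAt c.J (c.dm X * (6 + 2 * X * c.al X)) X :=
  ((c.dR X hX).mul (hasDerivAt_pow 6 X)).congr_deriv (by simp only [Co.dm]; push_cast; ring)

theorem cgreen_u1 (h : c.Dv L u u1 v) {X : ℝ} (hX : 0 < X) :
    HasDerivAt u1 ((L / (4 * X) * u X + v X - (6 + 2 * X * c.al X) * u1 X) / X) X := by
  have hJ : ∀ Z, 0 < Z → (c.J Z : ℂ) ≠ 0 := fun Z hZ =>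
    ofReal_ne_zero.2 (mul_pos (c.R_pos Z hZ) (pow_pos hZ 6)).ne'
  have h1 : (c.R X : ℂ) ≠ 0 := ofReal_ne_zero.2 (c.R_pos X hX).ne'
  have h2 : (X : ℂ) ≠ 0 := ofReal_ne_zero.2 hX.ne'
  refine (((h.d2 X hX).div (cgreen_J c hX).ofReal_comp (hJ X hX)).congr_of_eventuallyEq
    ?_).congr_deriv ?_
  · filter_upwards [Ioi_mem_nhds hX] with Z hZ
    exact (mul_div_cancel_left₀ _ (hJ Z hZ)).symm
  · simp only [Co.J, Co.dm]
    push_cast
    field_simp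

theorem c_wf_one : Wf (fun _ => 1) fun _ => 0 :=
  cgreen_wf (fun X _ => hasDerivAt_const X 1) (Bz.const _) (Bz.id.mul (Bz.const _))

theorem c_wf_w (c : Co) : Wf c.w c.w' := cgreen_wf c.dw c.bz_w c.bz_Xw'

theorem c_wf_th (c : Co) :
    Wf (fun X => 6 + 2 * X * c.al X) fun X => 2 * (c.al X + X * c.al' X) :=
  cgreen_wf (fun X hX => ((((hasDerivAt_id' X).const_mul 2).mul (c.dal X hX)).const_add 6).congr_deriv
      (by ring)) ((Bz.const _).add (((Bz.const _).mul Bz.id).mul c.bz_al))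
    (Bz.id.mul ((Bz.const _).mul (c.bz_al.add c.bz_Xal')))

/-- Green identity; `z` is a test function with derivative `z1`. -/
theorem c_green (h : c.Dv L u u1 v) {z z1 : ℝ → ℂ} (hz : ∀ X, 0 < X → HasDerivAt z (z1 X) X)
    (hz1 : ContinuousOn z1 (Ioi 0)) (hb : ∃ K, ∀ X ∈ Ioc (0 : ℝ) 1, ‖z X‖ ≤ K ∧ X * ‖z1 X‖ ≤ K)
    (hY : 0 < Y) : ∫ X in (0 : ℝ)..Y, (c.dm X : ℂ) *
      (v X * z X + X * u1 X * z1 X + L / (4 * X) * u X * z X) = c.J Y * u1 Y * z Y := by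
  have b0 : Bz z := ⟨fun X hX => (hz X hX).continuousAt.continuousWithinAt,
    hb.imp fun _ hK X hX => (hK X hX).1⟩
  have b1 : Bz fun X : ℝ => (X : ℂ) * z1 X := ⟨continuous_ofReal.continuousOn.mul hz1,
    hb.imp fun _ hK X hX => by
      rw [norm_mul, Complex.norm_real, Real.norm_of_nonneg hX.1.le]
      exact (hK X hX).2⟩
  refine cgreen_ftc (Φ := fun X => c.J X * u1 X * z X)
    (fun X hX => ((h.d2 X hX).mul (hz X hX)).congr_deriv ?_)
    ((c.bz_d4.ofReal.mul ((((Bz.idC.mul h.bz_v).mul b0).add (h.bz_Xu1.mul b1)).add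
      (((Bz.const (L / 4 : ℂ)).mul h.bz).mul b0))).congr fun X hX => ?_)
    ((c.bz_d4.ofReal.mul h.bz_Xu1).mul b0) (fun X _ => ?_) hY
  · simp only [Co.dm]
    push_cast
    ring
  · have h2 : (X : ℂ) ≠ 0 := ofReal_ne_zero.2 hX.ne'
    simp only [Co.dm]
    push_cast
    field_simp
  · simp only [Co.J, real_smul]
    push_cast
    ring

/-- Green identity paired with the function itself and a weight. -/
theorem c_green_self (h : c.Dv L u u1 v) {θ θ' : ℝ → ℝ} (hθ : Wf θ θ') (hY : 0 < Y) :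
    ∫ X in (0 : ℝ)..Y, (θ X * c.gr L u u1 X + c.dm X * (θ X * (v X * conj (u X)).re +
      θ' X * X * (u1 X * conj (u X)).re)) = θ Y * c.J Y * (u1 Y * conj (u Y)).re := by
  refine (cgreen_ftc (Φ := fun X => θ X * (c.J X * u1 X * conj (u X)).re)
    (fun X hX => ((hθ.d X hX).mul (cgreen_re ((h.d2 X hX).mul
      (cgreen_cj (h.d1 X hX))))).congr_deriv ?_)
    (((hθ.cgreen_bz.mul h.bz_gr).add ((c.bz_dm.mul (hθ.cgreen_bz.mul (h.bz_v.mul h.bz.cj).re)).add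
      (c.bz_d4.mul (hθ.cgreen_bz'.mul (h.bz_Xu1.mul h.bz.cj).re)))).congr fun X hX => ?_)
    ((hθ.cgreen_bz.mul c.bz_d4).mul (h.bz_Xu1.mul h.bz.cj).re) (fun X _ => ?_) hY).trans ?_
  · have e : (L / (4 * X) : ℂ) = (L / (4 * X) : ℝ) := by push_cast; rfl
    simp only [Co.dm, Co.gr, Complex.sq_norm, normSq_apply, e, mul_re, mul_im, add_re, add_im,
      ofReal_re, ofReal_im, conj_re, conj_im, Pi.mul_apply]
    field_simp
    ring
  · simp only [Co.dm, mul_assoc (X : ℂ), re_ofReal_mul]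
    ring
  · simp only [Co.J, mul_assoc (_ : ℂ), re_ofReal_mul, smul_eq_mul]
    ring
  · rw [mul_assoc (_ : ℂ), re_ofReal_mul, mul_assoc]

theorem c_rellich (h : c.Dv L u u1 v) {χ χ' : ℝ → ℝ} (hχ : Wf χ χ') (hY : 0 < Y) :
    ∫ X in (0 : ℝ)..Y, c.dm X * (χ X * X * (v X * conj (u1 X)).re -
      ((χ X * (5 + 2 * X * c.al X) - X * χ' X) * X * ‖u1 X‖ ^ 2 +
        (χ X * (5 + 2 * X * c.al X) + X * χ' X) * (L / (4 * X)) * ‖u X‖ ^ 2) / 2) =
      χ Y * c.J Y * (Y * ‖u1 Y‖ ^ 2 - L / (4 * Y) * ‖u Y‖ ^ 2) / 2 := by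
  have b1 := hχ.cgreen_bz.mul ((Bz.const 5).add (((Bz.const 2).mul Bz.id).mul c.bz_al))
  refine (cgreen_ftc
    (Φ := fun X => χ X * c.R X * (X ^ 7 * ‖u1 X‖ ^ 2 - L / 4 * X ^ 5 * ‖u X‖ ^ 2) / 2)
    (fun X hX => ((((hχ.d X hX).mul (c.dR X hX)).mul
      (((hasDerivAt_pow 7 X).mul (cgreen_sq (cgreen_u1 h hX))).sub
        (((hasDerivAt_pow 5 X).const_mul (L / 4)).mul (cgreen_sq (h.d1 X hX))))).div_const
          2).congr_deriv ?_)
    (((c.bz_dm.mul (hχ.cgreen_bz.mul (h.bz_v.mul h.bz_Xu1.cj).re)).sub ((c.bz_d4.mul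
      (((b1.sub hχ.cgreen_bz').mul (h.bz_Xn1.pow 2)).add (((b1.add hχ.cgreen_bz').mul
        (Bz.const (L / 4))).mul (h.bz.norm.pow 2)))).div_const 2)).congr fun X hX => ?_)
    (((hχ.cgreen_bz.mul c.bz_d4).mul ((h.bz_Xn1.pow 2).sub
      ((Bz.const (L / 4)).mul (h.bz.norm.pow 2)))).div_const 2) (fun X _ => ?_) hY).trans ?_
  · have e : (L / (4 * X) : ℂ) = (L / (4 * X) : ℝ) := by push_cast; rfl
    have e' : (6 + 2 * X * c.al X : ℂ) = (6 + 2 * X * c.al X : ℝ) := by push_cast; rfl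
    simp only [Co.dm, Complex.sq_norm, normSq_apply, e, e', mul_re, mul_im, add_re, add_im, sub_re,
      sub_im, div_ofReal_re, div_ofReal_im, ofReal_re, ofReal_im, conj_re, conj_im, Pi.mul_apply,
      Pi.sub_apply]
    push_cast
    field_simp
    ring
  · simp only [Co.dm, map_mul, conj_ofReal, mul_left_comm _ (X : ℂ), re_ofReal_mul]
    field_simp
  · simp only [smul_eq_mul]
    ring
  · simp only [Co.J]
    field_simp

/-- Integration by parts for the field `χ X ∂_X` and a real function `k`. -/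
theorem c_transport (c : Co) {χ χ' k k' : ℝ → ℝ} (hχ : Wf χ χ') (hk : Wf k k') (hY : 0 < Y) :
    ∫ X in (0 : ℝ)..Y, c.dm X * (χ X * X * k' X +
      (χ X * (6 + 2 * X * c.al X) + X * χ' X) * k X) = χ Y * c.J Y * k Y := by
  refine cgreen_ftc (Φ := fun X => χ X * c.J X * k X)
    (fun X hX => (((hχ.d X hX).mul (cgreen_J c hX)).mul (hk.d X hX)).congr_deriv ?_)
    ((c.bz_dm.mul ((hχ.cgreen_bz.mul hk.cgreen_bz').add (((hχ.cgreen_bz.mul
      (c_wf_th c).cgreen_bz).add hχ.cgreen_bz').mul hk.cgreen_bz))).congr fun X _ => by ring)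
    ((hχ.cgreen_bz.mul c.bz_dm).mul hk.cgreen_bz) (fun X _ => ?_) hY
  · simp only [Co.J, Co.dm, Pi.mul_apply]
    ring
  · simp only [Co.J, Co.dm, smul_eq_mul]
    ring

theorem Wf.mul {θ θ' χ χ' : ℝ → ℝ} (h : Wf θ θ') (h' : Wf χ χ') :
    Wf (fun X => θ X * χ X) fun X => θ' X * χ X + θ X * χ' X :=
  cgreen_wf (fun X hX => (h.d X hX).mul (h'.d X hX)) (h.cgreen_bz.mul h'.cgreen_bz)
    (((h.cgreen_bz'.mul h'.cgreen_bz).add (h.cgreen_bz.mul h'.cgreen_bz')).congr fun X _ => by ring)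

theorem c_wf_M (c : Co) : Wf c.M c.M' := cgreen_wf c.dM c.bz_M (Bz.id.mul c.bz_M')

/-- `re (κ u conj z)` is an admissible weight. -/
theorem c_wf_re {L' : ℝ} {z z1 v' : ℝ → ℂ} (h : c.Dv L u u1 v) (h' : c.Dv L' z z1 v') (κ : ℂ) :
    Wf (fun X => (κ * u X * conj (z X)).re)
      fun X => (κ * (u1 X * conj (z X) + u X * conj (z1 X))).re := by
  refine cgreen_wf (fun X hX => (cgreen_re (((h.d1 X hX).const_mul κ).mul
      (cgreen_cj (h'.d1 X hX)))).congr_deriv (congrArg re (by ring)))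
    (((Bz.const κ).mul h.bz).mul h'.bz.cj).re
    (((Bz.const κ).mul ((h.bz_Xu1.mul h'.bz.cj).add (h.bz.mul h'.bz_Xu1.cj))).re.congr
      fun X _ => ?_)
  rw [← re_ofReal_mul, map_mul, conj_ofReal]
  exact congrArg re (by ring)

end Vale.Agent.P139
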