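import Vale.Agent.P139.C.Bz
import Vale.Agent.P139.C.Green

/-! P139 part C: Cauchy-Schwarz inequalities for the energies. -/

noncomputable section

open MeasureTheory Filter Topology Set Complex
open scoped ComplexConjugate

namespace Vale.Agent.P139

variable {c : Co} {L L' Y : ℝ} {u u1 v z z1 v' : ℝ → ℂ}

theorem Co.dm_pos (c : Co) {X : ℝ} (hX : 0 < X) : 0 < c.dm X := mul_pos (c.R_pos X hX) (by positivity)

theorem Co.J_pos (c : Co) {X : ℝ} (hX : 0 < X) : 0 < c.J X := mul_pos (c.R_pos X hX) (by positivity)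

theorem ccs_mm (c : Co) (hu : Bz u) (hz : Bz z) {Y0 : ℝ} (h0 : 0 ≤ Y0) (hY : Y0 ≤ Y) :
    ∫ X in Y0..Y, c.dm X * (‖u X‖ * ‖z X‖) ≤ √(c.Ms u Y0 Y) * √(c.Ms z Y0 Y) :=
  (le_abs_self _).trans (c_cs hY ((c.bz_dm.mul (hu.norm.mul hz.norm)).intble h0 (h0.trans hY))
    ((c.bz_dm.mul (hu.norm.pow 2)).intble h0 (h0.trans hY))
    ((c.bz_dm.mul (hz.norm.pow 2)).intble h0 (h0.trans hY))
    (fun X hX => mul_nonneg (c.dm_pos (h0.trans_lt hX.1)).le (sq_nonneg _))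
    (fun X hX => mul_nonneg (c.dm_pos (h0.trans_lt hX.1)).le (sq_nonneg _))
    fun X _ => le_of_eq (by ring))

theorem ccs_le_gr (c : Co) (hL : 0 ≤ L) {X : ℝ} (hX : 0 < X) :
    c.dm X * X * ‖u1 X‖ ^ 2 ≤ c.gr L u u1 X ∧ c.R X * X ^ 4 * (L / 4) * ‖u X‖ ^ 2 ≤ c.gr L u u1 X := by
  have h := c.R_pos X hX
  have h1 : 0 ≤ c.R X * (X ^ 6 * ‖u1 X‖ ^ 2) := by positivity
  have h2 : 0 ≤ c.R X * (L / 4 * X ^ 4 * ‖u X‖ ^ 2) := by positivity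
  unfold Co.gr Co.dm
  constructor <;> linarith

theorem ccs_gm (h : c.Dv L u u1 v) (hL : 0 ≤ L) (hz : Bz z) (hY : 0 ≤ Y) :
    ∫ X in (0 : ℝ)..Y, c.dm X * (X * ‖u1 X‖ * ‖z X‖) ≤
      √Y * (√(c.Gr L u u1 Y) * √(c.Ms z 0 Y)) := by
  refine (le_abs_self _).trans ((c_cs (p := fun X => Y * c.gr L u u1 X)
    (q := fun X => c.dm X * ‖z X‖ ^ 2) hY ((c.bz_dm.mul (h.bz_Xn1.mul hz.norm)).intble le_rfl hY)
    ((h.int_gr le_rfl hY).const_mul _) ((c.bz_dm.mul (hz.norm.pow 2)).intble le_rfl hY)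
    (fun X hX => mul_nonneg hY (c_gr_nonneg c hL hX.1))
    (fun X hX => mul_nonneg (c.dm_pos hX.1).le (sq_nonneg _)) fun X hX => ?_).trans (le_of_eq ?_))
  · have h1 := (ccs_le_gr (u := u) (u1 := u1) c hL hX.1).1
    have h2 := c.dm_pos hX.1
    have h3 := hX.1
    calc _ = X * (c.dm X * X * ‖u1 X‖ ^ 2) * (c.dm X * ‖z X‖ ^ 2) := by ring
      _ ≤ _ := by gcongr; exact hX.2
  · rw [intervalIntegral.integral_const_mul, Real.sqrt_mul hY, mul_assoc]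
    rfl

/-- The gradient pairing. -/
theorem ccs_gg (h : c.Dv L u u1 v) (h' : c.Dv L z z1 v') (hL : 0 ≤ L) (hY : 0 ≤ Y) :
    ∫ X in (0 : ℝ)..Y, c.R X * X ^ 4 * (X * ‖u1 X‖ * (X * ‖z1 X‖) + L / 4 * (‖u X‖ * ‖z X‖)) ≤
      √(c.Gr L u u1 Y) * √(c.Gr L z z1 Y) := by
  refine (le_abs_self _).trans (c_cs hY ((c.bz_d4.mul ((h.bz_Xn1.mul h'.bz_Xn1).add
    ((Bz.const _).mul (h.bz.norm.mul h'.bz.norm)))).intble le_rfl hY) (h.int_gr le_rfl hY)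
    (h'.int_gr le_rfl hY) (fun X hX => c_gr_nonneg c hL hX.1) (fun X hX => c_gr_nonneg c hL hX.1)
    fun X _ => ?_)
  unfold Co.gr
  have : 0 ≤ (c.R X * X ^ 4) ^ 2 * (L / 4) * (X * ‖u1 X‖ * ‖z X‖ - X * ‖z1 X‖ * ‖u X‖) ^ 2 := by
    positivity
  linarith

/-! The integrands of the identities of `C/Green` are integrable. -/

theorem cmor_bz {θ θ' : ℝ → ℝ} (h : Wf θ θ') : Bz θ ∧ Bz fun X => X * θ' X := by
  obtain ⟨K, hK⟩ := h.b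
  exact ⟨⟨fun X hX => (h.d X hX).continuousAt.continuousWithinAt, K, fun X hX => (hK X hX).1⟩,
    ⟨continuousOn_id.mul h.c, K, fun X hX => (hK X hX).2⟩⟩

theorem cmor_tr (c : Co) {χ χ' k k' : ℝ → ℝ} (hχ : Wf χ χ') (hk : Wf k k') : Bz fun X =>
    c.dm X * (χ X * X * k' X + (χ X * (6 + 2 * X * c.al X) + X * χ' X) * k X) :=
  (c.bz_dm.mul (((cmor_bz hχ).1.mul (cmor_bz hk).2).add ((((cmor_bz hχ).1.mul
    (cmor_bz (c_wf_th c)).1).add (cmor_bz hχ).2).mul (cmor_bz hk).1))).congr fun X _ => by ring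

theorem cmor_gs (h : c.Dv L u u1 v) {θ θ' : ℝ → ℝ} (hθ : Wf θ θ') : Bz fun X =>
    θ X * c.gr L u u1 X + c.dm X * (θ X * (v X * conj (u X)).re +
      θ' X * X * (u1 X * conj (u X)).re) :=
  ((((cmor_bz hθ).1.mul h.bz_gr).add (c.bz_dm.mul ((cmor_bz hθ).1.mul (h.bz_v.mul h.bz.cj).re))).add
    (c.bz_d4.mul ((cmor_bz hθ).2.mul (h.bz_Xu1.mul h.bz.cj).re))).congr fun X _ => by
      simp only [mul_assoc (X : ℂ), re_ofReal_mul, Co.dm]; ring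

theorem cmor_rel (h : c.Dv L u u1 v) {χ χ' : ℝ → ℝ} (hχ : Wf χ χ') : Bz fun X =>
    c.dm X * (χ X * X * (v X * conj (u1 X)).re -
      ((χ X * (5 + 2 * X * c.al X) - X * χ' X) * X * ‖u1 X‖ ^ 2 +
        (χ X * (5 + 2 * X * c.al X) + X * χ' X) * (L / (4 * X)) * ‖u X‖ ^ 2) / 2) := by
  have h5 := (cmor_bz hχ).1.mul ((cmor_bz (c_wf_th c)).1.sub (Bz.const 1))
  refine ((c.bz_dm.mul ((cmor_bz hχ).1.mul (h.bz_v.mul h.bz_Xu1.cj).re)).sub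
    ((c.bz_d4.mul (((h5.sub (cmor_bz hχ).2).mul (h.bz_Xn1.pow 2)).add
      (((h5.add (cmor_bz hχ).2).mul (Bz.const (L / 4))).mul (h.bz.norm.pow 2)))).div_const 2)).congr
    fun X hX => ?_
  simp only [map_mul, conj_ofReal, mul_left_comm (v X), re_ofReal_mul, Co.dm]
  field_simp
  ring

end Vale.Agent.P139
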