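import Vale.Agent.P139.C.Green
import Vale.Agent.P139.C.CS

/-! P139 task C/Mor (PROOF.md section C). The Morawetz inequality (Mor). With `θ = 6 + 2 X al`: pointwise
`re [-Dψ X conj ψ1 + (M-D)η X conj η1] = re [λ (η X conj ψ1 - ψ X conj η1)]`; `c_rellich` (`χ = 1`) twice,
`c_transport` (`χ = 1`) for `M‖η‖²`, `im (η conj ψ)` and `re (ψ conj η)`; `c_green_self` with weight `θ` for `ψ` and `η`
eliminates `ω ∫ θ im (η conj ψ)`. Result: `(A+B)/2 - ∫ X M'‖η‖²/2 = J(Y‖ψ1‖²+Y‖η1‖² - L/(4Y)(..))/2 - J M‖η‖²/2 - ω J im (η conj ψ)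
- μ J re (ψ conj η) + θ J re (ψ1 conj ψ + η1 conj η)/2 + 2μ ∫ re (η X conj ψ1) + μ ∫ θ re (ψ conj η) - ∫ θ' X re (..)/2
+ ∫ θ re (Tη conj ψ - Tψ conj η)/2`; the last term by `c_transport` with `χ = θ w`.
-/

noncomputable section

open MeasureTheory Filter Topology Set Complex
open scoped ComplexConjugate

namespace Vale.Agent.P139

variable {c : Co} {L Y : ℝ} {lam : ℂ} {u u1 v η η1 ψ ψ1 sη sψ f g ef eg : ℝ → ℂ} {m l : ℕ}
  {Q : Prof m}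

theorem cmor_err {K μ θ t X w w' : ℝ} {x y x1 y1 : ℂ} (hK : 0 ≤ K) (hX : X ∈ Icc (0 : ℝ) 4)
    (h1 : |θ| ≤ 6 + 8 * K) (h2 : |t| ≤ K) (h3 : |w| ≤ K) (h4 : |X * w'| ≤ K) :
    -(2 * t * X * (y1 * conj y + x1 * conj x).re + (2 * θ * w - 4 * μ) * X * (x * conj y1).re +
      (θ * w * θ + X * (2 * t * w + θ * w') - 2 * μ * θ) * (x * conj y).re) ≤
      2 * (|t| * X * (‖y1‖ * ‖y‖ + ‖x1‖ * ‖x‖)) +
        (12 + 8 * K) ^ 2 * (K + 1) * (|μ| + 1) * (X * ‖y1‖ * ‖x‖ + ‖x‖ * ‖y‖) := by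
  have hX0 := hX.1
  have hμ := abs_nonneg μ
  have r : ∀ a b : ℂ, |(a * conj b).re| ≤ ‖a‖ * ‖b‖ := fun a b =>
    (abs_re_le_norm _).trans (by rw [norm_mul, Complex.norm_conj])
  have a1 : |2 * t * X * (y1 * conj y + x1 * conj x).re| ≤
      2 * (|t| * X * (‖y1‖ * ‖y‖ + ‖x1‖ * ‖x‖)) := by
    rw [abs_mul, abs_mul, abs_mul, abs_two, abs_of_nonneg hX0, add_re]
    have := (abs_add_le _ _).trans (add_le_add (r y1 y) (r x1 x))
    linarith [mul_le_mul_of_nonneg_left this (show 0 ≤ |t| * X by positivity)]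
  have b0 : |θ * w| ≤ (6 + 8 * K) * K := by rw [abs_mul]; gcongr
  have p0 : 0 ≤ K * |μ| := by positivity
  have p1 : 0 ≤ K ^ 2 * |μ| := by positivity
  have p2 : 0 ≤ K ^ 3 * |μ| := by positivity
  have p3 : 0 ≤ K ^ 2 := by positivity
  have p4 : 0 ≤ K ^ 3 := by positivity
  have b1 : |2 * θ * w - 4 * μ| ≤ (12 + 8 * K) ^ 2 * (K + 1) * (|μ| + 1) := by
    refine (abs_sub _ _).trans ?_
    rw [mul_assoc 2, abs_mul 2, abs_mul 4, abs_two, show |(4 : ℝ)| = 4 by norm_num]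
    linarith
  have b2 : |θ * w * θ + X * (2 * t * w + θ * w') - 2 * μ * θ| ≤
      (12 + 8 * K) ^ 2 * (K + 1) * (|μ| + 1) := by
    have e : θ * w * θ + X * (2 * t * w + θ * w') - 2 * μ * θ =
      θ * w * θ + (2 * X * (t * w) + θ * (X * w')) - 2 * (μ * θ) := by ring
    have c1 : |θ * w * θ| ≤ (6 + 8 * K) * K * (6 + 8 * K) := by rw [abs_mul]; gcongr
    have c2 : |2 * X * (t * w)| ≤ 2 * 4 * (K * K) := by
      rw [abs_mul, abs_mul, abs_mul, abs_two, abs_of_nonneg hX0]; gcongr; exact hX.2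
    have c3 : |θ * (X * w')| ≤ (6 + 8 * K) * K := by rw [abs_mul]; gcongr
    have c4 : |2 * (μ * θ)| ≤ 2 * (|μ| * (6 + 8 * K)) := by
      rw [abs_mul, abs_mul, abs_two]; gcongr
    rw [e]
    refine (abs_sub _ _).trans ((add_le_add_left ((abs_add_le _ _).trans
      (add_le_add_right (abs_add_le _ _) _)) _).trans ?_)
    linarith
  have a2 : |(2 * θ * w - 4 * μ) * X * (x * conj y1).re| ≤
      (12 + 8 * K) ^ 2 * (K + 1) * (|μ| + 1) * X * (‖x‖ * ‖y1‖) := by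
    rw [abs_mul, abs_mul, abs_of_nonneg hX0]
    have := r x y1
    gcongr
  have a3 : |(θ * w * θ + X * (2 * t * w + θ * w') - 2 * μ * θ) * (x * conj y).re| ≤
      (12 + 8 * K) ^ 2 * (K + 1) * (|μ| + 1) * (‖x‖ * ‖y‖) := by
    rw [abs_mul]
    have := r x y
    gcongr
  linarith [neg_abs_le (2 * t * X * (y1 * conj y + x1 * conj x).re),
    neg_abs_le ((2 * θ * w - 4 * μ) * X * (x * conj y1).re),
    neg_abs_le ((θ * w * θ + X * (2 * t * w + θ * w') - 2 * μ * θ) * (x * conj y).re)]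

theorem cmor_bd {K θ w M l Y : ℝ} {lam x y x1 y1 : ℂ} (hK : 0 ≤ K) (hY : Y ≤ 4) (hl : 0 ≤ l)
    (hM : 0 ≤ M) (h1 : |θ| ≤ 6 + 8 * K) (h3 : |w| ≤ K) :
    θ * (y1 * conj y).re + θ * (x1 * conj x).re + (Y * ‖y1‖ ^ 2 - l * ‖y‖ ^ 2) +
      (Y * ‖x1‖ ^ 2 - l * ‖x‖ ^ 2) - M * (1 * x * conj x).re -
      2 * lam.im * (-I * x * conj y).re - 2 * lam.re * (1 * y * conj x).re +
      θ * w * (1 * x * conj y).re ≤ (12 + 8 * K) * (K + 1) *
        (‖y1‖ ^ 2 + ‖x1‖ ^ 2 + (‖lam‖ + 1) * (‖y‖ ^ 2 + ‖x‖ ^ 2)) := by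
  have r : ∀ (t T : ℝ) (s a b : ℂ), |t| ≤ T → ‖s‖ = 1 →
      |t * (s * a * conj b).re| ≤ T * ((‖a‖ ^ 2 + ‖b‖ ^ 2) / 2) := by
    intro t T s a b ht hs
    rw [abs_mul]
    refine mul_le_mul ht ((abs_re_le_norm _).trans ?_) (abs_nonneg _) ((abs_nonneg _).trans ht)
    rw [norm_mul, norm_mul, hs, Complex.norm_conj]
    linarith [sq_nonneg (‖a‖ - ‖b‖)]
  have a1 := le_of_abs_le (r θ _ 1 y1 y h1 norm_one)
  have a2 := le_of_abs_le (r θ _ 1 x1 x h1 norm_one)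
  have a3 := neg_le_of_abs_le (r lam.im _ (-I) x y (abs_im_le_norm _) (by simp))
  have a4 := neg_le_of_abs_le (r lam.re _ 1 y x (abs_re_le_norm _) norm_one)
  have a5 := le_of_abs_le (r (θ * w) ((6 + 8 * K) * K) 1 x y (by rw [abs_mul]; gcongr) norm_one)
  have a6 : 0 ≤ M * (1 * x * conj x).re := by
    rw [one_mul, Complex.mul_conj, ofReal_re]; exact mul_nonneg hM (normSq_nonneg _)
  rw [one_mul] at a1 a2
  have a7 := mul_le_mul_of_nonneg_right hY (show 0 ≤ ‖y1‖ ^ 2 + ‖x1‖ ^ 2 by positivity)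
  have b1 : 0 ≤ l * (‖y‖ ^ 2 + ‖x‖ ^ 2) := by positivity
  have b2 : 0 ≤ (5 + 16 * K + 8 * K ^ 2) * (‖y1‖ ^ 2 + ‖x1‖ ^ 2) := by positivity
  have b3 : 0 ≤ (10 + 20 * K + 8 * K ^ 2) * (‖lam‖ * (‖y‖ ^ 2 + ‖x‖ ^ 2)) := by positivity
  have b4 : 0 ≤ (9 + 13 * K + 4 * K ^ 2) * (‖y‖ ^ 2 + ‖x‖ ^ 2) := by positivity
  linarith

theorem c_mor (K : ℝ) : ∃ K', 0 ≤ K' ∧ ∀ (c : Co) (L Y : ℝ) (lam : ℂ) (η η1 ψ ψ1 : ℝ → ℂ),
    c.Sys L lam η η1 ψ ψ1 0 0 → Y ∈ Icc (1 : ℝ) 4 → (∀ X ∈ Ioc 0 Y, c.w X ≤ K ∧ |c.al X| ≤ K ∧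
      |c.al X + X * c.al' X| ≤ K ∧ |X * c.w' X| ≤ K) →
    c.Gr L ψ ψ1 Y + c.Gr L η η1 Y ≤ (∫ X in (0 : ℝ)..Y, c.dm X * (X * c.M' X * ‖η X‖ ^ 2)) +
      K' * c.J Y * (‖ψ1 Y‖ ^ 2 + ‖η1 Y‖ ^ 2 + (‖lam‖ + 1) * (‖ψ Y‖ ^ 2 + ‖η Y‖ ^ 2)) +
      K' * (|lam.re| + 1) * (√(c.Ms η 0 Y) * (√(c.Gr L ψ ψ1 Y) + √(c.Ms ψ 0 Y))) +
      2 * ∫ X in (0 : ℝ)..Y, c.dm X * (|c.al X + X * c.al' X| * X *
        (‖ψ1 X‖ * ‖ψ X‖ + ‖η1 X‖ * ‖η X‖)) := by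
  obtain ⟨k, hk⟩ : ∃ k, k = |K| := ⟨_, rfl⟩
  have hk0 : 0 ≤ k := hk ▸ abs_nonneg K
  have hk1 : K ≤ k := hk ▸ le_abs_self K
  refine ⟨2 * ((12 + 8 * k) ^ 2 * (k + 1)), by positivity, fun c L Y lam η η1 ψ ψ1 h hY hb => ?_⟩
  have hY0 : 0 < Y := by linarith [hY.1]
  have hθ : ∀ X ∈ Ioc 0 Y, |6 + 2 * X * c.al X| ≤ 6 + 8 * k := fun X hX => by
    refine (abs_add_le _ _).trans ?_
    rw [abs_mul, abs_mul, abs_two, abs_of_pos hX.1, show |(6 : ℝ)| = 6 by norm_num]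
    have := mul_le_mul (hX.2.trans hY.2) ((hb X hX).2.1.trans hk1) (abs_nonneg _) (by norm_num)
    linarith
  have hw : ∀ X ∈ Ioc 0 Y, |c.w X| ≤ k := fun X hX => by
    rw [abs_of_pos (c.w_pos X hX.1)]; exact (hb X hX).1.trans hk1
  have w1 := (c_wf_M c).mul (c_wf_re h.dη h.dη 1)
  have w2 := c_wf_re h.dη h.dψ (-I)
  have w3 := c_wf_re h.dψ h.dη 1
  have w4 := c_wf_re h.dη h.dψ 1
  have w5 := (c_wf_th c).mul (c_wf_w c)
  have i := fun {φ : ℝ → ℝ} (hφ : Bz φ) => hφ.intble le_rfl hY0.le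
  have e1 := c_green_self h.dψ (c_wf_th c) hY0
  have e2 := c_green_self h.dη (c_wf_th c) hY0
  have e3 := c_rellich h.dψ c_wf_one hY0
  have e4 := c_rellich h.dη c_wf_one hY0
  have e5 := c_transport c c_wf_one w1 hY0
  have e6 := c_transport c c_wf_one w2 hY0
  have e7 := c_transport c c_wf_one w3 hY0
  have e8 := c_transport c w5 w4 hY0
  have b1 := cmor_gs h.dψ (c_wf_th c)
  have b2 := cmor_gs h.dη (c_wf_th c)
  have b3 := (Bz.const 2).mul (cmor_rel h.dψ c_wf_one)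
  have b4 := (Bz.const 2).mul (cmor_rel h.dη c_wf_one)
  have b5 := cmor_tr c c_wf_one w1
  have b6 := (Bz.const (2 * lam.im)).mul (cmor_tr c c_wf_one w2)
  have b7 := (Bz.const (2 * lam.re)).mul (cmor_tr c c_wf_one w3)
  have b8 := cmor_tr c w5 w4
  have b9 := c.bz_dm.mul ((Bz.id.mul c.bz_M').mul (h.dη.bz.norm.pow 2))
  have b10 : Bz fun X => c.dm X * (|c.al X + X * c.al' X| * X *
      (‖ψ1 X‖ * ‖ψ X‖ + ‖η1 X‖ * ‖η X‖)) :=
    (c.bz_dm.mul ((c.bz_al.add c.bz_Xal').abs.mul ((h.dψ.bz_Xn1.mul h.dψ.bz.norm).add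
      (h.dη.bz_Xn1.mul h.dη.bz.norm)))).congr fun X _ => by ring
  have b11 := c.bz_dm.mul (h.dψ.bz_Xn1.mul h.dη.bz.norm)
  have b12 := c.bz_dm.mul (h.dη.bz.norm.mul h.dψ.bz.norm)
  obtain ⟨T, hT⟩ : ∃ T, T = (12 + 8 * k) ^ 2 * (k + 1) * (|lam.re| + 1) := ⟨_, rfl⟩
  have s1 := b1.add b2
  have s2 := s1.add b3
  have s3 := s2.add b4
  have s4 := s3.sub b5
  have s5 := s4.sub b6
  have s6 := s5.sub b7
  have s7 := s6.add b8
  have s8 := s7.add b9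
  have b13 := (Bz.const 2).mul b10
  have s9 := s8.add b13
  have b14 := (Bz.const T).mul (b11.add b12)
  have main := c_mono hY0.le (i (h.dψ.bz_gr.add h.dη.bz_gr)) (i (s9.add b14)) fun X hX => by
    have r := mul_le_mul_of_nonneg_left (cmor_err (μ := lam.re) (x := η X) (y := ψ X) (x1 := η1 X)
      (y1 := ψ1 X) hk0 ⟨hX.1.le, hX.2.trans hY.2⟩ (hθ X hX) ((hb X hX).2.2.1.trans hk1) (hw X hX)
      ((hb X hX).2.2.2.trans hk1)) (c.dm_pos hX.1).le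
    rw [← hT] at r
    have q : c.dm X * (L / (4 * X)) = c.R X * (L / 4 * X ^ 4) := by
      have := hX.1.ne'
      unfold Co.dm; field_simp
    have q1 : ∀ u u1 : ℝ → ℂ, c.gr L u u1 X = c.dm X * (X * ‖u1 X‖ ^ 2 + L / (4 * X) * ‖u X‖ ^ 2) :=
      fun u u1 => by
        rw [mul_add, ← mul_assoc (c.dm X) (L / _), q]; unfold Co.gr Co.dm; ring
    simp only [q1, Complex.sq_norm, normSq_apply, mul_re, mul_im, add_re, add_im, neg_re, neg_im,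
      conj_re, conj_im, ofReal_re, ofReal_im, one_re, one_im, I_re, I_im, Pi.zero_apply, zero_re,
      zero_im, sub_re, sub_im] at r ⊢
    linarith only [r]
  rw [intervalIntegral.integral_add (i h.dψ.bz_gr) (i h.dη.bz_gr),
    intervalIntegral.integral_add (i s9) (i b14), intervalIntegral.integral_add (i s8) (i b13),
    intervalIntegral.integral_add (i s7) (i b9), intervalIntegral.integral_add (i s6) (i b8),
    intervalIntegral.integral_sub (i s5) (i b7), intervalIntegral.integral_sub (i s4) (i b6),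
    intervalIntegral.integral_sub (i s3) (i b5), intervalIntegral.integral_add (i s2) (i b4),
    intervalIntegral.integral_add (i s1) (i b3), intervalIntegral.integral_add (i b1) (i b2)] at main
  simp only [intervalIntegral.integral_const_mul] at main
  rw [intervalIntegral.integral_add (i b11) (i b12), e1, e2, e3, e4, e5, e6, e7, e8] at main
  have hT0 : 0 ≤ T := by rw [hT]; positivity
  have m1 := ccs_gm h.dψ h.L_nonneg h.dη.bz hY0.le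
  have m2 := ccs_mm c h.dη.bz h.dψ.bz le_rfl hY0.le
  have m3 : √Y ≤ 2 := Real.sqrt_le_iff.2 ⟨by norm_num, by linarith [hY.2]⟩
  have m4 := mul_le_mul_of_nonneg_left (add_le_add (m1.trans
    (mul_le_mul_of_nonneg_right m3 (by positivity))) m2) hT0
  have m5 := mul_le_mul_of_nonneg_left (cmor_bd (lam := lam) (x := η Y) (y := ψ Y) (x1 := η1 Y)
    (y1 := ψ1 Y) (l := L / (4 * Y)) hk0 hY.2 (by have := h.L_nonneg; positivity)
    (c.M_nonneg Y hY0) (hθ Y ⟨hY0, le_rfl⟩) (hw Y ⟨hY0, le_rfl⟩)) (c.J_pos hY0).le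
  have m6 : 0 ≤ T * (√(c.Ms η 0 Y) * √(c.Ms ψ 0 Y)) := by positivity
  have m7 : 0 ≤ (12 + 8 * k) * (k + 1) * (23 + 16 * k) * (c.J Y *
      (‖ψ1 Y‖ ^ 2 + ‖η1 Y‖ ^ 2 + (‖lam‖ + 1) * (‖ψ Y‖ ^ 2 + ‖η Y‖ ^ 2))) := by
    have := c.J_pos hY0
    positivity
  rw [show 2 * ((12 + 8 * k) ^ 2 * (k + 1)) * (|lam.re| + 1) = 2 * T by rw [hT]; ring]
  unfold Co.Gr at *
  linarith only [main, m4, m5, m6, m7]

end Vale.Agent.P139
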