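import Vale.Agent.P139.C.Green
import Vale.Agent.P139.C.Bz

/-! P139 task C/Pair (PROOF.md section C). Pairing inequalities. `c_green_self` (weight `1`) for `ψ` and `η`:
`A = J re (ψ1 conj ψ) + re ∫ ((λ+T)η - sη) conj ψ`, `B + Pot = J re (η1 conj η) - re ∫ ((λ+T)ψ - sψ) conj η`.
In the sum `re λ` cancels, in the difference `im λ` cancels. `re (Tη conj ψ + Tψ conj η)` is integrated by
`c_transport` (`χ = w`, `c.div`, `c_wf_re`, `κ ≤ 6`). Then `c_cs`.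
-/

noncomputable section

open MeasureTheory Filter Topology Set Complex
open scoped ComplexConjugate

namespace Vale.Agent.P139

variable {c : Co} {L Y : ℝ} {lam : ℂ} {u u1 v η η1 ψ ψ1 sη sψ f g ef eg : ℝ → ℂ} {m l : ℕ}
  {Q : Prof m}

theorem cpair_cs {a b : ℝ → ℂ} {φ : ℝ → ℝ} (ha : Bz a) (hb : Bz b) (hφ : Bz φ) (hY : 0 < Y)
    (hle : ∀ X, |φ X| ≤ ‖a X‖ * ‖b X‖) :
    |∫ X in (0 : ℝ)..Y, c.dm X * φ X| ≤ √(c.Ms a 0 Y) * √(c.Ms b 0 Y) := by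
  have hd : ∀ X ∈ Ioc (0 : ℝ) Y, 0 ≤ c.dm X := fun X hX =>
    mul_nonneg (c.R_pos X hX.1).le (pow_nonneg hX.1.le _)
  refine c_cs hY.le ((c.bz_dm.mul hφ).intble le_rfl hY.le)
    ((c.bz_dm.mul (ha.norm.pow 2)).intble le_rfl hY.le)
    ((c.bz_dm.mul (hb.norm.pow 2)).intble le_rfl hY.le)
    (fun X hX => mul_nonneg (hd X hX) (sq_nonneg _))
    (fun X hX => mul_nonneg (hd X hX) (sq_nonneg _)) fun X _ => ?_
  have h1 : φ X ^ 2 ≤ (‖a X‖ * ‖b X‖) ^ 2 := by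
    rw [← sq_abs]
    exact pow_le_pow_left₀ (abs_nonneg _) (hle X) 2
  calc (c.dm X * φ X) ^ 2 = c.dm X ^ 2 * φ X ^ 2 := by ring
    _ ≤ c.dm X ^ 2 * (‖a X‖ * ‖b X‖) ^ 2 := mul_le_mul_of_nonneg_left h1 (sq_nonneg _)
    _ = _ := by ring

theorem cpair_re (a b : ℂ) : |(a * conj b).re| ≤ ‖a‖ * ‖b‖ :=
  (abs_re_le_norm _).trans (by rw [norm_mul, RCLike.norm_conj])

theorem cpair_im (a b : ℂ) : |(a * conj b).im| ≤ ‖a‖ * ‖b‖ :=
  (abs_im_le_norm _).trans (by rw [norm_mul, RCLike.norm_conj])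

theorem cpair_bzT (h : c.Dv L u u1 v) : Bz fun X : ℝ => (c.w X : ℂ) * X * u1 X :=
  (c.bz_w.ofReal.mul h.bz_Xu1).congr fun _ _ => mul_assoc _ _ _

theorem cpair_T (h : c.Dv L u u1 v) (hL : 0 ≤ L) {z : ℝ → ℂ} (hz : Bz z) (hY : 0 < Y) {K : ℝ}
    (hK : ∀ X ∈ Ioc 0 Y, c.w X ≤ K) :
    |∫ X in (0 : ℝ)..Y, c.dm X * ((c.w X : ℂ) * X * u1 X * conj (z X)).re| ≤
      K * √Y * (√(c.Gr L u u1 Y) * √(c.Ms z 0 Y)) := by
  have hK0 : 0 ≤ K := (c.w_pos Y hY).le.trans (hK Y ⟨hY, le_rfl⟩)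
  refine (cpair_cs (cpair_bzT h) hz ((cpair_bzT h).mul hz.cj).re hY
    fun X => cpair_re _ _).trans ?_
  rw [← mul_assoc]
  refine mul_le_mul_of_nonneg_right ?_ (Real.sqrt_nonneg _)
  have h1 : c.Ms (fun X : ℝ => (c.w X : ℂ) * X * u1 X) 0 Y ≤ K ^ 2 * Y * c.Gr L u u1 Y := by
    rw [Co.Ms, Co.Gr, ← intervalIntegral.integral_const_mul]
    refine c_mono hY.le ((c.bz_dm.mul ((cpair_bzT h).norm.pow 2)).intble le_rfl hY.le)
      (((Bz.const _).mul h.bz_gr).intble le_rfl hY.le) fun X hX => ?_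
    have hX0 := hX.1
    have hw := c.w_pos X hX0
    have hR := c.R_pos X hX0
    rw [norm_mul, norm_mul, Complex.norm_real, Complex.norm_real, Real.norm_of_nonneg hw.le,
      Real.norm_of_nonneg hX0.le]
    have h2 : c.w X ^ 2 * X ≤ K ^ 2 * Y :=
      mul_le_mul (pow_le_pow_left₀ hw.le (hK X hX) 2) hX.2 hX0.le (sq_nonneg _)
    have h3 : c.R X * (X ^ 6 * ‖u1 X‖ ^ 2) ≤ c.gr L u u1 X :=
      mul_le_mul_of_nonneg_left (le_add_of_nonneg_right (by positivity)) hR.le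
    calc c.dm X * (c.w X * X * ‖u1 X‖) ^ 2 = c.w X ^ 2 * X * (c.R X * (X ^ 6 * ‖u1 X‖ ^ 2)) := by
          rw [Co.dm]; ring
      _ ≤ _ := mul_le_mul h2 h3 (by positivity) (by positivity)
  refine (Real.sqrt_le_sqrt h1).trans_eq ?_
  rw [Real.sqrt_mul (by positivity), Real.sqrt_mul (sq_nonneg _), Real.sqrt_sq hK0]

theorem cpair_green (h : c.Dv L u u1 v) (hY : 0 < Y) :
    c.Gr L u u1 Y + ∫ X in (0 : ℝ)..Y, c.dm X * (v X * conj (u X)).re =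
      c.J Y * (u1 Y * conj (u Y)).re := by
  have h1 := c_green_self h c_wf_one hY
  simp only [one_mul, zero_mul, add_zero] at h1
  rw [← h1, Co.Gr, intervalIntegral.integral_add (h.bz_gr.intble le_rfl hY.le)
    ((c.bz_dm.mul (h.bz_v.mul h.bz.cj).re).intble le_rfl hY.le)]

theorem cpair_ids (h : c.Sys L lam η η1 ψ ψ1 sη sψ) (hY : 0 < Y) : ∃ x y t1 t2 s1 s2 : ℝ,
    c.Gr L ψ ψ1 Y = c.J Y * (ψ1 Y * conj (ψ Y)).re + (lam.re * x - lam.im * y) + t1 - s1 ∧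
    c.Gr L η η1 Y + c.Pot η Y =
      c.J Y * (η1 Y * conj (η Y)).re - (lam.re * x + lam.im * y) - t2 + s2 ∧
    t1 + t2 + c.κ * x = c.w Y * c.J Y * (η Y * conj (ψ Y)).re ∧
    |x| ≤ √(c.Ms η 0 Y) * √(c.Ms ψ 0 Y) ∧ |y| ≤ √(c.Ms η 0 Y) * √(c.Ms ψ 0 Y) ∧
    |s1| ≤ √(c.Ms sη 0 Y) * √(c.Ms ψ 0 Y) ∧ |s2| ≤ √(c.Ms sψ 0 Y) * √(c.Ms η 0 Y) ∧
    ∀ K, (∀ X ∈ Ioc 0 Y, c.w X ≤ K) → |t1| ≤ K * √Y * (√(c.Gr L η η1 Y) * √(c.Ms ψ 0 Y)) ∧
      |t2| ≤ K * √Y * (√(c.Gr L ψ ψ1 Y) * √(c.Ms η 0 Y)) := by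
  obtain ⟨K0, hK0⟩ := h.s0
  have bη := h.dη.bz
  have bψ := h.dψ.bz
  have bsη : Bz sη := ⟨h.cη, K0, fun X hX => (hK0 X hX).1⟩
  have bsψ : Bz sψ := ⟨h.cψ, K0, fun X hX => (hK0 X hX).2⟩
  have ix := (c.bz_dm.mul (bη.mul bψ.cj).re).intble le_rfl hY.le
  have iy := (c.bz_dm.mul (bη.mul bψ.cj).im).intble le_rfl hY.le
  have it1 := (c.bz_dm.mul ((cpair_bzT h.dη).mul bψ.cj).re).intble le_rfl hY.le
  have it2 := (c.bz_dm.mul ((cpair_bzT h.dψ).mul bη.cj).re).intble le_rfl hY.le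
  have is1 := (c.bz_dm.mul (bsη.mul bψ.cj).re).intble le_rfl hY.le
  have is2 := (c.bz_dm.mul (bsψ.mul bη.cj).re).intble le_rfl hY.le
  have ip := h.dη.int_pot le_rfl hY.le
  refine ⟨∫ X in (0 : ℝ)..Y, c.dm X * (η X * conj (ψ X)).re,
    ∫ X in (0 : ℝ)..Y, c.dm X * (η X * conj (ψ X)).im,
    ∫ X in (0 : ℝ)..Y, c.dm X * ((c.w X : ℂ) * X * η1 X * conj (ψ X)).re,
    ∫ X in (0 : ℝ)..Y, c.dm X * ((c.w X : ℂ) * X * ψ1 X * conj (η X)).re,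
    ∫ X in (0 : ℝ)..Y, c.dm X * (sη X * conj (ψ X)).re,
    ∫ X in (0 : ℝ)..Y, c.dm X * (sψ X * conj (η X)).re, ?_, ?_, ?_,
    cpair_cs bη bψ (bη.mul bψ.cj).re hY fun X => cpair_re _ _,
    cpair_cs bη bψ (bη.mul bψ.cj).im hY fun X => cpair_im _ _,
    cpair_cs bsη bψ (bsη.mul bψ.cj).re hY fun X => cpair_re _ _,
    cpair_cs bsψ bη (bsψ.mul bη.cj).re hY fun X => cpair_re _ _,
    fun K hK => ⟨cpair_T h.dη h.L_nonneg bψ hY hK, cpair_T h.dψ h.L_nonneg bη hY hK⟩⟩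
  · have h1 := cpair_green h.dψ hY
    have e : ∀ X : ℝ, c.dm X * ((-(lam * η X + c.w X * X * η1 X) + sη X) * conj (ψ X)).re =
        lam.im * (c.dm X * (η X * conj (ψ X)).im) - lam.re * (c.dm X * (η X * conj (ψ X)).re) -
          c.dm X * ((c.w X : ℂ) * X * η1 X * conj (ψ X)).re +
          c.dm X * (sη X * conj (ψ X)).re := fun X => by
      simp only [mul_re, mul_im, add_re, add_im, neg_re, neg_im, conj_re, conj_im, ofReal_re,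
        ofReal_im]
      ring
    simp only [e] at h1
    rw [intervalIntegral.integral_add (((iy.const_mul _).sub (ix.const_mul _)).sub it1) is1,
      intervalIntegral.integral_sub ((iy.const_mul _).sub (ix.const_mul _)) it1,
      intervalIntegral.integral_sub (iy.const_mul _) (ix.const_mul _),
      intervalIntegral.integral_const_mul, intervalIntegral.integral_const_mul] at h1
    linarith
  · have h1 := cpair_green h.dη hY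
    have e : ∀ X : ℝ,
        c.dm X * ((lam * ψ X + c.w X * X * ψ1 X + c.M X * η X - sψ X) * conj (η X)).re =
        lam.im * (c.dm X * (η X * conj (ψ X)).im) + lam.re * (c.dm X * (η X * conj (ψ X)).re) +
          c.dm X * ((c.w X : ℂ) * X * ψ1 X * conj (η X)).re + c.dm X * c.M X * ‖η X‖ ^ 2 -
          c.dm X * (sψ X * conj (η X)).re := fun X => by
      simp only [mul_re, mul_im, add_re, add_im, sub_re, sub_im, conj_re, conj_im, ofReal_re,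
        ofReal_im, Complex.sq_norm, normSq_apply]
      ring
    simp only [e] at h1
    rw [intervalIntegral.integral_sub ((((iy.const_mul _).add (ix.const_mul _)).add it2).add ip) is2,
      intervalIntegral.integral_add (((iy.const_mul _).add (ix.const_mul _)).add it2) ip,
      intervalIntegral.integral_add ((iy.const_mul _).add (ix.const_mul _)) it2,
      intervalIntegral.integral_add (iy.const_mul _) (ix.const_mul _),
      intervalIntegral.integral_const_mul, intervalIntegral.integral_const_mul] at h1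
    rw [Co.Pot]
    linarith
  · have h1 := c_transport c (c_wf_w c) (c_wf_re h.dη h.dψ 1) hY
    simp only [one_mul] at h1
    rw [← h1, ← intervalIntegral.integral_const_mul, ← intervalIntegral.integral_add it1 it2,
      ← intervalIntegral.integral_add (it1.add it2) (ix.const_mul _)]
    refine intervalIntegral.integral_congr_ae (Eventually.of_forall fun X hX => ?_)
    rw [uIoc_of_le hY.le] at hX
    rw [c.div X hX.1]
    simp only [mul_re, mul_im, add_re, conj_re, conj_im, ofReal_re, ofReal_im]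
    ring

theorem cpair_bdry (hY : 0 < Y) {K : ℝ} (hK : c.w Y ≤ K) (a b : ℂ) :
    |c.w Y * c.J Y * (a * conj b).re| ≤ c.J Y * (K * ‖a‖ * ‖b‖) ∧
      |c.J Y * (a * conj b).re| ≤ c.J Y * (‖a‖ * ‖b‖) := by
  have hJ : 0 ≤ c.J Y := mul_nonneg (c.R_pos Y hY).le (pow_nonneg hY.le _)
  have hw := c.w_pos Y hY
  have h1 := mul_le_mul_of_nonneg_left (cpair_re a b) hJ
  rw [abs_mul, abs_mul, abs_mul, abs_of_nonneg hJ, abs_of_pos hw]
  refine ⟨?_, h1⟩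
  calc c.w Y * c.J Y * |(a * conj b).re| = c.w Y * (c.J Y * |(a * conj b).re|) := mul_assoc _ _ _
    _ ≤ K * (c.J Y * (‖a‖ * ‖b‖)) := mul_le_mul hK h1 (by positivity) (hw.le.trans hK)
    _ = _ := by ring

theorem cpair_mul {a x S : ℝ} (h : |x| ≤ S) : |a * x| ≤ |a| * S := by
  rw [abs_mul]
  exact mul_le_mul_of_nonneg_left h (abs_nonneg _)

theorem cpair_kap {x S : ℝ} (h : |x| ≤ S) : |c.κ * x| ≤ 6 * S :=
  (cpair_mul h).trans (mul_le_mul_of_nonneg_right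
    (abs_le.2 ⟨by linarith [c.κ_mem.1], c.κ_mem.2⟩) ((abs_nonneg _).trans h))

theorem c_pair (h : c.Sys L lam η η1 ψ ψ1 sη sψ) (hY : 0 < Y) {K : ℝ}
    (hK : ∀ X ∈ Ioc 0 Y, c.w X ≤ K) :
    c.En L η η1 ψ ψ1 Y ≤ c.J Y * (‖ψ1 Y‖ * ‖ψ Y‖ + ‖η1 Y‖ * ‖η Y‖ + K * ‖η Y‖ * ‖ψ Y‖) +
      (2 * |lam.im| + 6) * (√(c.Ms η 0 Y) * √(c.Ms ψ 0 Y)) +
      2 * K * √Y * (√(c.Gr L ψ ψ1 Y) * √(c.Ms η 0 Y)) +
      √(c.Ms sη 0 Y) * √(c.Ms ψ 0 Y) + √(c.Ms sψ 0 Y) * √(c.Ms η 0 Y) := by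
  obtain ⟨x, y, t1, t2, s1, s2, e1, e2, e3, hx, hy, hs1, hs2, ht⟩ := cpair_ids h hY
  have hKY := hK Y ⟨hY, le_rfl⟩
  have b1 := abs_le.1 (cpair_bdry hY hKY (η Y) (ψ Y)).1
  have b2 := abs_le.1 (cpair_bdry hY hKY (ψ1 Y) (ψ Y)).2
  have b3 := abs_le.1 (cpair_bdry hY hKY (η1 Y) (η Y)).2
  have b4 := abs_le.1 (cpair_mul (a := lam.im) hy)
  have b5 := abs_le.1 (cpair_kap (c := c) hx)
  have b6 := abs_le.1 (ht K hK).2
  have b7 := abs_le.1 hs1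
  have b8 := abs_le.1 hs2
  rw [Co.En]
  linarith [b1.2, b2.2, b3.2, b4.1, b5.1, b6.1, b7.1, b8.2]

theorem c_pair_I (h : c.Sys L lam η η1 ψ ψ1 0 0) (hY : 0 < Y) {K : ℝ}
    (hK : ∀ X ∈ Ioc 0 Y, c.w X ≤ K) :
    c.En L η η1 ψ ψ1 Y ≤ c.J Y * (ψ1 Y * conj (ψ Y) + η1 Y * conj (η Y)).re +
      |lam.im| * (c.Ms η 0 Y + c.Ms ψ 0 Y) +
      K * √Y * (√(c.Gr L η η1 Y) * √(c.Ms ψ 0 Y) + √(c.Gr L ψ ψ1 Y) * √(c.Ms η 0 Y)) := by
  obtain ⟨x, y, t1, t2, s1, s2, e1, e2, -, -, hy, hs1, hs2, ht⟩ := cpair_ids h hY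
  have z0 : c.Ms 0 0 Y = 0 := by simp [Co.Ms]
  rw [z0, Real.sqrt_zero, zero_mul] at hs1 hs2
  have b0 : √(c.Ms η 0 Y) * √(c.Ms ψ 0 Y) ≤ (c.Ms η 0 Y + c.Ms ψ 0 Y) / 2 := by
    nlinarith [Real.sq_sqrt (c_Ms_nonneg (u := η) c le_rfl hY.le),
      Real.sq_sqrt (c_Ms_nonneg (u := ψ) c le_rfl hY.le),
      sq_nonneg (√(c.Ms η 0 Y) - √(c.Ms ψ 0 Y))]
  have b4 := abs_le.1 (cpair_mul (a := lam.im) (hy.trans b0))
  have b5 := abs_le.1 (ht K hK).1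
  have b6 := abs_le.1 (ht K hK).2
  have b7 := abs_le.1 hs1
  have b8 := abs_le.1 hs2
  rw [Co.En, add_re]
  linarith [b4.1, b5.2, b6.1, b7.1, b8.2]

theorem c_anti (h : c.Sys L lam η η1 ψ ψ1 0 0) (hY : 0 < Y) {K : ℝ} (hK : c.w Y ≤ K) :
    c.Pot η Y ≤ c.Gr L ψ ψ1 Y +
      c.J Y * (‖ψ1 Y‖ * ‖ψ Y‖ + ‖η1 Y‖ * ‖η Y‖ + K * ‖η Y‖ * ‖ψ Y‖) +
      (2 * |lam.re| + 6) * (√(c.Ms η 0 Y) * √(c.Ms ψ 0 Y)) := by
  obtain ⟨x, y, t1, t2, s1, s2, e1, e2, e3, hx, -, hs1, hs2, -⟩ := cpair_ids h hY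
  have z0 : c.Ms 0 0 Y = 0 := by simp [Co.Ms]
  rw [z0, Real.sqrt_zero, zero_mul] at hs1 hs2
  have b0 := c_Gr_nonneg (u := η) (u1 := η1) c h.L_nonneg hY.le
  have b1 := abs_le.1 (cpair_bdry hY hK (η Y) (ψ Y)).1
  have b2 := abs_le.1 (cpair_bdry hY hK (ψ1 Y) (ψ Y)).2
  have b3 := abs_le.1 (cpair_bdry hY hK (η1 Y) (η Y)).2
  have b4 := abs_le.1 (cpair_mul (a := lam.re) hx)
  have b5 := abs_le.1 (cpair_kap (c := c) hx)
  have b7 := abs_le.1 hs1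
  have b8 := abs_le.1 hs2
  linarith [b1.1, b2.1, b3.2, b4.1, b5.2, b7.2, b8.2]

end Vale.Agent.P139
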