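import Vale.Agent.P139.C.Bz
import Vale.Agent.P139.C.Sob

/-! P139 task C/R2: auxiliary inequalities. -/

noncomputable section

open MeasureTheory Filter Topology Set Complex
open scoped ComplexConjugate

namespace Vale.Agent.P139

variable {c : Co} {L Y : ℝ} {u u1 v : ℝ → ℂ}

theorem cr2_one {D s ε E n f g a b : ℝ} (hD : 1 ≤ D) (hs : 240 * D ^ 4 ≤ s)
    (hε : 80 * D ^ 3 * ε ≤ 1) (hε0 : 0 ≤ ε) (hE : 0 ≤ E) (ha0 : 0 ≤ a) (hn : n = f + g)
    (ha : s ^ 2 * a ≤ D * (E + s * n ^ 2)) (hb : s ^ 2 * b ≤ D * (E + s * n ^ 2))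
    (hd : s * f ^ 2 ≤ D * (a + b) + D * (1 + ε * s) * n ^ 2)
    (he : s ^ 3 * g ^ 2 ≤ D * (E + a) + D * s ^ 3 * (n * f) + D * s ^ 2 * (1 + ε * s) * n ^ 2) :
    s ^ 3 * n ^ 2 ≤ 32 * D ^ 4 * E := by
  have hD2 : 1 ≤ D ^ 2 := one_le_pow₀ hD
  have hD4 : 1 ≤ D ^ 4 := one_le_pow₀ hD
  have hs1 : 1 ≤ s := by linarith
  have hn2 := sq_nonneg n
  obtain ⟨N, hN⟩ : ∃ N, N = s ^ 3 * n ^ 2 := ⟨_, rfl⟩
  have hN0 : 0 ≤ N := by rw [hN]; positivity
  -- small terms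
  have k1 : 240 * D ^ 4 * (s ^ 2 * n ^ 2) ≤ N := by
    linarith only [hN, mul_le_mul_of_nonneg_right hs (show 0 ≤ s ^ 2 * n ^ 2 by positivity)]
  have k2 : s * n ^ 2 ≤ s ^ 2 * n ^ 2 := mul_le_mul_of_nonneg_right (by nlinarith) hn2
  have k3 : 80 * D ^ 3 * (ε * N) ≤ N := by linarith only [mul_le_mul_of_nonneg_right hε hN0]
  obtain ⟨x, hx⟩ : ∃ x, x = s ^ 2 * n ^ 2 := ⟨_, rfl⟩
  have hx0 : 0 ≤ x := by rw [hx]; positivity
  rw [← hx] at k1 k2
  have hDD : D ≤ D ^ 2 := by nlinarith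
  have k4 : D * x ≤ D ^ 2 * x := mul_le_mul_of_nonneg_right hDD hx0
  have k5 : D ^ 2 * (s * n ^ 2) ≤ D ^ 2 * x := mul_le_mul_of_nonneg_left k2 (by positivity)
  have hF : s ^ 3 * f ^ 2 ≤ 2 * D ^ 2 * E + 3 * D ^ 2 * x + D * (ε * N) := by
    have m1 := mul_le_mul_of_nonneg_left hd (sq_nonneg s)
    have m2 := mul_le_mul_of_nonneg_left (add_le_add ha hb) (show 0 ≤ D by linarith)
    have m3 : s ^ 2 * (D * (1 + ε * s) * n ^ 2) = D * x + D * (ε * N) := by rw [hx, hN]; ring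
    linarith only [m1, m2, m3, k4, k5]
  have hG : s ^ 3 * g ^ 2 ≤ 2 * D ^ 2 * E + 3 * D ^ 2 * x + D * (ε * N) + N / 8 +
      2 * D ^ 2 * (s ^ 3 * f ^ 2) := by
    have m1 : a ≤ s ^ 2 * a := le_mul_of_one_le_left ha0 (one_le_pow₀ hs1)
    have m2 := mul_le_mul_of_nonneg_left (m1.trans ha) (show 0 ≤ D by linarith)
    have m3 : D * s ^ 2 * (1 + ε * s) * n ^ 2 = D * x + D * (ε * N) := by rw [hx, hN]; ring
    have m4 : D * (n * f) ≤ n ^ 2 / 8 + 2 * D ^ 2 * f ^ 2 := by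
      linarith only [sq_nonneg (n - 4 * D * f)]
    have m5 := mul_le_mul_of_nonneg_left m4 (show 0 ≤ s ^ 3 by positivity)
    have m6 : D * E ≤ D ^ 2 * E := mul_le_mul_of_nonneg_right hDD hE
    have m7 : 0 ≤ D ^ 2 * x := by positivity
    linarith only [he, m2, m3, m5, m6, m7, k4, k5, hN]
  have h2 : N ≤ 2 * (s ^ 3 * f ^ 2) + 2 * (s ^ 3 * g ^ 2) := by
    have m : n ^ 2 ≤ 2 * f ^ 2 + 2 * g ^ 2 := by rw [hn]; linarith only [sq_nonneg (f - g)]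
    have := mul_le_mul_of_nonneg_left m (show 0 ≤ s ^ 3 by positivity)
    linarith only [this, hN]
  obtain ⟨Z, hZ⟩ : ∃ Z, Z = 2 * D ^ 2 * E + 3 * D ^ 2 * x + D * (ε * N) := ⟨_, rfl⟩
  have hZ0 : 0 ≤ Z := by rw [hZ]; positivity
  rw [← hZ] at hF hG
  have m1 := mul_le_mul_of_nonneg_left hF (show 0 ≤ D ^ 2 by positivity)
  have m2 : Z ≤ D ^ 2 * Z := le_mul_of_one_le_left hZ0 hD2
  have m3 : D ^ 2 * Z = 2 * D ^ 4 * E + 3 * (D ^ 4 * x) + D ^ 3 * (ε * N) := by rw [hZ]; ring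
  have m4 : 0 ≤ D ^ 4 * E := by positivity
  rw [← hN]
  linarith only [hF, hG, h2, m1, m2, m3, m4, k1, k3]

theorem cr2_amgm (s : ℝ) {a x : ℝ} (ha : 0 ≤ a) (hx : 0 ≤ x) :
    s * (√a * √x) ≤ (s ^ 2 * a + x) / 2 := by
  nlinarith [sq_nonneg (s * √a - √x), Real.sq_sqrt ha, Real.sq_sqrt hx]

theorem cr2_two {D s ε A B P n a b : ℝ} (hD : 1 ≤ D) (hs : 100 * D ^ 2 ≤ s) (hε : ε ≤ 1 / 16)
    (hA : 0 ≤ A) (hB : 0 ≤ B) (hP : 0 ≤ P) (ha0 : 0 ≤ a) (hb0 : 0 ≤ b)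
    (ha : s ^ 2 * a ≤ D * (A + B + P)) (hn : s ^ 3 * n ^ 2 ≤ D * (A + B + P))
    (hb : b ≤ D * (A + B + P))
    (hm : A + B ≤ ε * P + D * a + D * s ^ 2 * n ^ 2 + D * (√a * (√A + √b)) + (A + B + P) / 8)
    (ht : P ≤ A + D * s * n ^ 2 + D * (√a * √b)) : A + B + P = 0 := by
  obtain ⟨E, hE⟩ : ∃ E, E = A + B + P := ⟨_, rfl⟩
  rw [← hE] at ha hn hb hm ⊢
  have hE0 : 0 ≤ E := by linarith
  have hD2 : 1 ≤ D ^ 2 := one_le_pow₀ hD
  have hs1 : 1 ≤ s := by linarith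
  have hDE : E ≤ D * E := le_mul_of_one_le_left hE0 hD
  have k1 : s * a ≤ D * E := le_trans (mul_le_mul_of_nonneg_right (by nlinarith) ha0) ha
  have k2 : s * (√a * √A) ≤ D * E := by linarith [cr2_amgm s ha0 hA]
  have k3 : s * (√a * √b) ≤ D * E := by linarith [cr2_amgm s ha0 hb0]
  have k4 : s * (s * n ^ 2) ≤ D * E := by
    refine le_trans ?_ hn
    have : s * s ≤ s ^ 3 := by nlinarith
    nlinarith [sq_nonneg n]
  have hD0 : 0 ≤ D := by linarith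
  have m1 := mul_le_mul_of_nonneg_left k1 hD0
  have m2 := mul_le_mul_of_nonneg_left k2 hD0
  have m3 := mul_le_mul_of_nonneg_left k3 hD0
  have m4 := mul_le_mul_of_nonneg_left k4 hD0
  have m5 := mul_le_mul_of_nonneg_left hn hD0
  have m6 := mul_le_mul_of_nonneg_left hm (show 0 ≤ s by linarith)
  have m7 := mul_le_mul_of_nonneg_left ht (show 0 ≤ s by linarith)
  have m8 : s * (ε * P) ≤ s * (E / 16) := mul_le_mul_of_nonneg_left (by nlinarith) (by linarith)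
  have m9 := mul_le_mul_of_nonneg_right hs hE0
  have m10 : s * E = s * A + s * B + s * P := by rw [hE]; ring
  have m11 : 0 ≤ s * B := by positivity
  have : s * E ≤ 0 := by nlinarith
  nlinarith

/-- The term with `M'`. -/
theorem cr2_M {X0 ε K a W : ℝ} {ω : ℝ → ℝ} (hB : c.Bd X0 ε K a) (hK : 0 ≤ K) (hε : 0 ≤ ε)
    (h : c.Dv L u u1 v) (hω : Bz ω) (hW : ∀ X, 0 < X → ω X ∈ Icc 0 W) (hY : 0 ≤ Y) :
    ∫ X in (0 : ℝ)..Y, c.dm X * (ω X * X * c.M' X * ‖u X‖ ^ 2) ≤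
      W * ε * c.Pot u Y + W * K * ε * c.Ms u 0 Y := by
  rw [Co.Pot, Co.Ms, ← intervalIntegral.integral_const_mul, ← intervalIntegral.integral_const_mul,
    ← intervalIntegral.integral_add ((h.int_pot le_rfl hY).const_mul _)
      ((h.int_ms le_rfl hY).const_mul _)]
  refine c_mono hY ((c.bz_dm.mul (((hω.mul Bz.id).mul c.bz_M').mul (h.bz.norm.pow 2))).intble
    le_rfl hY) (((h.int_pot le_rfl hY).const_mul _).add ((h.int_ms le_rfl hY).const_mul _))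
    fun X hX => ?_
  have hM := c.M_nonneg X hX.1
  have k : X * c.M' X ≤ ε * c.M X + K * ε := by
    rcases le_total X X0 with h1 | h1
    · linarith [hB.mono X ⟨hX.1, h1⟩, mul_nonneg hK hε]
    · have h2 := (hB.ext X h1).2
      have h3 : |X * c.M' X| ≤ X * |X * c.M' X| :=
        le_mul_of_one_le_left (abs_nonneg _) (by linarith [hB.X0_mem.1])
      linarith [le_abs_self (X * c.M' X), mul_nonneg hε hM]
  have k1 : ω X * (X * c.M' X) ≤ W * (ε * c.M X + K * ε) :=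
    (mul_le_mul_of_nonneg_left k (hW X hX.1).1).trans
      (mul_le_mul_of_nonneg_right (hW X hX.1).2 (by positivity))
  have k2 : 0 ≤ c.dm X * ‖u X‖ ^ 2 := by
    have := c.R_pos X hX.1
    have := hX.1
    unfold Co.dm; positivity
  nlinarith [mul_le_mul_of_nonneg_left k1 k2]

theorem cr2_l1 {X0 ε K a δ : ℝ} (hB : c.Bd X0 ε K a) (hδ : δ ∈ Ioc (0 : ℝ) 1) :
    ∫ X in (0 : ℝ)..X0 + δ, |c.al X + X * c.al' X| ≤ K * ε + K * δ := by
  have h0 : 0 ≤ X0 := by linarith [hB.X0_mem.1]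
  have hb := (c.bz_al.add c.bz_Xal').abs
  rw [← intervalIntegral.integral_add_adjacent_intervals (hb.intble le_rfl h0)
    (hb.intble h0 (by linarith [hδ.1]))]
  refine add_le_add hB.l1 ((c_mono (p := fun _ => K) (by linarith [hδ.1])
    (hb.intble h0 (by linarith [hδ.1])) intervalIntegrable_const fun X hX =>
      (hB.in_al X ⟨by linarith [hX.1, hB.X0_mem.1], by linarith [hX.2, hδ.2]⟩).2).trans ?_)
  simp [mul_comm]

/-- The term with the derivative of the weight. -/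
theorem cr2_th {X0 ε K a δ S : ℝ} (hB : c.Bd X0 ε K a) (hδ : δ ∈ Ioc (0 : ℝ) 1) (hK : 0 ≤ K)
    (h : c.Dv L u u1 v) (hL : 0 ≤ L) (hS0 : 0 ≤ S)
    (hS : ∀ X ∈ Ioc 0 (X0 + δ), X ^ 5 * ‖u X‖ ^ 2 ≤ S) :
    ∫ X in (0 : ℝ)..X0 + δ, c.dm X * (|c.al X + X * c.al' X| * X * (‖u1 X‖ * ‖u X‖)) ≤
      √(c.Gr L u u1 (X0 + δ)) * √(4 * K ^ 2 * S * (K * ε + K * δ)) := by
  have hY : 0 ≤ X0 + δ := by linarith [hB.X0_mem.1, hδ.1]
  have hb := (c.bz_al.add c.bz_Xal').abs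
  refine (le_abs_self _).trans ((c_cs (p := c.gr L u u1)
    (q := fun X => 4 * K ^ 2 * S * |c.al X + X * c.al' X|) hY
    (((c.bz_dm.mul (hb.mul (h.bz_Xn1.mul h.bz.norm))).congr fun X _ => by ring).intble le_rfl hY)
    (h.int_gr le_rfl hY) ((hb.intble le_rfl hY).const_mul _)
    (fun X hX => c_gr_nonneg c hL hX.1) (fun X _ => by positivity) fun X hX => ?_).trans ?_)
  · have hX' : X ∈ Ioc 0 (X0 + 1) := ⟨hX.1, by linarith [hX.2, hδ.2]⟩
    have h1 := (hB.in_R X hX').2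
    have h2 := (hB.in_al X hX').2
    have h3 : X ≤ 4 := by linarith [hX'.2, hB.X0_mem.2]
    have h4 := c.R_pos X hX.1
    have h5 := hX.1
    have h6 : c.R X * (X ^ 6 * ‖u1 X‖ ^ 2) ≤ c.gr L u u1 X := by
      unfold Co.gr
      exact mul_le_mul_of_nonneg_left (le_add_of_nonneg_right (by positivity)) h4.le
    calc _ = c.R X * (X ^ 6 * ‖u1 X‖ ^ 2) * (X * (c.R X * |c.al X + X * c.al' X|) *
          (X ^ 5 * ‖u X‖ ^ 2) * |c.al X + X * c.al' X|) := by unfold Co.dm; ring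
      _ ≤ c.gr L u u1 X * (4 * (K * K) * S * |c.al X + X * c.al' X|) := by
          have := hS X hX
          have := c_gr_nonneg (u := u) (u1 := u1) c hL hX.1
          gcongr
      _ = _ := by ring
  · rw [intervalIntegral.integral_const_mul]
    exact mul_le_mul_of_nonneg_left (Real.sqrt_le_sqrt
      (mul_le_mul_of_nonneg_left (cr2_l1 hB hδ) (by positivity))) (Real.sqrt_nonneg _)

theorem cr2_half (x y : ℂ) : ‖x‖ ≤ ‖x + I * y‖ + ‖x - I * y‖ ∧ ‖y‖ ≤ ‖x + I * y‖ + ‖x - I * y‖ := by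
  have h1 := norm_add_le (x + I * y) (x - I * y)
  have h2 := norm_sub_le (x + I * y) (x - I * y)
  rw [show x + I * y + (x - I * y) = 2 * x by ring, norm_mul, Complex.norm_two] at h1
  rw [show x + I * y - (x - I * y) = 2 * (I * y) by ring, norm_mul, norm_mul, Complex.norm_two,
    norm_I] at h2
  constructor <;> linarith [norm_nonneg x, norm_nonneg y]

theorem cr2_bd (lam x y x1 y1 : ℂ) : (lam * (y * conj y1 + x * conj x1)).re =
    lam.re * (y * conj y1 + x * conj x1).re + lam.im *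
      (((x1 + I * y1) * conj (x + I * y)).im + ((x1 - I * y1) * conj (x - I * y)).im) / 2 := by
  simp only [mul_re, mul_im, add_re, add_im, sub_re, sub_im, conj_re, conj_im, I_re, I_im]
  ring

end Vale.Agent.P139
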