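import Vale.Agent.P139.C.En
import Vale.Agent.P139.C.Pair
import Vale.Agent.P139.C.Mor
import Vale.Agent.P139.C.R2Aux

/-! P139 task C/R2: the energy, Morawetz and pairing steps. -/

noncomputable section

open MeasureTheory Filter Topology Set Complex
open scoped ComplexConjugate

namespace Vale.Agent.P139

variable {c : Co} {L Y : ℝ} {lam : ℂ} {u u1 v η η1 ψ ψ1 sη sψ f g ef eg : ℝ → ℂ} {m l : ℕ}
  {Q : Prof m}

theorem cr2_J {X0 ε K a : ℝ} (hB : c.Bd X0 ε K a) (hK : 0 < K) (hY : Y ∈ Icc X0 (X0 + 1)) :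
    1 ≤ K * c.J Y ∧ c.J Y ≤ 4096 * K := by
  have h1 : 1 ≤ Y := by linarith [hB.X0_mem.1, hY.1]
  have h4 : Y ≤ 4 := by linarith [hB.X0_mem.2, hY.2]
  obtain ⟨r1, r2⟩ := hB.in_R Y ⟨by linarith, hY.2⟩
  have p1 : 1 ≤ Y ^ 6 := one_le_pow₀ h1
  have p2 : Y ^ 6 ≤ 4 ^ 6 := pow_le_pow_left₀ (by linarith) h4 6
  have r0 := c.R_pos Y (by linarith)
  rw [div_le_iff₀ hK] at r1
  unfold Co.J
  constructor
  · nlinarith [mul_le_mul_of_nonneg_left p1 (mul_pos r0 hK).le]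
  · nlinarith [mul_le_mul r2 p2 (by positivity) hK.le]

theorem cr2_en {X0 ε K a μ k c1 s n f g : ℝ} (hB : c.Bd X0 ε K a) (hK : 0 < K)
    (hε : ε ∈ Ioc (0 : ℝ) 1) (h : c.Sys L lam η η1 ψ ψ1 0 0) (hY : Y ∈ Icc X0 (X0 + 1))
    (hμ : lam.re ∈ Icc 0 μ) (hs : lam.im = s ^ 2) (hs1 : 1 ≤ s) (hk : 0 ≤ k) (hf : 0 ≤ f)
    (a1 : ‖η Y‖ ≤ n) (a2 : ‖ψ Y‖ ≤ n) (a3 : ‖η1 Y‖ ≤ k * s * n) (a4 : ‖ψ1 Y‖ ≤ k * s * n)
    (hF : ((η1 Y + I * ψ1 Y) * conj (η Y + I * ψ Y)).im ≤ k * s * n * f)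
    (hG : ((η1 Y - I * ψ1 Y) * conj (η Y - I * ψ Y)).im ≤ -c1 * s * g ^ 2 + k * (1 + ε * s) * n ^ 2) :
    c1 * (s ^ 3 * g ^ 2) ≤ 2 * (K * (3 + 2 * K) + K ^ 3 + 2 * μ * k + k + 4 * K * k ^ 2) *
      (c.En L η η1 ψ ψ1 Y + c.Ms η 0 Y + s ^ 3 * (n * f) + s ^ 2 * (1 + ε * s) * n ^ 2) := by
  have hY0 : 0 < Y := by linarith [hB.X0_mem.1, hY.1]
  have hY4 : Y ≤ 4 := by linarith [hB.X0_mem.2, hY.2]
  have e := c_energy h hY0 fun X hX => (hB.all_w X hX.1).2.1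
  have m := cr2_M hB hK.le hε.1.le h.dη c.bz_w
    (fun X hX => ⟨(c.w_pos X hX).le, (hB.all_w X hX).1⟩) hY0.le
  have hA := c_Gr_nonneg (u := ψ) (u1 := ψ1) c h.L_nonneg hY0.le
  have hB' := c_Gr_nonneg (u := η) (u1 := η1) c h.L_nonneg hY0.le
  have hP := c_Pot_nonneg (u := η) c hY0.le
  have hM := c_Ms_nonneg (u := η) c le_rfl hY0.le
  have hE : c.Pot η Y ≤ c.En L η η1 ψ ψ1 Y := by unfold Co.En; linarith
  have hn : 0 ≤ n := (norm_nonneg _).trans a1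
  obtain ⟨j1, -⟩ := cr2_J hB hK hY
  rw [cr2_bd, hs] at e
  generalize c.En L η η1 ψ ψ1 Y = E at *
  generalize c.Ms η 0 Y = A at *
  have hE0 : 0 ≤ E := hP.trans hE
  have m1 : K * ε * c.Pot η Y ≤ K * 1 * E := by gcongr; exact hε.2
  have m2 : K * K * ε * A ≤ K * K * 1 * A := by gcongr; exact hε.2
  have m3 : 0 ≤ lam.re * E := mul_nonneg hμ.1 hE0
  have m4 : (ψ Y * conj (ψ1 Y) + η Y * conj (η1 Y)).re ≤ 2 * (n * (k * s * n)) := by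
    refine (re_le_norm _).trans ((norm_add_le _ _).trans ?_)
    rw [norm_mul, norm_mul, Complex.norm_conj, Complex.norm_conj]
    linarith only [mul_le_mul a2 a4 (norm_nonneg _) hn, mul_le_mul a1 a3 (norm_nonneg _) hn]
  have m5 : lam.re * (ψ Y * conj (ψ1 Y) + η Y * conj (η1 Y)).re ≤ μ * (2 * (n * (k * s * n))) :=
    (mul_le_mul_of_nonneg_left m4 hμ.1).trans (mul_le_mul_of_nonneg_right hμ.2 (by positivity))
  have m6 := mul_le_mul_of_nonneg_left (add_le_add hF hG) (sq_nonneg s)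
  have m7 : c.w Y * Y * (‖ψ1 Y‖ ^ 2 + ‖η1 Y‖ ^ 2) ≤ K * 4 * ((k * s * n) ^ 2 + (k * s * n) ^ 2) := by
    gcongr
    exact (hB.all_w Y hY0).1
  obtain ⟨b, hb⟩ : ∃ b, b = lam.re * (ψ Y * conj (ψ1 Y) + η Y * conj (η1 Y)).re +
    s ^ 2 * (((η1 Y + I * ψ1 Y) * conj (η Y + I * ψ Y)).im +
      ((η1 Y - I * ψ1 Y) * conj (η Y - I * ψ Y)).im) / 2 +
    c.w Y * Y * (‖ψ1 Y‖ ^ 2 + ‖η1 Y‖ ^ 2) / 2 := ⟨_, rfl⟩
  rw [← hb] at e
  have m8 : -b ≤ K * ((3 + 2 * K) * E + K ^ 2 * A) := by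
    have k1 : c.J Y * -b ≤ (3 + 2 * K) * E + K ^ 2 * A := by
      linarith only [e, m, m1, m2, m3, mul_nonneg hK.le hE0, mul_nonneg (sq_nonneg K) hM]
    rcases le_total 0 b with h0 | h0
    · exact le_trans (show -b ≤ 0 by linarith only [h0]) (by positivity)
    · linarith only [mul_le_mul_of_nonneg_left k1 hK.le,
        mul_le_mul_of_nonneg_right j1 (show 0 ≤ -b by linarith)]
  obtain ⟨W, hW⟩ : ∃ W, W = s ^ 2 * (1 + ε * s) * n ^ 2 := ⟨_, rfl⟩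
  have hε0 := hε.1
  have w1 : s ^ 2 * n ^ 2 ≤ W := by
    have : 0 ≤ ε * s ^ 3 * n ^ 2 := by positivity
    linarith only [this, hW]
  have w2 : s * n ^ 2 ≤ W := le_trans (mul_le_mul_of_nonneg_right (by nlinarith) (sq_nonneg n)) w1
  have hμ0 : 0 ≤ μ := hμ.1.trans hμ.2
  have w3 := mul_le_mul_of_nonneg_left w2 (show 0 ≤ μ * k by positivity)
  have w4 := mul_le_mul_of_nonneg_left w1 (show 0 ≤ K * k ^ 2 by positivity)
  have w5 : k * W = s ^ 2 * (k * (1 + ε * s) * n ^ 2) := by rw [hW]; ring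
  rw [← hW]
  obtain ⟨T, hT⟩ : ∃ T, T = s ^ 3 * (n * f) := ⟨_, rfl⟩
  have hT0 : 0 ≤ T := by rw [hT]; positivity
  have hW0 : 0 ≤ W := le_trans (by positivity) w1
  have w6 : k * T = s ^ 2 * (k * s * n * f) := by rw [hT]; ring
  rw [← hT]
  have z1 : 0 ≤ K * (3 + 2 * K) * (A + T + W) := by positivity
  have z2 : 0 ≤ K ^ 3 * (E + T + W) := by positivity
  have z3 : 0 ≤ μ * k * (E + A + T) := by positivity
  have z4 : 0 ≤ k * (2 * E + 2 * A + T + W) := by positivity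
  have z5 : 0 ≤ K * k ^ 2 * (E + A + T) := by positivity
  linarith only [m5, m6, m7, hb, m8, w3, w4, w5, w6, z1, z2, z3, z4, z5]

/-- The Morawetz and the antisymmetric pairing inequalities in the form needed. -/
theorem cr2_mor (K : ℝ) (hK : 0 < K) : ∃ δ ∈ Ioc (0 : ℝ) 1, ∀ μ k : ℝ, 0 ≤ μ → 0 ≤ k → ∃ D, 1 ≤ D ∧
    ∀ (c : Co) (L X0 ε a s n : ℝ) (lam : ℂ) (η η1 ψ ψ1 : ℝ → ℂ), c.Bd X0 ε K a → ε ∈ Ioc 0 δ →
      c.Sys L lam η η1 ψ ψ1 0 0 → lam.re ∈ Icc 0 μ → lam.im = s ^ 2 → 1 ≤ s → ∀ Y, Y = X0 + δ →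
      ‖η Y‖ ≤ n → ‖ψ Y‖ ≤ n → ‖η1 Y‖ ≤ k * s * n → ‖ψ1 Y‖ ≤ k * s * n →
      c.Ms η 0 Y / (δ / 2) ≤ c.En L η η1 ψ ψ1 Y →
      c.Ms ψ (X0 + δ / 2) Y / (δ / 2) ≤ c.En L η η1 ψ ψ1 Y →
      c.Ms ψ 0 Y ≤ D * c.En L η η1 ψ ψ1 Y ∧
      c.Gr L ψ ψ1 Y + c.Gr L η η1 Y ≤ ε * c.Pot η Y + D * c.Ms η 0 Y + D * s ^ 2 * n ^ 2 +
        D * (√(c.Ms η 0 Y) * (√(c.Gr L ψ ψ1 Y) + √(c.Ms ψ 0 Y))) + c.En L η η1 ψ ψ1 Y / 8 ∧
      c.Pot η Y ≤ c.Gr L ψ ψ1 Y + D * s * n ^ 2 + D * (√(c.Ms η 0 Y) * √(c.Ms ψ 0 Y)) := by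
  obtain ⟨Kp, hKp, hp⟩ := c_poin K hK
  obtain ⟨Km, hKm, hm⟩ := c_mor K
  refine ⟨1 / (16384 * K ^ 3 * Kp + 1), ⟨by positivity, (div_le_one (by positivity)).2
    (le_add_of_nonneg_left (by positivity))⟩, fun μ k hμ hk => ?_⟩
  obtain ⟨δ, hδ⟩ : ∃ δ, δ = 1 / (16384 * K ^ 3 * Kp + 1) := ⟨_, rfl⟩
  have hδ0 : 0 < δ := by rw [hδ]; positivity
  have hδ1 : δ * (16384 * K ^ 3 * Kp + 1) = 1 := by rw [hδ]; field_simp
  have hδ2 : δ ≤ 1 := by nlinarith [show 0 ≤ δ * (K ^ 3 * Kp) by positivity]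
  rw [← hδ]
  have q1 : 0 ≤ 4096 * K * Km * (2 * k ^ 2 + 2 * μ + 4) := by positivity
  have q2 : 0 ≤ Km * (μ + 1) := by positivity
  have q3 : 0 ≤ 4096 * K * (2 * k + K) := by positivity
  obtain ⟨D, hD⟩ : ∃ D, D = 2 * Kp + K + 4096 * K * Km * (2 * k ^ 2 + 2 * μ + 4) + Km * (μ + 1) +
    4096 * K * (2 * k + K) + (2 * μ + 6) := ⟨_, rfl⟩
  refine ⟨D, by linarith, fun c L X0 ε a s n lam η η1 ψ ψ1 hB hε h hl hs hs1 Y hY a1 a2 a3 a4 b1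
    b2 => ?_⟩
  have hX := hB.X0_mem
  have hY0 : 0 < Y := by linarith only [hY, hX.1, hδ0]
  have hY1 : Y ∈ Icc (1 : ℝ) 4 := ⟨by linarith only [hY, hX.1, hδ0], by linarith only [hY, hX.2, hδ2]⟩
  have hsub : ∀ X ∈ Ioc 0 Y, X ∈ Ioc 0 (X0 + 1) := fun X hX =>
    ⟨hX.1, by linarith only [hX.2, hY, hδ2]⟩
  have hY2 : X0 + δ / 2 ∈ Ico 1 Y := ⟨by linarith only [hX.1, hδ0], by linarith only [hY, hδ0]⟩
  have hY3 : Y - (X0 + δ / 2) = δ / 2 := by rw [hY]; ring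
  have hL := h.L_nonneg
  obtain ⟨p1, p2⟩ := (hp c L Y _ _ _ h.dψ hL hY1 fun X hX => hB.in_R X (hsub X hX)).2 _ hY2
  obtain ⟨-, p3⟩ := (hp c L Y _ _ _ h.dη hL hY1 fun X hX => hB.in_R X (hsub X hX)).2 _ hY2
  rw [hY3] at p1 p2 p3
  have hA := c_Gr_nonneg (u := ψ) (u1 := ψ1) c hL hY0.le
  have hB' := c_Gr_nonneg (u := η) (u1 := η1) c hL hY0.le
  have hP := c_Pot_nonneg (u := η) c hY0.le
  have hM := c_Ms_nonneg (u := η) c le_rfl hY0.le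
  have hE : c.En L η η1 ψ ψ1 Y = c.Gr L ψ ψ1 Y + c.Gr L η η1 Y + c.Pot η Y := rfl
  have b3 : c.Ms η (X0 + δ / 2) Y / (δ / 2) ≤ c.En L η η1 ψ ψ1 Y := le_trans
    (div_le_div_of_nonneg_right (h.dη.Ms_mono le_rfl (by linarith only [hY2.1]) hY2.2.le le_rfl)
      (by positivity)) b1
  have j := (cr2_J hB hK (Y := Y) ⟨by linarith only [hY, hδ0], by linarith only [hY, hδ2]⟩).2
  have hn : 0 ≤ n := (norm_nonneg _).trans a1
  generalize c.En L η η1 ψ ψ1 Y = E at *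
  have hE0 : 0 ≤ E := by linarith only [hE, hA, hB', hP]
  have s1 : Kp * (c.Gr L ψ ψ1 Y + c.Ms ψ (X0 + δ / 2) Y / (δ / 2)) ≤ Kp * (2 * E) :=
    mul_le_mul_of_nonneg_left (by linarith only [hE, b2, hB', hP]) hKp
  have s2 : Kp * (c.Gr L η η1 Y + c.Ms η (X0 + δ / 2) Y / (δ / 2)) ≤ Kp * (2 * E) :=
    mul_le_mul_of_nonneg_left (by linarith only [hE, b3, hA, hP]) hKp
  have th : ∀ {u u1 v : ℝ → ℂ}, c.Dv L u u1 v → c.Gr L u u1 Y ≤ E →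
      (∀ X ∈ Ioc 0 Y, X ^ 5 * ‖u X‖ ^ 2 ≤ Kp * (2 * E)) →
      ∫ X in (0 : ℝ)..Y, c.dm X * (|c.al X + X * c.al' X| * X * (‖u1 X‖ * ‖u X‖)) ≤ E / 32 := by
    intro u u1 v hu h1 h2
    subst hY
    refine (cr2_th hB ⟨hδ0, hδ2⟩ hK.le hu hL (by positivity) h2).trans ?_
    rw [← Real.sqrt_mul (c_Gr_nonneg c hL hY0.le)]
    refine Real.sqrt_le_iff.2 ⟨by positivity, ?_⟩
    have := hε.1
    calc _ ≤ E * (4 * K ^ 2 * (Kp * (2 * E)) * (K * δ + K * δ)) := by gcongr; exacts [hε.2]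
      _ ≤ _ := by
        have := mul_le_mul_of_nonneg_left hδ1.le (sq_nonneg E)
        linarith only [this, mul_nonneg hδ0.le (sq_nonneg E)]
  have t1 := th h.dψ (by linarith only [hE, hB', hP]) fun X hX => (p2 X hX).trans s1
  have t2 := th h.dη (by linarith only [hE, hA, hP]) fun X hX => (p3 X hX).trans s2
  have ib : ∀ {u u1 v : ℝ → ℂ}, c.Dv L u u1 v → IntervalIntegrable (fun X => c.dm X *
      (|c.al X + X * c.al' X| * X * (‖u1 X‖ * ‖u X‖))) volume 0 Y := fun hu =>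
    ((c.bz_dm.mul ((c.bz_al.add c.bz_Xal').abs.mul (hu.bz_Xn1.mul hu.bz.norm))).congr
      fun X _ => by ring).intble le_rfl hY0.le
  refine ⟨(p1.trans s1).trans ?_, ?_, ?_⟩
  · rw [← mul_assoc]
    exact mul_le_mul_of_nonneg_right (by linarith only [hD, hK, q1, q2, q3, hμ]) hE0
  · have e := hm c L Y lam η η1 ψ ψ1 h hY1 fun X hX => ⟨(hB.all_w X hX.1).1,
      (hB.in_al X (hsub X hX)).1, (hB.in_al X (hsub X hX)).2, (hB.all_w X hX.1).2.1⟩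
    simp only [mul_add _ (‖ψ1 _‖ * ‖ψ _‖), mul_add _ (_ * (‖ψ1 _‖ * ‖ψ _‖))] at e
    rw [intervalIntegral.integral_add (ib h.dψ) (ib h.dη), abs_of_nonneg hl.1] at e
    have m := cr2_M hB hK.le hε.1.le h.dη (Bz.const 1) (W := 1) (fun X _ => by simp) hY0.le
    simp only [one_mul] at m
    have m1 : K * ε * c.Ms η 0 Y ≤ D * c.Ms η 0 Y := mul_le_mul_of_nonneg_right
      ((mul_le_of_le_one_right hK.le (hε.2.trans hδ2)).trans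
        (by linarith only [hD, hKp, q1, q2, q3, hμ])) hM
    have m2 : ‖lam‖ + 1 ≤ (μ + 2) * s ^ 2 := by
      have := Complex.norm_le_abs_re_add_abs_im lam
      rw [abs_of_nonneg hl.1, hs, abs_of_nonneg (sq_nonneg s)] at this
      have k1 : 1 ≤ s ^ 2 := one_le_pow₀ hs1
      linarith only [this, k1, hl.2, mul_le_mul_of_nonneg_left k1 hμ]
    have m3 : Km * c.J Y * (‖ψ1 Y‖ ^ 2 + ‖η1 Y‖ ^ 2 + (‖lam‖ + 1) * (‖ψ Y‖ ^ 2 + ‖η Y‖ ^ 2)) ≤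
        D * s ^ 2 * n ^ 2 :=
      calc _ ≤ Km * (4096 * K) * ((k * s * n) ^ 2 + (k * s * n) ^ 2 +
            (μ + 2) * s ^ 2 * (n ^ 2 + n ^ 2)) := by gcongr
        _ = 4096 * K * Km * (2 * k ^ 2 + 2 * μ + 4) * s ^ 2 * n ^ 2 := by ring
        _ ≤ _ := by gcongr; linarith only [hD, hKp, hK, q2, q3, hμ]
    have m4 : Km * (lam.re + 1) * (√(c.Ms η 0 Y) * (√(c.Gr L ψ ψ1 Y) + √(c.Ms ψ 0 Y))) ≤
        D * (√(c.Ms η 0 Y) * (√(c.Gr L ψ ψ1 Y) + √(c.Ms ψ 0 Y))) := mul_le_mul_of_nonneg_right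
      ((mul_le_mul_of_nonneg_left (by linarith only [hl.2]) hKm).trans
        (show Km * (μ + 1) ≤ D by linarith only [hD, hKp, hK, q1, q3, hμ])) (by positivity)
    linarith only [e, m, m1, m3, m4, t1, t2]
  · have e := c_anti h hY0 (hB.all_w Y hY0).1
    rw [abs_of_nonneg hl.1] at e
    have m3 : c.J Y * (‖ψ1 Y‖ * ‖ψ Y‖ + ‖η1 Y‖ * ‖η Y‖ + K * ‖η Y‖ * ‖ψ Y‖) ≤ D * s * n ^ 2 :=
      calc _ ≤ 4096 * K * (k * s * n * n + k * s * n * n + K * s * n * n) := by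
            gcongr
            exact le_mul_of_one_le_right hK.le hs1
        _ = 4096 * K * (2 * k + K) * s * n ^ 2 := by ring
        _ ≤ _ := by gcongr; linarith only [hD, hKp, hK, q1, q2, hμ]
    have m4 : (2 * lam.re + 6) * (√(c.Ms η 0 Y) * √(c.Ms ψ 0 Y)) ≤
        D * (√(c.Ms η 0 Y) * √(c.Ms ψ 0 Y)) := mul_le_mul_of_nonneg_right
      (by linarith only [hD, hKp, hK, q1, q2, q3, hl.2]) (by positivity)
    linarith only [e, m3, m4]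

end Vale.Agent.P139
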