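import Vale.Agent.P139.C.R2a
import Vale.Agent.P139.C.En
import Vale.Agent.P139.C.Pair
import Vale.Agent.P139.C.Mor
import Vale.Agent.P139.C.R2B

/-! P139 task C/R2 (PROOF.md section C). Regime II, steps (c), (e), (f). `X1 = X0 + δ`, `n² = ‖F‖² + ‖G‖² = 2(‖η‖²+‖ψ‖²)` at `X1`, `E = En X1`, `ω = im λ`.
`re (λ (ψ conj ψ1 + η conj η1)) = re (λ (F conj F1 + G conj G1)) / 2`. From (a),(b),(d): `ω^(3/2)‖F‖² ≤ C E + C(ω + εω^(3/2)) n²`;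
`c_energy` (the `M'` term: `mono`, `ext`): `ω^(3/2)‖G‖² ≤ C E + C ω^(3/2)‖F‖² + ...`; so `ω^(3/2) n² ≤ C E`, `Ms η ≤ C E / ω`,
`Ms ψ 0 X1 ≤ K' (A + C E / ω)` (`c_poin`). In `c_mor` the last integral is at most `C(K) √(ε + δ) E` plus `C(δ) E/√ω` (`c_cs`, `c_poin`, `l1`,
`in_al`). With `c_anti`: `E ≤ (C(K, μ0)(√δ + √ε) + C/√ω) E`. Choose `δ` first. Then `zero_of_Gr`.
-/

noncomputable section

open MeasureTheory Filter Topology Set Complex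
open scoped ComplexConjugate

namespace Vale.Agent.P139

variable {c : Co} {L Y : ℝ} {lam : ℂ} {u u1 v η η1 ψ ψ1 sη sψ f g ef eg : ℝ → ℂ} {m l : ℕ}
  {Q : Prof m}

theorem c_r2 (K μ0 : ℝ) (hK : 0 < K) : ∃ δ ∈ Ioc (0 : ℝ) 1, ∀ K1 c1 : ℝ, 0 < c1 → ∃ Λ ε0, 0 < ε0 ∧
    ∀ (c : Co) (L X0 ε a : ℝ) (lam : ℂ) (η η1 ψ ψ1 : ℝ → ℂ) (F F1 G G1 : ℂ), c.Bd X0 ε K a →
      ε ∈ Ioc 0 ε0 → c.Sys L lam η η1 ψ ψ1 0 0 → lam.re ∈ Icc 0 μ0 → Λ ≤ lam.im →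
      F = η (X0 + δ) + I * ψ (X0 + δ) → F1 = η1 (X0 + δ) + I * ψ1 (X0 + δ) →
      G = η (X0 + δ) - I * ψ (X0 + δ) → G1 = η1 (X0 + δ) - I * ψ1 (X0 + δ) →
      ‖F1‖ + ‖G1‖ ≤ K1 * √lam.im * (‖F‖ + ‖G‖) →
      (F1 * conj F).re ≤ -c1 * √lam.im * ‖F‖ ^ 2 + K1 * (1 + ε * √lam.im) * (‖F‖ + ‖G‖) ^ 2 →
      (G1 * conj G).im ≤ -c1 * √lam.im * ‖G‖ ^ 2 + K1 * (1 + ε * √lam.im) * (‖F‖ + ‖G‖) ^ 2 →
      F = 0 ∧ G = 0 ∧ F1 = 0 ∧ G1 = 0 := by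
  obtain ⟨δ, hδ, hm⟩ := cr2_mor K hK
  refine ⟨δ, hδ, fun K1 c1 hc1 => ?_⟩
  obtain ⟨D1, hD1, hm⟩ := hm |μ0| |K1| (abs_nonneg _) (abs_nonneg _)
  obtain ⟨Ka, hKa, ha⟩ := c_r2a K hK
  obtain ⟨Kb, hKb, hb⟩ := c_r2b K hK hδ
  obtain ⟨Kd, hKd, hd⟩ := c_r2d K hK hδ
  obtain ⟨k, hk⟩ : ∃ k, k = |K1| := ⟨_, rfl⟩
  obtain ⟨μ, hμ⟩ : ∃ μ, μ = |μ0| := ⟨_, rfl⟩
  have hk0 : 0 ≤ k := hk ▸ abs_nonneg _
  have hk1 : K1 ≤ k := hk ▸ le_abs_self _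
  have hμ0 : 0 ≤ μ := hμ ▸ abs_nonneg _
  have hμ1 : μ0 ≤ μ := hμ ▸ le_abs_self _
  rw [← hk, ← hμ] at hm
  obtain ⟨P, hP⟩ : ∃ P, P = 2 * (K * (3 + 2 * K) + K ^ 3 + 2 * μ * k + k + 4 * K * k ^ 2) :=
    ⟨_, rfl⟩
  have q0 : 0 ≤ P := by rw [hP]; positivity
  have q1 : 0 ≤ Ka * k := by positivity
  have q2 : 0 ≤ Kb * k := by positivity
  have q3 : 0 ≤ (Kd + k + P) / c1 := by positivity
  obtain ⟨D, hD⟩ : ∃ D, D = 1 + Ka + Ka * k + Kb + Kb * k + (Kd + k + P) / c1 := ⟨_, rfl⟩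
  have d1 : 1 ≤ D := by linarith only [hD, hKa, hKb, q1, q2, q3]
  have d2 : Kd + k + P ≤ c1 * D := by
    rw [← div_le_iff₀' hc1]; linarith only [hD, hKa, hKb, q1, q2]
  obtain ⟨D2, hD2⟩ : ∃ D2, D2 = D1 + 33 * D ^ 5 := ⟨_, rfl⟩
  have q4 : 0 ≤ D ^ 5 := by positivity
  have q5 : 0 ≤ D ^ 4 := by positivity
  have q6 : 0 ≤ 66 * D ^ 5 / δ := by have := hδ.1; positivity
  have q7 : 0 ≤ D2 ^ 2 := by positivity
  obtain ⟨s0, hs0⟩ : ∃ s0, s0 = 240 * D ^ 4 + 100 * D2 ^ 2 + 66 * D ^ 5 / δ + Ka + Kb + 1 :=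
    ⟨_, rfl⟩
  refine ⟨s0 ^ 2, min (1 / (80 * D ^ 3)) (min (1 / 16) δ), lt_min (by positivity)
    (lt_min (by norm_num) hδ.1), fun c L X0 ε a lam η η1 ψ ψ1 F F1 G G1 hB hε h hl hΛ eF eF1 eG eG1
      b1 b2 b3 => ?_⟩
  obtain ⟨hε0, hε⟩ := hε
  simp only [le_min_iff] at hε
  obtain ⟨e1, e2, e3⟩ := hε
  have hε1 : ε ∈ Ioc (0 : ℝ) 1 := ⟨hε0, e3.trans hδ.2⟩
  obtain ⟨s, hs⟩ : ∃ s, s = √lam.im := ⟨_, rfl⟩
  have s1 : s0 ≤ s := hs ▸ Real.le_sqrt_of_sq_le hΛ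
  have s2 : lam.im = s ^ 2 := by rw [hs, Real.sq_sqrt ((sq_nonneg _).trans hΛ)]
  have s3 : 1 ≤ s := by linarith only [s1, hs0, q5, q6, q7, hKa, hKb]
  have s4 : s ≤ s ^ 2 := le_self_pow₀ s3 (by norm_num)
  rw [← hs] at b1 b2 b3
  obtain ⟨n, hn⟩ : ∃ n, n = ‖F‖ + ‖G‖ := ⟨_, rfl⟩
  have hn0 : 0 ≤ n := by rw [hn]; positivity
  rw [← hn] at b1 b2 b3
  have b1' : ‖F1‖ + ‖G1‖ ≤ k * s * n := b1.trans (by gcongr)
  have b4 : K1 * (1 + ε * s) * n ^ 2 ≤ k * (1 + ε * s) * n ^ 2 := by gcongr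
  obtain ⟨Y, hY⟩ : ∃ Y, Y = X0 + δ := ⟨_, rfl⟩
  have hY' : Y ∈ Icc X0 (X0 + 1) := ⟨by linarith only [hY, hδ.1], by linarith only [hY, hδ.2]⟩
  have hY0 : 0 < Y := by linarith only [hY'.1, hB.X0_mem.1]
  have i2 := hb c L X0 ε a lam η η1 ψ ψ1 hB hε1 h
    (by linarith only [s1, s2, s4, hs0, q5, q6, q7, hKa])
  have i3 := hd c L X0 ε a lam η η1 ψ ψ1 hB hε1 h (s2 ▸ sq_nonneg s)
  rw [← hY] at eF eF1 eG eG1 i2 i3
  have i1 := ha c L X0 ε a Y lam η η1 ψ ψ1 hB h hY'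
    (by linarith only [s1, s2, s4, hs0, q5, q6, q7, hKb])
  obtain ⟨a1, a2⟩ := cr2_half (η Y) (ψ Y)
  obtain ⟨a3, a4⟩ := cr2_half (η1 Y) (ψ1 Y)
  rw [← eF, ← eG, ← hn] at a1 a2
  rw [← eF1, ← eG1] at a3 a4
  replace a3 := a3.trans b1'
  replace a4 := a4.trans b1'
  have hl' : lam.re ∈ Icc 0 μ := ⟨hl.1, hl.2.trans hμ1⟩
  have i4 := cr2_en (c1 := c1) (f := ‖F‖) (g := ‖G‖) hB hK hε1 h hY' hl' s2 s3 hk0 (norm_nonneg _)
    a1 a2 a3 a4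
    (by
      rw [← eF, ← eF1]
      refine (im_le_norm _).trans ?_
      rw [norm_mul, Complex.norm_conj]
      exact mul_le_mul_of_nonneg_right (by linarith only [b1', norm_nonneg G1]) (norm_nonneg _))
    (by rw [← eG, ← eG1]; linarith only [b3, b4])
  have i5 := hm c L X0 ε a s n lam η η1 ψ ψ1 hB ⟨hε0, e3⟩ h hl' s2 s3 Y hY a1 a2 a3 a4
  have hA := c_Gr_nonneg (u := ψ) (u1 := ψ1) c h.L_nonneg hY0.le
  have hB' := c_Gr_nonneg (u := η) (u1 := η1) c h.L_nonneg hY0.le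
  have hPot := c_Pot_nonneg (u := η) c hY0.le
  have hM := c_Ms_nonneg (u := η) c le_rfl hY0.le
  have hM1 := c_Ms_nonneg (u := ψ) c le_rfl hY0.le
  have hY2 : 0 ≤ X0 + δ / 2 := by linarith only [hB.X0_mem.1, hδ.1]
  have hY3 : X0 + δ / 2 ≤ Y := by linarith only [hY, hδ.1]
  have hM2 := c_Ms_nonneg (u := ψ) c hY2 hY3
  have hM3 := h.dη.Ms_mono le_rfl hY2 hY3 le_rfl
  have hE : c.En L η η1 ψ ψ1 Y = c.Gr L ψ ψ1 Y + c.Gr L η η1 Y + c.Pot η Y := rfl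
  rw [← hP] at i4
  rw [← eF, ← eF1] at i3
  rw [s2] at i1 i2
  generalize c.En L η η1 ψ ψ1 Y = E at *
  generalize c.Ms η 0 Y = A at *
  generalize c.Ms ψ (X0 + δ / 2) Y = B at *
  have hE0 : 0 ≤ E := by linarith only [hE, hA, hB', hPot]
  have sn : 0 ≤ s * n ^ 2 := by positivity
  have ab : ∀ {K' x y t : ℝ}, 0 ≤ K' → K' ≤ D → K' * k ≤ D → 0 ≤ y → x ≤ k * s * n → y ≤ n →
      t ≤ K' * (E + x * y) → t ≤ D * (E + s * n ^ 2) := by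
    intro K' x y t p1 p2 p3 p4 p5 p6 p7
    have r1 := mul_le_mul_of_nonneg_left (mul_le_mul p5 p6 p4 (by positivity)) p1
    linarith only [p7, r1, mul_le_mul_of_nonneg_right p2 hE0, mul_le_mul_of_nonneg_right p3 sn]
  have j1 := ab hKa (by linarith only [hD, hKb, q1, q2, q3]) (by linarith only [hD, hKa, hKb, q2, q3])
    (norm_nonneg _) a4 a1 i1
  have j2 := ab hKb (by linarith only [hD, hKa, q1, q2, q3]) (by linarith only [hD, hKa, hKb, q1, q3])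
    (norm_nonneg _) a3 a2 i2
  have w0 : 0 ≤ (1 + ε * s) * n ^ 2 := by positivity
  have j3 : s * ‖F‖ ^ 2 ≤ D * (A + B) + D * (1 + ε * s) * n ^ 2 := by
    refine le_of_mul_le_mul_left ?_ hc1
    have r1 := mul_le_mul_of_nonneg_left (add_le_add hM3 (le_refl B)) hKd
    have r2 := mul_le_mul_of_nonneg_right (show Kd ≤ c1 * D by linarith only [d2, hk0, q0])
      (add_nonneg hM hM2)
    have r3 := mul_le_mul_of_nonneg_right (show k ≤ c1 * D by linarith only [d2, hKd, q0]) w0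
    linarith only [i3, b2, b4, r1, r2, r3]
  have j4 : s ^ 3 * ‖G‖ ^ 2 ≤ D * (E + A) + D * s ^ 3 * (n * ‖F‖) +
      D * s ^ 2 * (1 + ε * s) * n ^ 2 := by
    refine le_of_mul_le_mul_left (i4.trans ?_) hc1
    refine (mul_le_mul_of_nonneg_right (show P ≤ c1 * D by linarith only [d2, hKd, hk0])
      (by positivity)).trans (le_of_eq ?_)
    ring
  have n1 := cr2_one d1 (by linarith only [s1, hs0, q6, q7, hKa, hKb])
    (by rw [le_div_iff₀ (by positivity)] at e1; linarith only [e1]) hε0.le hE0 hM hn j1 j2 j3 j4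
  have n2 : D * (E + s * n ^ 2) ≤ 33 * D ^ 5 * E := by
    have r1 : s * n ^ 2 ≤ s ^ 3 * n ^ 2 :=
      mul_le_mul_of_nonneg_right (le_self_pow₀ s3 (by norm_num)) (sq_nonneg n)
    have r2 : E ≤ D ^ 4 * E := le_mul_of_one_le_left hE0 (one_le_pow₀ d1)
    have r3 := mul_le_mul_of_nonneg_left (show E + s * n ^ 2 ≤ 33 * D ^ 4 * E by
      linarith only [r1, r2, n1]) (show 0 ≤ D by linarith only [d1])
    linarith only [r3]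
  have dv : ∀ {t : ℝ}, 0 ≤ t → s ^ 2 * t ≤ 33 * D ^ 5 * E → t / (δ / 2) ≤ E := by
    intro t p1 p2
    have r1 : 66 * D ^ 5 / δ ≤ s ^ 2 := by linarith only [s1, s4, hs0, q5, q7, hKa, hKb]
    rw [div_le_iff₀ hδ.1] at r1
    rw [div_le_iff₀ (half_pos hδ.1)]
    refine le_of_mul_le_mul_left (p2.trans ?_) (show 0 < s ^ 2 by positivity)
    linarith only [mul_le_mul_of_nonneg_right r1 hE0]
  obtain ⟨k1, k2, k3⟩ := i5 (dv hM (j1.trans n2)) (dv hM2 (j2.trans n2))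
  have o1 : D1 ≤ D2 := by linarith only [hD2, q4]
  have o2 : 33 * D ^ 5 * E ≤ D2 * E :=
    mul_le_mul_of_nonneg_right (by linarith only [hD2, hD1]) hE0
  have o3 : 32 * D ^ 4 * E ≤ 33 * D ^ 5 * E := mul_le_mul_of_nonneg_right
    (by linarith only [q5, pow_le_pow_right₀ d1 (show 4 ≤ 5 by norm_num)]) hE0
  have z := cr2_two (D := D2) (n := n) (hD1.trans o1) (by linarith only [s1, hs0, q5, q6, hKa, hKb])
    e2 hA hB' hPot hM hM1 (hE ▸ (j1.trans n2).trans o2) (hE ▸ (n1.trans o3).trans o2)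
    (hE ▸ k1.trans (mul_le_mul_of_nonneg_right o1 hE0)) (hE ▸ k2.trans (by gcongr))
    (k3.trans (by gcongr))
  rw [← hE] at z
  rw [z, mul_zero] at n1
  have z1 : n = 0 := by
    have r : n ^ 2 ≤ 0 := by
      linarith only [n1, mul_le_mul_of_nonneg_right (one_le_pow₀ s3 (n := 3)) (sq_nonneg n)]
    exact pow_eq_zero_iff (two_ne_zero) |>.1 (le_antisymm r (sq_nonneg n))
  rw [z1, mul_zero] at b1'
  refine ⟨norm_le_zero_iff.1 ?_, norm_le_zero_iff.1 ?_, norm_le_zero_iff.1 ?_,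
    norm_le_zero_iff.1 ?_⟩ <;>
    linarith only [hn, z1, b1', norm_nonneg F, norm_nonneg G, norm_nonneg F1, norm_nonneg G1]

end Vale.Agent.P139
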