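import Vale.Agent.P139.C.En
import Vale.Agent.P139.C.Sob
import Vale.Agent.P139.C.Bz

/-! P139 task C/R3 (PROOF.md section C). Regime III. For `Y ≥ X0` apply `c_energy`; on `(0, X0]` use `mono` (`w X M' ≤ K ε M`), on `[X0, Y]` use `ext`,
`out_R` and `c_hardy`; the boundary terms are `O(Y⁻²)`. So `(μ - C) En Y ≤ C' / Y`, `En` is monotone in `Y`, hence zero;
`zero_of_Gr` makes `η`, `ψ` constant, and they tend to zero.
-/

noncomputable section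

open MeasureTheory Filter Topology Set Complex
open scoped ComplexConjugate

namespace Vale.Agent.P139

variable {c : Co} {L Y : ℝ} {lam : ℂ} {u u1 v η η1 ψ ψ1 sη sψ f g ef eg : ℝ → ℂ} {m l : ℕ}
  {Q : Prof m}

theorem cr3_pow {Y K' : ℝ} (hY : 1 ≤ Y) : Y ^ 5 * (K' * Y ^ (-7 / 2 : ℝ)) ^ 2 ≤ K' ^ 2 / Y := by
  have h0 : 0 < Y := by linarith
  have h1 : (Y ^ (-7 / 2 : ℝ)) ^ 2 = (Y ^ 7)⁻¹ := by
    rw [← Real.rpow_natCast, ← Real.rpow_mul h0.le, ← Real.rpow_natCast, ← Real.rpow_neg h0.le]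
    norm_num
  rw [mul_pow, h1]
  have h2 : Y ^ 5 * (K' ^ 2 * (Y ^ 7)⁻¹) = K' ^ 2 / Y / Y := by field_simp
  rw [h2]
  exact div_le_self (by positivity) hY

theorem cr3_le {Y a : ℝ} (hY : 1 ≤ Y) (ha : 0 ≤ a) : Y ^ (-2 * a) ≤ 1 :=
  Real.rpow_le_one_of_one_le_of_nonpos hY (by linarith)

theorem cr3_split {X a : ℝ} (hX : 0 < X) (n : ℕ) : X ^ ((n : ℝ) - 2 * a) = X ^ n * X ^ (-2 * a) := by
  rw [← Real.rpow_natCast, ← Real.rpow_add hX]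
  congr 1
  ring

theorem cr3_bz (h : c.Dv L u u1 v) :
    Bz fun X => c.dm X * (c.w X * X * c.M' X * ‖u X‖ ^ 2) :=
  c.bz_dm.mul (((c.bz_w.mul Bz.id).mul c.bz_M').mul (h.bz.norm.pow 2))

theorem cr3_in {K X0 ε a : ℝ} (hB : c.Bd X0 ε K a) (hε : ε ∈ Ioc (0 : ℝ) 1) (h : c.Dv L u u1 v) :
    ∫ X in (0 : ℝ)..X0, c.dm X * (c.w X * X * c.M' X * ‖u X‖ ^ 2) ≤ K * c.Pot u X0 := by
  have h0 : 0 ≤ X0 := by linarith [hB.X0_mem.1]
  rw [Co.Pot, ← intervalIntegral.integral_const_mul]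
  refine c_mono h0 ((cr3_bz h).intble le_rfl h0) ((h.int_pot le_rfl h0).const_mul K)
    fun X hX => ?_
  have h1 := hB.mono X hX
  have h2 := c.w_pos X hX.1
  have h3 := (hB.all_w X hX.1).1
  have h4 := c.M_nonneg X hX.1
  have h5 : 0 ≤ c.dm X * ‖u X‖ ^ 2 :=
    mul_nonneg (mul_nonneg (c.R_pos X hX.1).le (pow_nonneg hX.1.le _)) (sq_nonneg _)
  have h6 : c.w X * (X * c.M' X) ≤ K * c.M X :=
    (mul_le_mul_of_nonneg_left (h1.trans (mul_le_of_le_one_left h4 hε.2)) h2.le).trans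
      (mul_le_mul_of_nonneg_right h3 h4)
  nlinarith [mul_le_mul_of_nonneg_left h6 h5]

theorem cr3_cont {X0 : ℝ} (h0 : 0 < X0) (h1 : X0 ≤ Y) {φ : ℝ → ℂ} (hc : ContinuousOn φ (Ioi 0))
    (r : ℝ) : IntervalIntegrable (fun X : ℝ => X ^ r * ‖φ X‖ ^ 2) volume X0 Y := by
  have hs : uIcc X0 Y ⊆ Ioi 0 := by
    rw [uIcc_of_le h1]
    exact fun x hx => h0.trans_le hx.1
  exact ((continuousOn_id.rpow_const fun x hx => Or.inl (hs hx).ne').mul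
    ((hc.mono hs).norm.pow 2)).intervalIntegrable

theorem cr3_out {K X0 ε a : ℝ} (hK : 0 < K) (hB : c.Bd X0 ε K a) (hε : ε ∈ Ioc (0 : ℝ) 1)
    (h : c.Dv L u u1 v) (hL : 0 ≤ L) (hY : X0 ≤ Y) :
    ∫ X in X0..Y, c.dm X * (c.w X * X * c.M' X * ‖u X‖ ^ 2) ≤
      K ^ 3 * (K * c.Gr L u u1 Y + Y ^ 5 * ‖u Y‖ ^ 2) := by
  have h0 : 0 < X0 := by linarith [hB.X0_mem.1]
  have hY0 : 0 ≤ Y := h0.le.trans hY
  have h1 : ∫ X in X0..Y, c.dm X * (c.w X * X * c.M' X * ‖u X‖ ^ 2) ≤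
      K ^ 3 * ∫ X in X0..Y, X ^ (4 - 2 * a) * ‖u X‖ ^ 2 := by
    rw [← intervalIntegral.integral_const_mul]
    refine c_mono hY ((cr3_bz h).intble h0.le hY0) ((cr3_cont h0 hY h.c0 _).const_mul _)
      fun X hX => ?_
    have hX0 : 0 < X := h0.trans hX.1
    have a1 := (hB.ext X hX.1.le).2.trans (mul_le_of_le_one_right hK.le hε.2)
    have a2 := c.w_pos X hX0
    have a3 := (hB.all_w X hX0).1
    have a4 := (hB.out_R X hX.1.le).2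
    have a5 := c.R_pos X hX0
    have a6 : X * (X * c.M' X) ≤ K := (mul_le_mul_of_nonneg_left (le_abs_self _) hX0.le).trans a1
    have a7 : c.w X * (X * (X * c.M' X)) ≤ K * K :=
      (mul_le_mul_of_nonneg_left a6 a2.le).trans (mul_le_mul_of_nonneg_right a3 hK.le)
    have a8 : c.R X * (c.w X * (X * (X * c.M' X))) ≤ K * X ^ (-2 * a) * (K * K) :=
      (mul_le_mul_of_nonneg_left a7 a5.le).trans (mul_le_mul_of_nonneg_right a4 (by positivity))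
    have a9 := mul_le_mul_of_nonneg_left a8 (show 0 ≤ X ^ 4 * ‖u X‖ ^ 2 by positivity)
    have e := cr3_split (a := a) hX0 4
    push_cast at e
    rw [e, Co.dm]
    linarith
  have h2 : ∫ X in X0..Y, X ^ (6 - 2 * a) * ‖u1 X‖ ^ 2 ≤ K * c.Gr L u u1 Y := by
    have b1 : ∫ X in X0..Y, X ^ (6 - 2 * a) * ‖u1 X‖ ^ 2 ≤ K * ∫ X in X0..Y, c.gr L u u1 X := by
      rw [← intervalIntegral.integral_const_mul]
      refine c_mono hY (cr3_cont h0 hY h.c1 _) ((h.int_gr h0.le hY0).const_mul _) fun X hX => ?_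
      have hX0 : 0 < X := h0.trans hX.1
      have a4 := (div_le_iff₀ hK).1 (hB.out_R X hX.1.le).1
      have a5 := c.R_pos X hX0
      have a6 := mul_le_mul_of_nonneg_left a4 (show 0 ≤ X ^ 6 * ‖u1 X‖ ^ 2 by positivity)
      have a7 : 0 ≤ K * (c.R X * (L / 4 * X ^ 4 * ‖u X‖ ^ 2)) := by positivity
      have e := cr3_split (a := a) hX0 6
      push_cast at e
      rw [e, Co.gr]
      linarith
    have b2 := intervalIntegral.integral_add_adjacent_intervals (h.int_gr le_rfl h0.le)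
      (h.int_gr h0.le hY0)
    have b3 : 0 ≤ c.Gr L u u1 X0 := c_Gr_nonneg c hL h0.le
    refine b1.trans (mul_le_mul_of_nonneg_left ?_ hK.le)
    unfold Co.Gr at b3 ⊢
    linarith
  have h3 := c_hardy hB.a_mem h0 hY h.d1 h.c1
  have h4 : Y ^ (5 - 2 * a) * ‖u Y‖ ^ 2 ≤ Y ^ 5 * ‖u Y‖ ^ 2 := by
    have e := cr3_split (a := a) (h0.trans_le hY) 5
    push_cast at e
    rw [e]
    exact mul_le_mul_of_nonneg_right (mul_le_of_le_one_right (by positivity)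
      (cr3_le (by linarith [hB.X0_mem.1]) hB.a_mem.1)) (sq_nonneg _)
  exact h1.trans (mul_le_mul_of_nonneg_left (by linarith) (by positivity))

theorem cr3_alg {Y e p e1 p1 s : ℝ} (hY : 0 ≤ Y) (he : 0 ≤ e) (hp : 0 ≤ p) (he1 : 0 ≤ e1)
    (hp1 : 0 ≤ p1) (h : e + p + Y * e1 + Y * p1 ≤ s) :
    e ^ 2 ≤ s ^ 2 ∧ Y * (p * p1 + e * e1) ≤ s ^ 2 ∧ Y ^ 2 * (p1 ^ 2 + e1 ^ 2) ≤ s ^ 2 := by
  have h1 := mul_nonneg hY he1
  have h2 := mul_nonneg hY hp1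
  have h3 : (e + p + Y * e1 + Y * p1) ^ 2 ≤ s ^ 2 := pow_le_pow_left₀ (by positivity) h 2
  have h4 := mul_nonneg he hp
  have h5 := mul_nonneg he h1
  have h6 := mul_nonneg he h2
  have h7 := mul_nonneg hp h1
  have h8 := mul_nonneg hp h2
  have h9 := mul_nonneg h1 h2
  refine ⟨?_, ?_, ?_⟩ <;> nlinarith [sq_nonneg e, sq_nonneg p, sq_nonneg (Y * e1), sq_nonneg (Y * p1)]

theorem cr3_bdry {K X0 ε a s : ℝ} (hK : 0 < K) (hB : c.Bd X0 ε K a) (hY : X0 ≤ Y)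
    (h : ‖η Y‖ + ‖ψ Y‖ + Y * ‖η1 Y‖ + Y * ‖ψ1 Y‖ ≤ s) :
    c.J Y * ((lam * (ψ Y * conj (ψ1 Y) + η Y * conj (η1 Y))).re +
        c.w Y * Y * (‖ψ1 Y‖ ^ 2 + ‖η1 Y‖ ^ 2) / 2) ≤ K * (‖lam‖ + K) * (Y ^ 5 * s ^ 2) := by
  have h1 : 1 ≤ Y := by linarith [hB.X0_mem.1]
  have h0 : 0 < Y := by linarith
  obtain ⟨-, h2, h3⟩ := cr3_alg h0.le (norm_nonneg _) (norm_nonneg _) (norm_nonneg _)
    (norm_nonneg _) h
  have h4 : c.R Y ≤ K := (hB.out_R Y hY).2.trans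
    (mul_le_of_le_one_right hK.le (cr3_le h1 hB.a_mem.1))
  have h5 := c.R_pos Y h0
  have h6 : (lam * (ψ Y * conj (ψ1 Y) + η Y * conj (η1 Y))).re ≤
      ‖lam‖ * (‖ψ Y‖ * ‖ψ1 Y‖ + ‖η Y‖ * ‖η1 Y‖) := by
    refine (re_le_norm _).trans ?_
    rw [norm_mul]
    refine mul_le_mul_of_nonneg_left ((norm_add_le _ _).trans ?_) (norm_nonneg _)
    simp only [norm_mul, Complex.norm_conj, le_refl]
  have h7 := (hB.all_w Y h0).1
  have h8 := c.w_pos Y h0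
  have h9 : Y * ((lam * (ψ Y * conj (ψ1 Y) + η Y * conj (η1 Y))).re +
      c.w Y * Y * (‖ψ1 Y‖ ^ 2 + ‖η1 Y‖ ^ 2) / 2) ≤ (‖lam‖ + K) * s ^ 2 := by
    have a1 := mul_le_mul_of_nonneg_left h6 h0.le
    have a2 := mul_le_mul_of_nonneg_left h2 (norm_nonneg lam)
    have a3 := mul_le_mul h7 h3 (by positivity) hK.le
    have a4 : 0 ≤ K * s ^ 2 := by positivity
    nlinarith
  have h10 := (mul_le_mul_of_nonneg_left h9 h5.le).trans
    (mul_le_mul_of_nonneg_right h4 (by positivity))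
  have h11 := mul_le_mul_of_nonneg_left h10 (show 0 ≤ Y ^ 5 by positivity)
  rw [Co.J]
  linarith

theorem cr3_lim {t C X0 : ℝ} (h : ∀ Y, X0 ≤ Y → t ≤ C / Y) : t ≤ 0 :=
  ge_of_tendsto (tendsto_const_nhds.div_atTop tendsto_id) (eventually_atTop.2 ⟨X0, h⟩)

theorem cr3_zero (h : c.Dv L u u1 v) (hL : 0 ≤ L) (h0 : ∀ Y, 0 < Y → c.Gr L u u1 Y ≤ 0) {K' : ℝ}
    (hd : ∀ X : ℝ, 1 ≤ X → ‖u X‖ ≤ K' * X ^ (-7 / 2 : ℝ)) {X : ℝ} (hX : 0 < X) : u X = 0 := by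
  have h1 : Tendsto (fun Y : ℝ => K' * Y ^ (-7 / 2 : ℝ)) atTop (𝓝 (K' * 0)) := by
    have h2 := tendsto_rpow_neg_atTop (y := 7 / 2) (by norm_num)
    rw [← neg_div] at h2
    exact h2.const_mul K'
  rw [mul_zero] at h1
  refine norm_le_zero_iff.1 (ge_of_tendsto h1 ?_)
  filter_upwards [eventually_ge_atTop 1, eventually_ge_atTop X] with Y a1 a2
  have a0 : 0 < Y := hX.trans_le a2
  rw [((h.zero_of_Gr hL a0 ((h0 Y a0).antisymm (c_Gr_nonneg c hL a0.le))).1 X ⟨hX, a2⟩).2]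
  exact hd Y a1

theorem c_r3 (K : ℝ) (hK : 0 < K) : ∃ μ0, ∀ (c : Co) (L X0 ε a : ℝ) (lam : ℂ)
    (η η1 ψ ψ1 : ℝ → ℂ), c.Bd X0 ε K a → ε ∈ Ioc (0 : ℝ) 1 → c.Sys L lam η η1 ψ ψ1 0 0 →
      μ0 ≤ lam.re → (∃ K', ∀ X : ℝ, 1 ≤ X →
        ‖η X‖ + ‖ψ X‖ + X * ‖η1 X‖ + X * ‖ψ1 X‖ ≤ K' * X ^ (-7 / 2 : ℝ)) →
      ∀ X, 0 < X → η X = 0 ∧ ψ X = 0 := by
  refine ⟨4 + 2 * K + K ^ 4, fun c L X0 ε a lam η η1 ψ ψ1 hB hε h hμ ⟨K', hd⟩ => ?_⟩
  have hL := h.L_nonneg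
  have h0 : 0 < X0 := by linarith [hB.X0_mem.1]
  have key : ∀ Y, X0 ≤ Y →
      c.En L η η1 ψ ψ1 Y ≤ (K ^ 3 + K * (‖lam‖ + K)) * K' ^ 2 / Y := fun Y hY => by
    have h1 : 1 ≤ Y := by linarith [hB.X0_mem.1]
    have hY0 : 0 < Y := by linarith
    have a1 := c_energy h hY0 (K := K) fun X hX => (hB.all_w X hX.1).2.1
    have a2 := cr3_in hB hε h.dη
    have a3 := cr3_out hK hB hε h.dη hL hY
    have a4 := cr3_bdry (lam := lam) hK hB hY (hd Y h1)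
    have a5 := intervalIntegral.integral_add_adjacent_intervals
      ((cr3_bz h.dη).intble le_rfl h0.le) ((cr3_bz h.dη).intble h0.le hY0.le)
    have a6 := cr3_pow (K' := K') h1
    have a7 := (cr3_alg hY0.le (norm_nonneg _) (norm_nonneg _) (norm_nonneg _)
      (norm_nonneg _) (hd Y h1)).1
    have a8 := (mul_le_mul_of_nonneg_left a7 (show 0 ≤ Y ^ 5 by positivity)).trans a6
    have b1 : 0 ≤ c.Gr L η η1 Y := c_Gr_nonneg c hL hY0.le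
    have b2 : 0 ≤ c.Gr L ψ ψ1 Y := c_Gr_nonneg c hL hY0.le
    have b3 : 0 ≤ c.Pot η Y := c_Pot_nonneg c hY0.le
    have b4 := h.dη.Pot_mono h0.le hY
    have b5 : c.Pot η X0 ≤ c.En L η η1 ψ ψ1 Y := by
      rw [Co.En]
      linarith
    have b6 : c.Gr L η η1 Y ≤ c.En L η η1 ψ ψ1 Y := by
      rw [Co.En]
      linarith
    have b7 := b1.trans b6
    have d1 := mul_le_mul_of_nonneg_right hμ b7
    have d2 := mul_le_mul_of_nonneg_left b5 hK.le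
    have d3 := mul_le_mul_of_nonneg_left b6 (show 0 ≤ K ^ 4 by positivity)
    have d4 := mul_le_mul_of_nonneg_left a8 (show 0 ≤ K ^ 3 by positivity)
    have d5 := mul_le_mul_of_nonneg_left a6 (show 0 ≤ K * (‖lam‖ + K) by positivity)
    have d6 : 0 ≤ K * c.En L η η1 ψ ψ1 Y := by positivity
    have d7 : 0 ≤ K ^ 4 * c.En L η η1 ψ ψ1 Y := by positivity
    have d8 : 0 ≤ K ^ 3 * (K' ^ 2 / Y) := by positivity
    rw [mul_div_assoc]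
    linarith
  have key2 : ∀ Z, 0 < Z → c.Gr L ψ ψ1 Z + c.Gr L η η1 Z ≤ 0 := fun Z hZ => by
    refine cr3_lim (X0 := max X0 Z) fun Y hY => le_trans ?_ (key Y ((le_max_left _ _).trans hY))
    have h1 : Z ≤ Y := (le_max_right _ _).trans hY
    have a1 := h.dη.Gr_mono hL hZ.le h1
    have a2 := h.dψ.Gr_mono hL hZ.le h1
    have a3 : 0 ≤ c.Pot η Y := c_Pot_nonneg c (hZ.le.trans h1)
    rw [Co.En]
    linarith
  have h3 : ∀ X : ℝ, 1 ≤ X → 0 ≤ X * ‖η1 X‖ + X * ‖ψ1 X‖ := fun X hX => by positivity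
  intro X hX
  exact ⟨cr3_zero (K' := K') h.dη hL (fun Y hY => by
      linarith [key2 Y hY, c_Gr_nonneg (u := ψ) (u1 := ψ1) c hL hY.le])
      (fun Y hY => by linarith [hd Y hY, h3 Y hY, norm_nonneg (ψ Y)]) hX,
    cr3_zero (K' := K') h.dψ hL (fun Y hY => by
      linarith [key2 Y hY, c_Gr_nonneg (u := η) (u1 := η1) c hL hY.le])
      (fun Y hY => by linarith [hd Y hY, h3 Y hY, norm_nonneg (η Y)]) hX⟩

end Vale.Agent.P139
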