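import Vale.Agent.P139.C.Bdry
import Vale.Agent.P139.C.R1
import Vale.Agent.P139.C.R2
import Vale.Agent.P139.C.R3
import Vale.Agent.P139.C.Lin

/-! P139 task C/Big (PROOF.md section C). All large parameters. Take `K` (`c_co`), `μ0 ≥ 5` (`c_r3`, decay from `ext_decay`, `out_R`, `‖X lg‖ ≤ K`), `δ` (`c_r2`),
`θ = 1 - δ/12`, so `θ (X0 + δ)/X0 ≥ 1 + δ/6`; `c_bdry` with a small `θ'`; `c_r1` if `4 X0 |ω| ≤ θ L` and `l` large; otherwise `|ω|` is large and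
`4 X0 |ω| ≥ θ L` or `l ≤ l0`; `c_swap` makes `ω > 0`; `c_r2` (`ℓ² = L/4 + 25/4`, `s ≤ C √ω`). Conclude with `c_FG`, `c_uniq`.
-/

noncomputable section

open MeasureTheory Filter Topology Set Complex
open scoped ComplexConjugate

namespace Vale.Agent.P139

variable {c : Co} {L Y : ℝ} {lam : ℂ} {u u1 v η η1 ψ ψ1 sη sψ f g ef eg : ℝ → ℂ} {m l : ℕ}
  {Q : Prof m}

theorem cbig_fin (h : Q.RSol l lam f g 0 0) {X : ℝ} (hX : 0 < X) (h1 : f X / Q.q X = 0)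
    (h2 : g X / conj (Q.q X) = 0) (h3 : (deriv f X - Q.lg X * f X) / Q.q X = 0)
    (h4 : (deriv g X - conj (Q.lg X) * g X) / conj (Q.q X) = 0) :
    ∀ Y, 0 < Y → f Y = 0 ∧ g Y = 0 := by
  have hq := Q.ne X hX.le
  have hq' : conj (Q.q X) ≠ 0 := (map_ne_zero _).2 hq
  have e1 := (div_eq_zero_iff.1 h1).resolve_right hq
  have e2 := (div_eq_zero_iff.1 h2).resolve_right hq'
  have e3 := (div_eq_zero_iff.1 h3).resolve_right hq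
  have e4 := (div_eq_zero_iff.1 h4).resolve_right hq'
  rw [e1, mul_zero, sub_zero] at e3
  rw [e2, mul_zero, sub_zero] at e4
  exact c_uniq h hX e1 e2 e3 e4

theorem cbig_half (a b : ℂ) : ‖a‖ + ‖b‖ ≤ ‖a + I * b‖ + ‖a - I * b‖ := by
  have h1 := norm_add_le (a + I * b) (a - I * b)
  have h2 := norm_sub_le (a + I * b) (a - I * b)
  rw [show a + I * b + (a - I * b) = 2 * a by ring, norm_mul, Complex.norm_two] at h1
  rw [show a + I * b - (a - I * b) = 2 * (I * b) by ring, norm_mul, Complex.norm_two, norm_mul,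
    norm_I, one_mul] at h2
  linarith

theorem cbig_par (a b : ℂ) : (‖a + I * b‖ + ‖a - I * b‖) ^ 2 ≤ 4 * (‖b‖ ^ 2 + ‖a‖ ^ 2) := by
  have h := parallelogram_law_with_norm ℝ a (I * b)
  rw [norm_mul, norm_I, one_mul] at h
  nlinarith [sq_nonneg (‖a + I * b‖ - ‖a - I * b‖)]

theorem cbig_re (a b a1 b1 : ℂ) : ((a1 + I * b1) * conj (a + I * b) +
    (a1 - I * b1) * conj (a - I * b)).re = 2 * (b1 * conj b + a1 * conj a).re := by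
  simp
  ring

theorem cbig_one {K X : ℝ} (hX : 0 < X) {q z a a1 : ℂ} (hq : 1 / ‖q‖ ≤ √K * √X)
    (hz : ‖(X : ℂ) * z‖ ≤ K) :
    ‖a / q‖ + X * ‖(a1 - z * a) / q‖ ≤ √K * √X * (1 + K) * (‖a‖ + ‖X * a1‖) := by
  have hK : 0 ≤ K := (norm_nonneg _).trans hz
  have h1 : X * ‖a1 - z * a‖ ≤ ‖X * a1‖ + K * ‖a‖ := by
    have e : X * ‖a1 - z * a‖ = ‖X * a1 - (X * z) * a‖ := by
      rw [mul_assoc, ← mul_sub, norm_mul, Complex.norm_real, Real.norm_of_nonneg hX.le]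
    rw [e]
    refine (norm_sub_le _ _).trans (add_le_add le_rfl ?_)
    rw [norm_mul]
    exact mul_le_mul_of_nonneg_right hz (norm_nonneg _)
  have h2 : ‖a‖ + X * ‖a1 - z * a‖ ≤ (1 + K) * (‖a‖ + ‖X * a1‖) := by
    nlinarith [mul_nonneg hK (norm_nonneg ((X : ℂ) * a1))]
  have e : ‖a / q‖ + X * ‖(a1 - z * a) / q‖ = 1 / ‖q‖ * (‖a‖ + X * ‖a1 - z * a‖) := by
    rw [norm_div, norm_div]
    ring
  rw [e, mul_assoc (√K * √X)]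
  exact mul_le_mul hq h2 (by positivity) (by positivity)

theorem cbig_q {X0 ε K a X : ℝ} (hK : 0 < K) (hb : c.Bd X0 ε K a) (hc : Q.IsCo c) (hX : 1 ≤ X) :
    1 / ‖Q.q X‖ ≤ √K * √X := by
  have hX0 : 0 < X := by linarith
  have hR : X⁻¹ / K ≤ c.R X := by
    rcases le_total X X0 with h | h
    · exact (div_le_div_of_nonneg_right (inv_le_one_of_one_le₀ hX) hK.le).trans
        (hb.in_R X ⟨hX0, by linarith⟩).1
    · refine le_trans (div_le_div_of_nonneg_right ?_ hK.le) (hb.out_R X h).1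
      rw [← Real.rpow_neg_one]
      exact Real.rpow_le_rpow_of_exponent_le hX (by linarith [hb.a_mem.2])
  rw [(hc X hX0).1, normSq_eq_norm_sq, div_le_iff₀ hK, inv_le_iff_one_le_mul₀ hX0] at hR
  have hq : 0 < ‖Q.q X‖ := norm_pos_iff.2 (Q.ne X hX0.le)
  rw [← Real.sqrt_mul hK.le]
  refine Real.le_sqrt_of_sq_le ?_
  rw [div_pow, div_le_iff₀ (by positivity)]
  linarith

theorem cbig_III (C : ℝ) (hC : 0 < C) : ∃ μ0 : ℝ, ∀ (m : ℕ) (Q : Prof m) (X0 ε : ℝ),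
    ε ∈ Ioc (0 : ℝ) (1 / 4) → Q.Good X0 ε C → ∀ (l : ℕ) (lam : ℂ) (f g : ℝ → ℂ),
      Q.RSol l lam f g 0 0 → μ0 ≤ lam.re → ∀ X, 0 < X → f X = 0 ∧ g X = 0 := by
  obtain ⟨K, hK, hco⟩ := c_co C hC
  obtain ⟨μ, hμ⟩ := c_r3 K hK
  refine ⟨max μ 5, fun m Q X0 ε hε hG l lam f g h hre X hX => ?_⟩
  obtain ⟨c, hc, hb⟩ := hco m Q
  obtain ⟨hb, hlg⟩ := hb X0 ε hε hG
  obtain ⟨K', hK'⟩ := ext_decay h ((le_max_right _ _).trans hre)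
  obtain ⟨e1, e2⟩ := hμ c _ X0 ε _ lam _ _ _ _ hb ⟨hε.1, by linarith [hε.2]⟩ (c_sys0 hc h)
    ((le_max_left _ _).trans hre) ⟨√K * (1 + K) * K', fun Y hY => by
      have hY0 : 0 < Y := by linarith
      obtain ⟨a1, a2, a3, a4⟩ := c_FG h hY0
      have b1 := cbig_half (Q.Fη f g Y) (Q.Fψ f g Y)
      have b2 := mul_le_mul_of_nonneg_left
        (cbig_half (deriv (Q.Fη f g) Y) (deriv (Q.Fψ f g) Y)) hY0.le
      rw [a1, a2] at b1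
      rw [a3, a4] at b2
      have hq := cbig_q hK hb hc hY
      have d1 := cbig_one (a := f Y) (a1 := deriv f Y) hY0 hq (hlg Y hY0)
      have d2 := cbig_one (a := g Y) (a1 := deriv g Y) (q := conj (Q.q Y)) (z := conj (Q.lg Y))
        hY0 (by rwa [Complex.norm_conj]) (by
          have := hlg Y hY0
          rwa [norm_mul, Complex.norm_conj, ← norm_mul])
      have d3 := mul_le_mul_of_nonneg_left (hK' Y hY)
        (show 0 ≤ √K * √Y * (1 + K) by positivity)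
      have e : √Y * Y ^ (-4 : ℝ) = Y ^ (-7 / 2 : ℝ) := by
        rw [Real.sqrt_eq_rpow, ← Real.rpow_add hY0]
        norm_num
      rw [← e]
      simp only [Lam] at d3
      linarith⟩ X hX
  obtain ⟨a1, a2, -, -⟩ := c_FG h hX
  rw [e1, e2, mul_zero] at a1 a2
  have hq := Q.ne X hX.le
  exact ⟨(div_eq_zero_iff.1 (by rw [← a1, add_zero])).resolve_right hq,
    (div_eq_zero_iff.1 (by rw [← a2, sub_zero])).resolve_right ((map_ne_zero _).2 hq)⟩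

theorem cbig_I (C μ0 : ℝ) (hC : 0 < C) {θ : ℝ} (hθ : θ < 1) : ∃ (l0 : ℕ) (ε0 : ℝ), 0 < ε0 ∧
    ∀ (m : ℕ) (Q : Prof m) (X0 ε : ℝ), ε ∈ Ioc 0 ε0 → Q.Good X0 ε C →
      ∀ (l : ℕ) (lam : ℂ) (f g : ℝ → ℂ), Q.RSol l lam f g 0 0 → lam.re ∈ Icc 0 μ0 → l0 ≤ l →
        4 * X0 * |lam.im| ≤ θ * (l * (l + 10)) → ∀ X, 0 < X → f X = 0 ∧ g X = 0 := by
  obtain ⟨K, hK, hco⟩ := c_co C hC
  obtain ⟨Λ, Kb, c1, εb, -, hεb, hKb, hbd⟩ := c_bdry C μ0 hC one_pos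
  obtain ⟨L0, ε1, hε1, hr⟩ := c_r1 K (6 * Kb) hK hθ
  refine ⟨⌈max Λ L0⌉₊ + 1, min (1 / 4) (min εb ε1), by positivity,
    fun m Q X0 ε hε hG l lam f g h hre hl hω => ?_⟩
  have hε' := hε.2
  simp only [le_min_iff] at hε'
  obtain ⟨c, hc, hb⟩ := hco m Q
  obtain ⟨hb, -⟩ := hb X0 ε ⟨hε.1, hε'.1⟩ hG
  have hX2 := hb.X0_mem.1
  have hX0 : 0 < X0 := by linarith
  have hl' : max Λ L0 + 1 ≤ (l : ℝ) := by
    have : ((⌈max Λ L0⌉₊ + 1 : ℕ) : ℝ) ≤ l := Nat.cast_le.2 hl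
    push_cast at this
    linarith [Nat.le_ceil (max Λ L0)]
  have hl1 : (1 : ℝ) ≤ l := by exact_mod_cast (Nat.le_add_left 1 _).trans hl
  have hΛ := le_max_left Λ L0
  have hL0 := le_max_right Λ L0
  have hab := abs_nonneg lam.im
  obtain ⟨a1, a2, a3, a4⟩ := c_FG h hX0
  have hB := (hbd m Q X0 ε ⟨hε.1, hε'.2.1⟩ hG l lam f g h hre (by linarith) X0
    ⟨le_rfl, by linarith⟩ _ _ _ _ _ a1 a3 a2 a4 rfl).2.1
  rw [cbig_re] at hB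
  have s1 : (l : ℝ) ≤ √(l * (l + 10)) := Real.le_sqrt_of_sq_le (by nlinarith)
  have s2 : √|lam.im| ≤ √(l * (l + 10)) := Real.sqrt_le_sqrt (by
    have t1 := mul_le_mul_of_nonneg_right hθ.le (show (0 : ℝ) ≤ l * (l + 10) by positivity)
    have t2 := mul_le_mul_of_nonneg_right hX2 hab
    linarith)
  have s3 : 1 + ε * (l + √|lam.im| + 1) ≤ 3 * (1 + ε * √(l * (l + 10))) := by
    nlinarith [hε.1]
  have hε0 := hε.1.le
  have s4 := mul_le_mul (mul_le_mul_of_nonneg_left s3 hKb) (cbig_par (Q.Fη f g X0) (Q.Fψ f g X0))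
    (by positivity) (by positivity)
  obtain ⟨e1, e2, e3, e4⟩ := hr c _ X0 ε _ lam _ _ _ _ hb ⟨hε.1, hε'.2.2⟩ (c_sys0 hc h)
    (by nlinarith) hω (by linarith)
  rw [e1, e2, mul_zero] at a1 a2
  rw [e3, e4, mul_zero] at a3 a4
  exact cbig_fin h hX0 (by rw [← a1, add_zero]) (by rw [← a2, sub_zero]) (by rw [← a3, add_zero])
    (by rw [← a4, sub_zero])

theorem cbig_II (C μ0 : ℝ) (hC : 0 < C) : ∃ δ ∈ Ioc (0 : ℝ) 1, ∃ Λ ε0 : ℝ, 0 < ε0 ∧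
    ∀ (m : ℕ) (Q : Prof m) (X0 ε : ℝ), ε ∈ Ioc 0 ε0 → Q.Good X0 ε C →
      ∀ (l : ℕ) (lam : ℂ) (f g : ℝ → ℂ), Q.RSol l lam f g 0 0 → lam.re ∈ Icc 0 μ0 →
        Λ ≤ lam.im → (1 + δ / 12) * ((l + 5) / 2) ^ 2 ≤ (X0 + δ) * lam.im →
        ∀ X, 0 < X → f X = 0 ∧ g X = 0 := by
  obtain ⟨K, hK, hco⟩ := c_co C hC
  obtain ⟨δ, hδ, hr⟩ := c_r2 K μ0 hK
  obtain ⟨Λ, Kb, c1, εb, hc1, hεb, hKb, hbd⟩ :=
    c_bdry C μ0 hC (show 0 < δ / 12 by linarith [hδ.1])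
  obtain ⟨Λ2, ε2, hε2, hr⟩ := hr (6 * Kb) c1 hc1
  refine ⟨δ, hδ, max 2 (max Λ Λ2), min (1 / 4) (min εb ε2), by positivity,
    fun m Q X0 ε hε hG l lam f g h hre hω hl => ?_⟩
  have hε' := hε.2
  simp only [le_min_iff] at hε'
  simp only [max_le_iff] at hω
  obtain ⟨hω2, hωΛ, hω3⟩ := hω
  obtain ⟨c, hc, hb⟩ := hco m Q
  obtain ⟨hb, -⟩ := hb X0 ε ⟨hε.1, hε'.1⟩ hG
  obtain ⟨hX2, hX3⟩ := hb.X0_mem
  obtain ⟨hδ0, hδ1⟩ := hδ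
  have hX0 : 0 < X0 + δ := by linarith
  have hl0 : (0 : ℝ) ≤ l := Nat.cast_nonneg l
  have hab : |lam.im| = lam.im := abs_of_nonneg (by linarith)
  obtain ⟨a1, a2, a3, a4⟩ := c_FG h hX0
  obtain ⟨b1, -, b2, b3⟩ := hbd m Q X0 ε ⟨hε.1, hε'.2.1⟩ hG l lam f g h hre (by linarith) (X0 + δ)
    ⟨by linarith, by linarith⟩ _ _ _ _ _ rfl rfl rfl rfl rfl
  rw [hab] at b1 b2 b3
  have hsq : (0 : ℝ) ≤ ((l + 5) / 2) ^ 2 := sq_nonneg _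
  have h4 : (((l : ℝ) + 5) / 2) ^ 2 ≤ 4 * lam.im := by nlinarith
  replace b2 := b2 (by nlinarith)
  replace b3 := b3 hl
  have s0 : 1 ≤ √lam.im := Real.one_le_sqrt.2 (by linarith)
  have s1 : (l : ℝ) / 4 ≤ √lam.im := Real.le_sqrt_of_sq_le (by nlinarith)
  have s2 : l + √lam.im + 1 ≤ 6 * √lam.im := by linarith
  have s3 : 1 + ε * (l + √lam.im + 1) ≤ 6 * (1 + ε * √lam.im) := by nlinarith [hε.1]
  have s4 := mul_le_mul_of_nonneg_right (mul_le_mul_of_nonneg_left s3 hKb)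
    (sq_nonneg (‖f (X0 + δ) / Q.q (X0 + δ)‖ + ‖g (X0 + δ) / conj (Q.q (X0 + δ))‖))
  have s5 := mul_le_mul_of_nonneg_right (mul_le_mul_of_nonneg_left s2 hKb)
    (show 0 ≤ ‖f (X0 + δ) / Q.q (X0 + δ)‖ + ‖g (X0 + δ) / conj (Q.q (X0 + δ))‖ by positivity)
  obtain ⟨e1, e2, e3, e4⟩ := hr c _ X0 ε _ lam _ _ _ _ _ _ _ _ hb ⟨hε.1, hε'.2.2⟩ (c_sys0 hc h)
    hre hω3 a1.symm a3.symm a2.symm a4.symm (by linarith) (by linarith) (by linarith)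
  exact cbig_fin h hX0 e1 e2 e3 e4

theorem c_big (C : ℝ) (hC : 0 < C) : ∃ (Λ ε0 : ℝ) (l0 : ℕ), 0 < ε0 ∧ ∀ (m : ℕ) (Q : Prof m)
    (X0 ε : ℝ), ε ∈ Ioc 0 ε0 → Q.Good X0 ε C → ∀ (l : ℕ) (lam : ℂ) (f g : ℝ → ℂ),
      Q.RSol l lam f g 0 0 → 0 ≤ lam.re → (l0 < l ∨ Λ < ‖lam‖) →
        ∀ X, 0 < X → f X = 0 ∧ g X = 0 := by
  obtain ⟨μ0, h3⟩ := cbig_III C hC
  obtain ⟨δ, ⟨hδ0, hδ1⟩, Λ, ε2, hε2, h2⟩ := cbig_II C μ0 hC
  obtain ⟨l1, ε1, hε1, h1⟩ := cbig_I C μ0 hC (show 1 - δ / 12 < 1 by linarith)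
  obtain ⟨l0, hl1, hl2, hl3⟩ : ∃ l0 : ℕ, l1 ≤ l0 ∧ 33 / δ ≤ l0 ∧ 3 * Λ ≤ l0 :=
    ⟨max l1 ⌈max (33 / δ) (3 * Λ)⌉₊, le_max_left _ _,
      ((le_max_left _ _).trans (Nat.le_ceil _)).trans (Nat.cast_le.2 (le_max_right _ _)),
      ((le_max_right _ _).trans (Nat.le_ceil _)).trans (Nat.cast_le.2 (le_max_right _ _))⟩
  refine ⟨μ0 + max Λ (((l0 : ℝ) + 5) ^ 2), min (1 / 4) (min ε1 ε2), l0, by positivity,
    fun m Q X0 ε hε hG l lam f g h hre hor => ?_⟩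
  have hε' := hε.2
  simp only [le_min_iff] at hε'
  rcases le_total μ0 lam.re with hμ | hμ
  · exact h3 m Q X0 ε ⟨hε.1, hε'.1⟩ hG l lam f g h hμ
  have hX2 : 2 ≤ X0 := le_trans (by norm_num [Xlo]) hG.box.1.1
  have hX3 : X0 ≤ 3 := hG.box.1.2.trans (by norm_num [Xhi])
  have hab := abs_nonneg lam.im
  have hl0 : (0 : ℝ) ≤ l := Nat.cast_nonneg l
  have key : Λ ≤ |lam.im| → (1 + δ / 12) * ((l + 5) / 2) ^ 2 ≤ (X0 + δ) * |lam.im| →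
      ∀ X, 0 < X → f X = 0 ∧ g X = 0 := by
    intro k1 k2 X hX
    rcases le_total 0 lam.im with h0 | h0
    · rw [abs_of_nonneg h0] at k1 k2
      exact h2 m Q X0 ε ⟨hε.1, hε'.2.2⟩ hG l lam f g h ⟨hre, hμ⟩ k1 k2 X hX
    · rw [abs_of_nonpos h0] at k1 k2
      have := h2 m Q X0 ε ⟨hε.1, hε'.2.2⟩ hG l (conj lam) _ _ (c_swap h) ⟨hre, hμ⟩ k1 k2 X hX
      exact ⟨(map_eq_zero _).1 this.2, (map_eq_zero _).1 this.1⟩
  rcases lt_or_ge l0 l with hl | hl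
  · rcases le_total (4 * X0 * |lam.im|) ((1 - δ / 12) * (l * (l + 10))) with hω | hω
    · exact h1 m Q X0 ε ⟨hε.1, hε'.2.1⟩ hG l lam f g h ⟨hre, hμ⟩ (hl1.trans hl.le) hω
    have hl' : (l0 : ℝ) ≤ l := Nat.cast_le.2 hl.le
    have hδl : 33 ≤ δ * l := by
      have := hl2.trans hl'
      rwa [div_le_iff₀' hδ0] at this
    have hL : (l : ℝ) * 10 ≤ l * (l + 10) := by nlinarith
    have hL0 : (0 : ℝ) ≤ l * (l + 10) := by positivity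
    set L : ℝ := l * (l + 10) with hLdef
    have k0 : 330 ≤ δ * L := by nlinarith
    have k1 : 11 / 12 * L ≤ 12 * |lam.im| := by nlinarith
    refine key (by linarith) ?_
    have e : (((l : ℝ) + 5) / 2) ^ 2 = L / 4 + 25 / 4 := by rw [hLdef]; ring
    have k2 : δ * ((1 - δ / 12) * L) ≤ 12 * (δ * |lam.im|) := by
      have : (1 - δ / 12) * L ≤ 12 * |lam.im| := by nlinarith
      nlinarith
    have k3 : δ * (δ * L) ≤ δ * L := by nlinarith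
    rw [e]
    nlinarith
  · have hΛ := hor.resolve_left (not_lt.2 hl)
    have hn := Complex.norm_le_abs_re_add_abs_im lam
    rw [abs_of_nonneg hre] at hn
    have m1 := le_max_left Λ (((l0 : ℝ) + 5) ^ 2)
    have m2 := le_max_right Λ (((l0 : ℝ) + 5) ^ 2)
    have hl' : (l : ℝ) ≤ l0 := Nat.cast_le.2 hl
    have m3 : ((l : ℝ) + 5) ^ 2 ≤ ((l0 : ℝ) + 5) ^ 2 := by gcongr
    refine key (by linarith) ?_
    have m4 : (((l : ℝ) + 5) / 2) ^ 2 ≤ |lam.im| / 4 := by linarith [div_pow ((l : ℝ) + 5) 2 2]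
    nlinarith [sq_nonneg (((l : ℝ) + 5) / 2)]

end Vale.Agent.P139
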