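import Vale.Agent.P139.C.Def

/-! P139 task C/Co, auxiliary file: the coefficients of a profile and pointwise identities. -/

noncomputable section

open MeasureTheory Filter Topology Set Complex
open scoped ComplexConjugate

namespace Vale.Agent.P139

variable {m : ℕ} {Q : Prof m}

theorem cco_d12 (Q : Prof m) {X : ℝ} (hX : 0 ≤ X) : HasDerivAt Q.q (deriv Q.q X) X ∧
    HasDerivAt (deriv Q.q) (deriv (deriv Q.q) X) X := by
  obtain ⟨δ, hδ, h⟩ := Q.smooth
  have hn : Ioi (-δ) ∈ 𝓝 X := Ioi_mem_nhds (by linarith)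
  have h1 : ContDiffOn ℝ (⊤ : ℕ∞) (deriv Q.q) (Ioi (-δ)) :=
    h.deriv_of_isOpen isOpen_Ioi (by simp)
  exact ⟨((h.contDiffAt hn).differentiableAt (by simp)).hasDerivAt,
    ((h1.contDiffAt hn).differentiableAt (by simp)).hasDerivAt⟩

/-- `X lg'` -/
def cco_xl (Q : Prof m) (X : ℝ) : ℂ :=
  Q.P X - Q.β - I * aa m - (6 + I * X) * Q.lg X - X * Q.lg X ^ 2

theorem cco_dlg (Q : Prof m) {X : ℝ} (hX : 0 < X) : HasDerivAt Q.lg (cco_xl Q X / X) X := by
  obtain ⟨h1, h2⟩ := cco_d12 Q hX.le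
  have hq := Q.ne X hX.le
  have hX' : (X : ℂ) ≠ 0 := ofReal_ne_zero.2 hX.ne'
  refine (h2.fun_div h1 hq).congr_deriv ?_
  have e := Q.ode X hX.le
  simp only [cco_xl, Prof.lg, Prof.P]
  push_cast
  field_simp
  linear_combination Q.q X * e

theorem cco_clg (Q : Prof m) : ContinuousOn Q.lg (Ici 0) := fun X hX =>
  ((cco_d12 Q hX).2.continuousAt.div (cco_d12 Q hX).1.continuousAt (Q.ne X hX)).continuousWithinAt

theorem cco_dR (Q : Prof m) {X : ℝ} (hX : 0 ≤ X) : HasDerivAt (fun Y => normSq (Q.q Y))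
    (2 * (Q.lg X).re * normSq (Q.q X)) X := by
  have h := (cco_d12 Q hX).1.norm_sq
  simp only [← Complex.normSq_eq_norm_sq] at h
  refine h.congr_deriv ?_
  have e : deriv Q.q X = Q.lg X * Q.q X := (div_mul_cancel₀ _ (Q.ne X hX)).symm
  rw [Complex.inner, e, mul_assoc (Q.lg X), Complex.mul_conj, Complex.re_mul_ofReal, mul_assoc]

theorem cco_dP (Q : Prof m) {X : ℝ} (hX : 0 ≤ X) :
    HasDerivAt Q.P (2 * m * (Q.lg X).re * Q.P X) X := by
  refine ((cco_dR Q hX).fun_pow m).congr_deriv ?_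
  have e : normSq (Q.q X) ^ m = normSq (Q.q X) ^ (m - 1) * normSq (Q.q X) :=
    (pow_sub_one_mul (Nat.one_le_iff_ne_zero.1 Q.m_pos) _).symm
  rw [Prof.P, e]
  ring

theorem cco_cP (Q : Prof m) : ContinuousOn Q.P (Ici 0) := fun _ hX =>
  (cco_dP Q hX).continuousAt.continuousWithinAt

theorem cco_cxl (Q : Prof m) : ContinuousOn (cco_xl Q) (Ici 0) := by
  have h1 := cco_clg Q
  have h2 : ContinuousOn (fun X => (Q.P X : ℂ)) (Ici 0) :=
    continuous_ofReal.comp_continuousOn (cco_cP Q)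
  have h3 : ContinuousOn (fun X : ℝ => (X : ℂ)) (Ici 0) := continuous_ofReal.continuousOn
  exact (((h2.sub continuousOn_const).sub continuousOn_const).sub
    ((continuousOn_const.add (continuousOn_const.mul h3)).mul h1)).sub (h3.mul (h1.pow 2))

theorem cco_a (Q : Prof m) : 0 < aa m ∧ aa m ≤ 1 / 2 ∧ 2 * aa m * m = 1 := by
  have h : (1 : ℝ) ≤ m := by exact_mod_cast Q.m_pos
  refine ⟨by unfold aa; positivity, one_div_le_one_div_of_le (by norm_num) (by linarith), ?_⟩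
  unfold aa
  field_simp

theorem cco_re {X : ℝ} (hX : 0 < X) (z : ℂ) : X * (z / X).re = z.re := by
  rw [Complex.div_ofReal_re]
  field_simp

theorem cco_im {X : ℝ} (hX : 0 < X) (z : ℂ) : X * (z / X).im = z.im := by
  rw [Complex.div_ofReal_im]
  field_simp

theorem cco_div (Q : Prof m) {X : ℝ} (hX : 0 < X) :
    (1 + 2 * (Q.lg X).im) * (6 + 2 * X * (Q.lg X).re) + X * (2 * (cco_xl Q X / X).im) =
      6 - 2 * aa m := by
  rw [mul_left_comm X, cco_im hX]
  simp [cco_xl, pow_two]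
  ring

theorem cco_dw (Q : Prof m) {X : ℝ} (hX : 0 < X) :
    HasDerivAt (fun Y => 1 + 2 * (Q.lg Y).im) (2 * (cco_xl Q X / X).im) X :=
  ((imCLM.hasFDerivAt.comp_hasDerivAt X (cco_dlg Q hX)).const_mul 2).const_add 1

theorem cco_wpos (Q : Prof m) {X : ℝ} (hX : 0 < X) : 0 < 1 + 2 * (Q.lg X).im := by
  have hR : ∀ Y, 0 < Y → 0 < normSq (Q.q Y) := fun Y hY => normSq_pos.2 (Q.ne Y hY.le)
  have h : StrictMonoOn (fun Y : ℝ => Y ^ 6 * normSq (Q.q Y) * (1 + 2 * (Q.lg Y).im)) (Ici 0) := by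
    refine strictMonoOn_of_deriv_pos (convex_Ici 0) ?_ fun Y hY => ?_
    · refine ((continuousOn_id.pow 6).mul fun Y hY =>
        (cco_dR Q hY).continuousAt.continuousWithinAt).mul (continuousOn_const.add
          (continuousOn_const.mul (continuous_im.comp_continuousOn (cco_clg Q))))
    · rw [interior_Ici] at hY
      have hY' : 0 < Y := hY
      have h1 := ((hasDerivAt_pow 6 Y).fun_mul (cco_dR Q hY'.le)).fun_mul (cco_dw Q hY')
      have h2 := cco_div Q hY'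
      have h3 := (cco_a Q).2.1
      have h4 : 0 < Y ^ 5 * normSq (Q.q Y) * (6 - 2 * aa m) :=
        mul_pos (mul_pos (pow_pos hY' 5) (hR Y hY')) (by linarith)
      rw [h1.deriv]
      refine h4.trans_eq ?_
      rw [← h2]
      push_cast
      ring
  have h1 := h (mem_Ici.2 le_rfl) (mem_Ici.2 hX.le) hX
  simp only [ne_eq, OfNat.ofNat_ne_zero, not_false_eq_true, zero_pow, zero_mul] at h1
  exact (mul_pos_iff_of_pos_left (mul_pos (pow_pos hX 6) (hR X hX))).1 h1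

theorem cco_P_nonneg (Q : Prof m) (X : ℝ) : 0 ≤ Q.P X := pow_nonneg (normSq_nonneg _) m

/-- The coefficients of a profile. -/
def cco_co (Q : Prof m) : Co where
  R X := normSq (Q.q X)
  al X := (Q.lg X).re
  al' X := (cco_xl Q X / X).re
  w X := 1 + 2 * (Q.lg X).im
  w' X := 2 * (cco_xl Q X / X).im
  M X := 2 * m * Q.P X
  M' X := 2 * m * (2 * m * (Q.lg X).re * Q.P X)
  κ := 6 - 2 * aa m
  dR X hX := cco_dR Q hX.le
  dal X hX := reCLM.hasFDerivAt.comp_hasDerivAt X (cco_dlg Q hX)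
  dw X hX := cco_dw Q hX
  dM X hX := (cco_dP Q hX.le).const_mul _
  cal := continuous_re.comp_continuousOn (((cco_cxl Q).mono Ioi_subset_Ici_self).div
    continuous_ofReal.continuousOn fun X hX => ofReal_ne_zero.2 (ne_of_gt hX))
  cw := continuousOn_const.mul (continuous_im.comp_continuousOn
    (((cco_cxl Q).mono Ioi_subset_Ici_self).div
      continuous_ofReal.continuousOn fun X hX => ofReal_ne_zero.2 (ne_of_gt hX)))
  cM := (continuousOn_const.mul ((continuousOn_const.mul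
    (continuous_re.comp_continuousOn (cco_clg Q))).mul (cco_cP Q))).mono Ioi_subset_Ici_self
  div X hX := cco_div Q hX
  R_pos X hX := normSq_pos.2 (Q.ne X hX.le)
  w_pos X hX := cco_wpos Q hX
  M_nonneg X _ := mul_nonneg (by positivity) (cco_P_nonneg Q X)
  κ_mem := ⟨by linarith [(cco_a Q).2.1], by linarith [(cco_a Q).1]⟩
  loc Y := by
    have hs : Icc (0 : ℝ) Y ⊆ Ici 0 := Icc_subset_Ici_self
    have hR : ContinuousOn (fun Y => normSq (Q.q Y)) (Ici 0) := fun X hX =>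
      (cco_dR Q hX).continuousAt.continuousWithinAt
    obtain ⟨K1, h1⟩ := isCompact_Icc.exists_bound_of_continuousOn (hR.mono hs)
    obtain ⟨K2, h2⟩ := isCompact_Icc.exists_bound_of_continuousOn ((cco_clg Q).mono hs)
    obtain ⟨K3, h3⟩ := isCompact_Icc.exists_bound_of_continuousOn ((cco_cxl Q).mono hs)
    obtain ⟨K4, h4⟩ := isCompact_Icc.exists_bound_of_continuousOn ((cco_cP Q).mono hs)
    refine ⟨1 + K1 + 2 * K2 + 2 * K3 + 2 * m * K4 + 2 * m * (2 * m * K2 * K4), fun X hX => ?_⟩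
    have hX' := Ioc_subset_Icc_self hX
    have a1 := (le_abs_self _).trans (h1 X hX')
    have a2 := (abs_re_le_norm _).trans (h2 X hX')
    have a3 := (le_abs_self _).trans ((abs_im_le_norm _).trans (h2 X hX'))
    have a4 := (abs_re_le_norm _).trans (h3 X hX')
    have a5 := (abs_im_le_norm _).trans (h3 X hX')
    have a6 := (le_abs_self _).trans (h4 X hX')
    have b1 := (normSq_nonneg _).trans a1
    have b2 := (abs_nonneg _).trans a2
    have b3 := (abs_nonneg _).trans a4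
    have hP := cco_P_nonneg Q X
    have b4 := hP.trans a6
    have b5 : 0 ≤ 2 * (m : ℝ) * K4 := by positivity
    have b6 : 0 ≤ 2 * (m : ℝ) * (2 * m * K2 * K4) := by positivity
    have a7 : 2 * m * Q.P X ≤ 2 * m * K4 := by gcongr
    have a8 : |2 * m * (2 * m * (Q.lg X).re * Q.P X)| ≤ 2 * m * (2 * m * K2 * K4) := by
      simp only [abs_mul, Nat.abs_cast, abs_two, abs_of_nonneg hP]
      gcongr
    rw [cco_re hX.1, mul_left_comm X, cco_im hX.1, abs_mul, abs_two]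
    refine ⟨?_, ?_, ?_, ?_, ?_, ?_, ?_⟩ <;> linarith

theorem cco_normG (Q : Prof m) {X : ℝ} (hX : 0 < X) :
    normSq (Q.q X) = X ^ (-2 * aa m) * ‖Q.G X‖ ^ 2 := by
  have e : (nu0 m Q.β).re = aa m := by simp [nu0]
  rw [Prof.G, Gt, norm_mul, norm_cpow_eq_rpow_re_of_pos hX, e, mul_pow, ← Real.rpow_two,
    ← Real.rpow_mul hX.le, ← mul_assoc, ← Real.rpow_add hX, Complex.normSq_eq_norm_sq]
  simp [mul_comm]

theorem cco_W1 (Q : Prof m) {X : ℝ} (hX : 0 < X) :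
    Q.W1 X = (((m + 1) * (X * Q.P X) : ℝ) : ℂ) := by
  have e : -2 * aa m * m = -1 := by linarith [(cco_a Q).2.2]
  have h : X * Q.P X = normSq (Q.G X) ^ m := by
    rw [Prof.P, cco_normG Q hX, mul_pow, ← Real.rpow_mul_natCast hX.le, e, Real.rpow_neg_one,
      ← mul_assoc, mul_inv_cancel₀ hX.ne', one_mul, Complex.normSq_eq_norm_sq]
  rw [h, Prof.W1]
  push_cast
  rfl

theorem cco_DuW (Q : Prof m) {X : ℝ} (hX : 0 < X) : Du Q.W1 X =
    ((-X ^ 2 * ((m + 1) * (Q.P X + X * (2 * m * (Q.lg X).re * Q.P X))) : ℝ) : ℂ) := by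
  have h := ((((hasDerivAt_id' X).fun_mul (cco_dP Q hX.le)).const_mul
    ((m : ℝ) + 1)).ofReal_comp).congr_of_eventuallyEq
      (eventually_of_mem (Ioi_mem_nhds hX) fun Y hY => cco_W1 Q hY)
  rw [Du, h.deriv]
  push_cast
  ring

theorem cco_DuG (Q : Prof m) {X : ℝ} (hX : 0 < X) :
    Du Q.G X = -(X * Q.G X * (nu0 m Q.β + X * Q.lg X)) := by
  have hX' : (X : ℂ) ≠ 0 := ofReal_ne_zero.2 hX.ne'
  have h1 := (Complex.hasStrictDerivAt_cpow_const (c := nu0 m Q.β)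
    (ofReal_mem_slitPlane.2 hX)).hasDerivAt.comp_ofReal
  have h : HasDerivAt Q.G _ X := h1.fun_mul (cco_d12 Q hX.le).1
  have hq := Q.ne X hX.le
  rw [Du, h.deriv, Complex.cpow_sub _ _ hX', Complex.cpow_one, Prof.G, Gt, Prof.lg]
  field_simp

theorem cco_lg {X0 ε C : ℝ} (hC : 0 < C) (hε : ε ∈ Ioc (0 : ℝ) (1 / 4)) (h : Q.Good X0 ε C)
    {X : ℝ} (hX : 0 < X) : ‖(X : ℂ) * Q.lg X‖ ≤ 1 + C ^ 2 ∧ ‖Q.lg X‖ ≤ 1 + C ^ 2 := by
  obtain ⟨⟨b1, b2⟩, b3, b4⟩ := h.box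
  norm_num [Xlo, Xhi, βlo, βhi] at b1 b2 b3 b4
  have hn : ‖(X : ℂ) * Q.lg X‖ = X * ‖Q.lg X‖ := by
    rw [norm_mul, norm_real, Real.norm_of_nonneg hX.le]
  have h0 := norm_nonneg (Q.lg X)
  rcases le_total X X0 with hx | hx
  · have h1 := (h.near X ⟨hX.le, hx⟩).2.trans hε.2
    rw [hn]
    constructor <;> nlinarith
  · have h1 : ‖Du Q.G X‖ ≤ C := h.jets 1 (by norm_num) X hx
    have h2 := h.low X hx
    rw [div_le_iff₀ hC] at h2
    rw [cco_DuG Q hX, norm_neg, norm_mul, norm_mul, norm_real, Real.norm_of_nonneg hX.le] at h1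
    have h3 := norm_nonneg (nu0 m Q.β + X * Q.lg X)
    have h4 : ‖nu0 m Q.β + X * Q.lg X‖ ≤ C ^ 2 := by
      have h5 := mul_le_mul_of_nonneg_right h1 hC.le
      have h6 := mul_le_mul_of_nonneg_right h2 h3
      have h7 : 0 ≤ ‖Q.G X‖ * C * ‖nu0 m Q.β + X * Q.lg X‖ := by positivity
      nlinarith
    have h5 : ‖nu0 m Q.β‖ ≤ 1 := by
      refine (norm_sub_le _ _).trans ?_
      rw [norm_mul, norm_I, norm_real, norm_real, Real.norm_of_nonneg (cco_a Q).1.le,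
        Real.norm_of_nonneg (by linarith)]
      linarith [(cco_a Q).2.1]
    have h6 : ‖(X : ℂ) * Q.lg X‖ ≤ 1 + C ^ 2 := by
      have h7 := norm_sub_le (nu0 m Q.β + X * Q.lg X) (nu0 m Q.β)
      rw [add_sub_cancel_left] at h7
      linarith
    refine ⟨h6, le_trans ?_ h6⟩
    rw [hn]
    nlinarith

theorem cco_xl_le (Q : Prof m) {X A B : ℝ} (h1 : ‖(X : ℂ) * Q.lg X‖ ≤ A) (h2 : ‖Q.lg X‖ ≤ B) :
    ‖cco_xl Q X‖ ≤ |Q.P X - Q.β| + aa m + 6 * B + A + A * B := by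
  have e : cco_xl Q X = ((Q.P X - Q.β : ℝ) : ℂ) - I * aa m - 6 * Q.lg X - I * (X * Q.lg X) -
      X * Q.lg X * Q.lg X := by
    rw [cco_xl]
    push_cast
    ring
  rw [e]
  refine norm_sub_le_of_le (norm_sub_le_of_le (norm_sub_le_of_le (norm_sub_le_of_le ?_ ?_) ?_) ?_) ?_
  · rw [norm_real, Real.norm_eq_abs]
  · rw [norm_mul, norm_I, norm_real, Real.norm_of_nonneg (cco_a Q).1.le, one_mul]
  · rw [norm_mul]
    simpa using h2
  · rwa [norm_mul, norm_I, one_mul]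
  · rw [norm_mul]
    exact mul_le_mul h1 h2 (norm_nonneg _) ((norm_nonneg _).trans h1)

theorem cco_out {X0 ε C : ℝ} (hC : 0 < C) (h : Q.Good X0 ε C) {X : ℝ} (hx : X0 ≤ X) :
    1 / C ^ 2 ≤ ‖Q.G X‖ ^ 2 ∧ ‖Q.G X‖ ^ 2 ≤ C ^ 2 := by
  have h1 : ‖Q.G X‖ ≤ C := h.jets 0 (by norm_num) X hx
  refine ⟨?_, pow_le_pow_left₀ (norm_nonneg _) h1 2⟩
  rw [← one_pow 2, ← div_pow]
  exact pow_le_pow_left₀ (by positivity) (h.low X hx) 2

end Vale.Agent.P139
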