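import Vale.Agent.P139.Def

/-! P139 part C: the linearised system in amplitude/phase variables (PROOF.md, section C). -/

noncomputable section

open MeasureTheory Filter Topology Set Complex
open scoped ComplexConjugate

namespace Vale.Agent.P139

/-- Coefficients: `R = |q|²`, `al = re (q'/q)`, `w = 1 + 2 im (q'/q)`, `M = 2 m |q|^(2m)`. -/
structure Co where
  R : ℝ → ℝ
  al : ℝ → ℝ
  al' : ℝ → ℝ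
  w : ℝ → ℝ
  w' : ℝ → ℝ
  M : ℝ → ℝ
  M' : ℝ → ℝ
  κ : ℝ
  dR : ∀ X, 0 < X → HasDerivAt R (2 * al X * R X) X
  dal : ∀ X, 0 < X → HasDerivAt al (al' X) X
  dw : ∀ X, 0 < X → HasDerivAt w (w' X) X
  dM : ∀ X, 0 < X → HasDerivAt M (M' X) X
  cal : ContinuousOn al' (Ioi 0)
  cw : ContinuousOn w' (Ioi 0)
  cM : ContinuousOn M' (Ioi 0)
  div : ∀ X, 0 < X → w X * (6 + 2 * X * al X) + X * w' X = κ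
  R_pos : ∀ X, 0 < X → 0 < R X
  w_pos : ∀ X, 0 < X → 0 < w X
  M_nonneg : ∀ X, 0 < X → 0 ≤ M X
  κ_mem : κ ∈ Icc (5 : ℝ) 6
  loc : ∀ Y, ∃ K, ∀ X ∈ Ioc 0 Y, R X ≤ K ∧ |al X| ≤ K ∧ w X ≤ K ∧ |X * al' X| ≤ K ∧
    |X * w' X| ≤ K ∧ M X ≤ K ∧ |M' X| ≤ K

namespace Co
variable (c : Co)

/-- Uniform bounds; `a` is the exponent of the decay of `|q|`. -/
structure Bd (X0 ε K a : ℝ) : Prop where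
  X0_mem : X0 ∈ Icc (2 : ℝ) 3
  a_mem : a ∈ Icc (0 : ℝ) (1 / 2)
  in_R : ∀ X ∈ Ioc 0 (X0 + 1), 1 / K ≤ c.R X ∧ c.R X ≤ K
  in_al : ∀ X ∈ Ioc 0 (X0 + 1), |c.al X| ≤ K ∧ |c.al X + X * c.al' X| ≤ K
  all_w : ∀ X, 0 < X → c.w X ≤ K ∧ |X * c.w' X| ≤ K ∧ |X * c.al X| ≤ K
  small : ∀ X ∈ Ioc 0 X0, |c.al X| ≤ ε
  l1 : ∫ X in (0 : ℝ)..X0, |c.al X + X * c.al' X| ≤ K * ε
  mono : ∀ X ∈ Ioc 0 X0, X * c.M' X ≤ ε * c.M X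
  core : ∀ X ∈ Ioc 0 (X0 - ε), 1 / ε ≤ c.M X
  ext : ∀ X, X0 ≤ X → X * c.M X ≤ K * ε ∧ X * |X * c.M' X| ≤ K * ε
  out_R : ∀ X, X0 ≤ X → X ^ (-2 * a) / K ≤ c.R X ∧ c.R X ≤ K * X ^ (-2 * a)

/-- `u` has derivative `u1` and `D u = v`, with the behaviour at `0` of a bounded `C¹` function of `r`. -/
structure Dv (L : ℝ) (u u1 v : ℝ → ℂ) : Prop where
  d1 : ∀ X, 0 < X → HasDerivAt u (u1 X) X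
  d2 : ∀ X, 0 < X → HasDerivAt (fun Y => (c.R Y * Y ^ 6 : ℝ) * u1 Y)
    ((c.R X * X ^ 5 : ℝ) * (L / (4 * X) * u X + v X)) X
  cv : ContinuousOn v (Ioi 0)
  at0 : ∃ K, ∀ X ∈ Ioc (0 : ℝ) 1, ‖u X‖ ≤ K ∧ √X * ‖u1 X‖ ≤ K ∧ ‖v X‖ ≤ K

/-- The system `D ψ = -(λ + T) η + sη`, `D η = (λ + T) ψ + M η - sψ`. -/
structure Sys (L : ℝ) (lam : ℂ) (η η1 ψ ψ1 sη sψ : ℝ → ℂ) : Prop where
  L_nonneg : 0 ≤ L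
  dψ : c.Dv L ψ ψ1 fun X => -(lam * η X + c.w X * X * η1 X) + sη X
  dη : c.Dv L η η1 fun X => lam * ψ X + c.w X * X * ψ1 X + c.M X * η X - sψ X
  cη : ContinuousOn sη (Ioi 0)
  cψ : ContinuousOn sψ (Ioi 0)
  s0 : ∃ K, ∀ X ∈ Ioc (0 : ℝ) 1, ‖sη X‖ ≤ K ∧ ‖sψ X‖ ≤ K

/-- `J = ρ² X⁶`. -/
def J (X : ℝ) : ℝ := c.R X * X ^ 6

/-- The density of `dm`. -/
def dm (X : ℝ) : ℝ := c.R X * X ^ 5

/-- Gradient energy density (with `dm`). -/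
def gr (L : ℝ) (u u1 : ℝ → ℂ) (X : ℝ) : ℝ :=
  c.R X * (X ^ 6 * ‖u1 X‖ ^ 2 + L / 4 * X ^ 4 * ‖u X‖ ^ 2)

/-- Gradient energy on `[0, Y]`. -/
def Gr (L : ℝ) (u u1 : ℝ → ℂ) (Y : ℝ) : ℝ := ∫ X in (0 : ℝ)..Y, c.gr L u u1 X

/-- Mass on `[Y0, Y]`. -/
def Ms (u : ℝ → ℂ) (Y0 Y : ℝ) : ℝ := ∫ X in Y0..Y, c.dm X * ‖u X‖ ^ 2

/-- Potential energy on `[0, Y]`. -/
def Pot (u : ℝ → ℂ) (Y : ℝ) : ℝ := ∫ X in (0 : ℝ)..Y, c.dm X * c.M X * ‖u X‖ ^ 2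

/-- Total energy on `[0, Y]`. -/
def En (L : ℝ) (η η1 ψ ψ1 : ℝ → ℂ) (Y : ℝ) : ℝ := c.Gr L ψ ψ1 Y + c.Gr L η η1 Y + c.Pot η Y

end Co

namespace Prof
variable {m : ℕ} (Q : Prof m)

def Fη (f g : ℝ → ℂ) (X : ℝ) : ℂ := (f X / Q.q X + g X / conj (Q.q X)) / 2

def Fψ (f g : ℝ → ℂ) (X : ℝ) : ℂ := (f X / Q.q X - g X / conj (Q.q X)) / (2 * I)

/-- `c` is the coefficient family of the profile. -/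
def IsCo (c : Co) : Prop := ∀ X, 0 < X → c.R X = normSq (Q.q X) ∧ c.al X = (Q.lg X).re ∧
  c.w X = 1 + 2 * (Q.lg X).im ∧ c.M X = 2 * m * Q.P X

/-- The symmetry mode with eigenvalue `z`. -/
def IsMode (l : ℕ) (z : ℂ) (e : ℝ → ℂ) : Prop :=
  (l = 0 ∧ z = 0 ∧ e = Q.eP) ∨ (l = 0 ∧ z = 1 ∧ e = Q.eT) ∨ (l = 1 ∧ z = 1 / 2 ∧ e = Q.eX)

end Prof

end Vale.Agent.P139
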