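import Vale.Agent.P139.C.Def

/-! P139 task C/Int (PROOF.md section C). Integrability and the fundamental theorem on `(0, Y]`
(`integral_eq_sub_of_hasDerivAt_of_tendsto`), Cauchy-Schwarz, elementary facts on the energies.
`u1` is continuous because `J u1` is differentiable and `J > 0`. Use `c.loc` for bounds near `0`.
-/

noncomputable section

open MeasureTheory Filter Topology Set Complex
open scoped ComplexConjugate

namespace Vale.Agent.P139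

variable {c : Co} {L Y : ℝ} {lam : ℂ} {u u1 v η η1 ψ ψ1 sη sψ f g ef eg : ℝ → ℂ} {m l : ℕ}
  {Q : Prof m}

theorem c_intble {E : Type} [NormedAddCommGroup E] {φ : ℝ → E} (hc : ContinuousOn φ (Ioi 0))
    (hb : ∃ K, ∀ X ∈ Ioc (0 : ℝ) 1, ‖φ X‖ ≤ K) {Y0 Y : ℝ} (h0 : 0 ≤ Y0) (h1 : 0 ≤ Y) :
    IntervalIntegrable φ volume Y0 Y := by
  obtain ⟨K, hK⟩ := hb
  have a1 : IntegrableOn φ (Ioc (0 : ℝ) 1) volume :=
    IntegrableOn.of_bound measure_Ioc_lt_top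
      ((hc.mono Ioc_subset_Ioi_self).aestronglyMeasurable measurableSet_Ioc) K
      (ae_restrict_of_forall_mem measurableSet_Ioc hK)
  have a2 : IntegrableOn φ (Icc (1 : ℝ) (max Y0 Y)) volume :=
    (hc.mono fun x hx => lt_of_lt_of_le one_pos hx.1).integrableOn_compact isCompact_Icc
  rw [intervalIntegrable_iff]
  refine (a1.union a2).mono_set fun x hx => ?_
  rcases le_total x 1 with h | h
  · exact Or.inl ⟨(le_min h0 h1).trans_lt hx.1, h⟩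
  · exact Or.inr ⟨h, hx.2⟩

theorem c_ftc {E : Type} [NormedAddCommGroup E] [NormedSpace ℝ E] [CompleteSpace E] {Φ φ : ℝ → E}
    (hd : ∀ X, 0 < X → HasDerivAt Φ (φ X) X) (hc : ContinuousOn φ (Ioi 0))
    (hb : ∃ K, ∀ X ∈ Ioc (0 : ℝ) 1, ‖φ X‖ ≤ K) (h0 : ∃ K, ∀ X ∈ Ioc (0 : ℝ) 1, ‖Φ X‖ ≤ K * X)
    (hY : 0 < Y) : ∫ X in (0 : ℝ)..Y, φ X = Φ Y := by
  obtain ⟨K, hK⟩ := h0
  have t0 : Tendsto Φ (𝓝[>] 0) (𝓝 0) := by
    have t1 : Tendsto (fun X : ℝ => K * X) (𝓝[>] 0) (𝓝 0) := by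
      have : Tendsto (fun X : ℝ => K * X) (𝓝 0) (𝓝 (K * 0)) :=
        (continuous_const.mul continuous_id).tendsto 0
      rw [mul_zero] at this
      exact this.mono_left nhdsWithin_le_nhds
    refine squeeze_zero_norm' ?_ t1
    filter_upwards [Ioc_mem_nhdsGT (zero_lt_one' ℝ)] with X hX using hK X hX
  rw [intervalIntegral.integral_eq_sub_of_hasDerivAt_of_tendsto hY (fun x hx => hd x hx.1)
    (c_intble hc hb le_rfl hY.le) t0 ((hd Y hY).continuousAt.tendsto.mono_left nhdsWithin_le_nhds),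
    sub_zero]

theorem cint_nonneg {φ : ℝ → ℝ} {a b : ℝ} (h : a ≤ b) (h0 : ∀ X ∈ Ioc a b, 0 ≤ φ X) :
    0 ≤ ∫ X in a..b, φ X := by
  rw [intervalIntegral.integral_of_le h]
  exact setIntegral_nonneg measurableSet_Ioc h0

theorem c_cs {φ p q : ℝ → ℝ} {Y0 : ℝ} (h : Y0 ≤ Y) (hφ : IntervalIntegrable φ volume Y0 Y)
    (hp : IntervalIntegrable p volume Y0 Y) (hq : IntervalIntegrable q volume Y0 Y)
    (hp0 : ∀ X ∈ Ioc Y0 Y, 0 ≤ p X) (hq0 : ∀ X ∈ Ioc Y0 Y, 0 ≤ q X)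
    (hle : ∀ X ∈ Ioc Y0 Y, φ X ^ 2 ≤ p X * q X) :
    |∫ X in Y0..Y, φ X| ≤ √(∫ X in Y0..Y, p X) * √(∫ X in Y0..Y, q X) := by
  have hP : 0 ≤ ∫ X in Y0..Y, p X := cint_nonneg h hp0
  have key : ∀ s : ℝ, 0 ≤ (∫ X in Y0..Y, p X) * (s * s) + (2 * ∫ X in Y0..Y, φ X) * s +
      ∫ X in Y0..Y, q X := by
    intro s
    have e : ∫ X in Y0..Y, (p X * (s * s) + 2 * φ X * s + q X) =
        (∫ X in Y0..Y, p X) * (s * s) + (2 * ∫ X in Y0..Y, φ X) * s + ∫ X in Y0..Y, q X := by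
      rw [intervalIntegral.integral_add ((hp.mul_const _).add ((hφ.const_mul 2).mul_const s)) hq,
        intervalIntegral.integral_add (hp.mul_const _) ((hφ.const_mul 2).mul_const s),
        intervalIntegral.integral_mul_const, intervalIntegral.integral_mul_const,
        intervalIntegral.integral_const_mul]
    rw [← e]
    refine cint_nonneg h fun X hX => ?_
    have a1 := mul_nonneg (hp0 X hX) (mul_self_nonneg s)
    have a2 := hq0 X hX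
    have a3 := mul_le_mul_of_nonneg_right (hle X hX) (mul_self_nonneg s)
    have a4 : |2 * φ X * s| ≤ p X * (s * s) + q X :=
      abs_le_of_sq_le_sq (by nlinarith [sq_nonneg (p X * (s * s) - q X)]) (add_nonneg a1 a2)
    linarith [neg_abs_le (2 * φ X * s)]
  have hd := discrim_le_zero key
  rw [discrim] at hd
  rw [← Real.sqrt_mul hP]
  exact Real.abs_le_sqrt (by nlinarith)

theorem c_mono {φ p : ℝ → ℝ} {Y0 : ℝ} (h : Y0 ≤ Y) (hφ : IntervalIntegrable φ volume Y0 Y)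
    (hp : IntervalIntegrable p volume Y0 Y) (hle : ∀ X ∈ Ioc Y0 Y, φ X ≤ p X) :
    ∫ X in Y0..Y, φ X ≤ ∫ X in Y0..Y, p X :=
  intervalIntegral.integral_mono_on_of_le_Ioo h hφ hp fun X hX => hle X (Ioo_subset_Ioc_self hX)

theorem Co.cR (c : Co) : ContinuousOn c.R (Ioi 0) := fun X hX => (c.dR X hX).continuousAt.continuousWithinAt

theorem Co.cal0 (c : Co) : ContinuousOn c.al (Ioi 0) := fun X hX => (c.dal X hX).continuousAt.continuousWithinAt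

theorem Co.cw0 (c : Co) : ContinuousOn c.w (Ioi 0) := fun X hX => (c.dw X hX).continuousAt.continuousWithinAt

theorem Co.cM0 (c : Co) : ContinuousOn c.M (Ioi 0) := fun X hX => (c.dM X hX).continuousAt.continuousWithinAt

theorem Co.Dv.c0 (h : c.Dv L u u1 v) : ContinuousOn u (Ioi 0) :=
  fun X hX => (h.d1 X hX).continuousAt.continuousWithinAt

theorem Co.Dv.c1 (h : c.Dv L u u1 v) : ContinuousOn u1 (Ioi 0) := by
  have a1 : ContinuousOn (fun Y : ℝ => ((c.R Y * Y ^ 6 : ℝ) : ℂ) * u1 Y) (Ioi 0) :=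
    fun X hX => (h.d2 X hX).continuousAt.continuousWithinAt
  have a2 : ContinuousOn (fun Y : ℝ => ((c.R Y * Y ^ 6 : ℝ) : ℂ)) (Ioi 0) :=
    continuous_ofReal.comp_continuousOn (c.cR.mul (continuousOn_id.pow 6))
  have a3 : ∀ Y ∈ Ioi (0 : ℝ), ((c.R Y * Y ^ 6 : ℝ) : ℂ) ≠ 0 := fun Y hY =>
    ofReal_ne_zero.2 (mul_pos (c.R_pos Y hY) (pow_pos hY 6)).ne'
  refine (a1.div a2 a3).congr fun Y hY => ?_
  exact (mul_div_cancel_left₀ _ (a3 Y hY)).symm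

theorem cint_cgr (h : c.Dv L u u1 v) : ContinuousOn (c.gr L u u1) (Ioi 0) :=
  c.cR.mul (((continuousOn_id.pow 6).mul (h.c1.norm.pow 2)).add
    ((continuousOn_const.mul (continuousOn_id.pow 4)).mul (h.c0.norm.pow 2)))

theorem cint_dm (c : Co) {X : ℝ} (hX : 0 < X) : 0 ≤ c.dm X :=
  mul_nonneg (c.R_pos X hX).le (pow_nonneg hX.le 5)

theorem cint_w (c : Co) {φ : ℝ → ℝ} (hφ : ContinuousOn φ (Ioi 0))
    (hφb : ∃ K, ∀ X ∈ Ioc (0 : ℝ) 1, ‖φ X‖ ≤ K) (hu : ContinuousOn u (Ioi 0))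
    (hb : ∃ K, ∀ X ∈ Ioc (0 : ℝ) 1, ‖u X‖ ≤ K) {Y0 : ℝ} (h0 : 0 ≤ Y0) (h1 : 0 ≤ Y) :
    IntervalIntegrable (fun X => c.dm X * φ X * ‖u X‖ ^ 2) volume Y0 Y := by
  obtain ⟨K, hK⟩ := hb
  obtain ⟨K', hK'⟩ := c.loc 1
  obtain ⟨K'', hK''⟩ := hφb
  refine c_intble (((c.cR.mul (continuousOn_id.pow 5)).mul hφ).mul (hu.norm.pow 2))
    ⟨K' * K'' * K ^ 2, fun X hX => ?_⟩ h0 h1
  have hR := (c.R_pos X hX.1).le
  have b1 : c.dm X ≤ K' :=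
    (mul_le_of_le_one_right hR (pow_le_one₀ hX.1.le hX.2)).trans (hK' X hX).1
  have b0 := cint_dm c hX.1
  have b2 := (norm_nonneg _).trans (hK'' X hX)
  show ‖c.dm X * φ X * ‖u X‖ ^ 2‖ ≤ _
  rw [norm_mul, norm_mul, Real.norm_of_nonneg b0, Real.norm_of_nonneg (sq_nonneg _)]
  exact mul_le_mul (mul_le_mul b1 (hK'' X hX) (norm_nonneg _) (b0.trans b1))
    (pow_le_pow_left₀ (norm_nonneg _) (hK X hX) 2) (sq_nonneg _) (mul_nonneg (b0.trans b1) b2)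

theorem Co.Dv.int_gr (h : c.Dv L u u1 v) {Y0 : ℝ} (h0 : 0 ≤ Y0) (h1 : 0 ≤ Y) :
    IntervalIntegrable (c.gr L u u1) volume Y0 Y := by
  obtain ⟨K, hK⟩ := h.at0
  obtain ⟨K', hK'⟩ := c.loc 1
  refine c_intble (cint_cgr h) ⟨K' * (K ^ 2 + |L| / 4 * K ^ 2), fun X hX => ?_⟩ h0 h1
  obtain ⟨b1, b2, -⟩ := hK X hX
  have b3 := (hK' X hX).1
  have hR := (c.R_pos X hX.1).le
  have b4 : X ^ 6 * ‖u1 X‖ ^ 2 ≤ K ^ 2 := by
    have e : X ^ 6 * ‖u1 X‖ ^ 2 = X ^ 5 * (√X * ‖u1 X‖) ^ 2 := by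
      rw [mul_pow, Real.sq_sqrt hX.1.le]
      ring
    rw [e]
    exact (mul_le_of_le_one_left (sq_nonneg _) (pow_le_one₀ hX.1.le hX.2)).trans
      (pow_le_pow_left₀ (by positivity) b2 2)
  have b5 : X ^ 4 * ‖u X‖ ^ 2 ≤ K ^ 2 :=
    (mul_le_of_le_one_left (sq_nonneg _) (pow_le_one₀ hX.1.le hX.2)).trans
      (pow_le_pow_left₀ (norm_nonneg _) b1 2)
  unfold Co.gr
  rw [norm_mul, Real.norm_of_nonneg hR]
  refine mul_le_mul b3 ((norm_add_le _ _).trans (add_le_add ?_ ?_)) (norm_nonneg _) (hR.trans b3)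
  · rw [Real.norm_of_nonneg (by positivity)]
    exact b4
  · rw [mul_assoc, norm_mul, Real.norm_of_nonneg (by positivity : 0 ≤ X ^ 4 * ‖u X‖ ^ 2),
      Real.norm_eq_abs, abs_div, abs_of_pos (by norm_num : (0 : ℝ) < 4)]
    exact mul_le_mul_of_nonneg_left b5 (by positivity)

theorem c_int_ms (c : Co) (hu : ContinuousOn u (Ioi 0)) (hb : ∃ K, ∀ X ∈ Ioc (0 : ℝ) 1, ‖u X‖ ≤ K)
    {Y0 : ℝ} (h0 : 0 ≤ Y0) (h1 : 0 ≤ Y) :
    IntervalIntegrable (fun X => c.dm X * ‖u X‖ ^ 2) volume Y0 Y := by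
  simpa only [mul_one] using cint_w c (φ := fun _ => 1) continuousOn_const
    ⟨1, fun _ _ => by simp⟩ hu hb h0 h1

theorem Co.Dv.int_ms (h : c.Dv L u u1 v) {Y0 : ℝ} (h0 : 0 ≤ Y0) (h1 : 0 ≤ Y) :
    IntervalIntegrable (fun X => c.dm X * ‖u X‖ ^ 2) volume Y0 Y :=
  c_int_ms c h.c0 (h.at0.imp fun _ hK X hX => (hK X hX).1) h0 h1

theorem Co.Dv.int_pot (h : c.Dv L u u1 v) {Y0 : ℝ} (h0 : 0 ≤ Y0) (h1 : 0 ≤ Y) :
    IntervalIntegrable (fun X => c.dm X * c.M X * ‖u X‖ ^ 2) volume Y0 Y := by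
  obtain ⟨K, hK⟩ := c.loc 1
  refine cint_w c c.cM0 ⟨K, fun X hX => ?_⟩ h.c0 (h.at0.imp fun _ hK X hX => (hK X hX).1) h0 h1
  rw [Real.norm_of_nonneg (c.M_nonneg X hX.1)]
  exact (hK X hX).2.2.2.2.2.1

theorem c_gr_nonneg (c : Co) (hL : 0 ≤ L) {X : ℝ} (hX : 0 < X) : 0 ≤ c.gr L u u1 X := by
  have := c.R_pos X hX
  unfold Co.gr
  positivity

theorem c_Gr_nonneg (c : Co) (hL : 0 ≤ L) (hY : 0 ≤ Y) : 0 ≤ c.Gr L u u1 Y :=
  cint_nonneg hY fun _ hX => c_gr_nonneg c hL hX.1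

theorem c_Ms_nonneg (c : Co) {Y0 : ℝ} (h0 : 0 ≤ Y0) (h1 : Y0 ≤ Y) : 0 ≤ c.Ms u Y0 Y :=
  cint_nonneg h1 fun X hX => mul_nonneg (cint_dm c (h0.trans_lt hX.1)) (sq_nonneg _)

theorem c_Pot_nonneg (c : Co) (hY : 0 ≤ Y) : 0 ≤ c.Pot u Y :=
  cint_nonneg hY fun X hX =>
    mul_nonneg (mul_nonneg (cint_dm c hX.1) (c.M_nonneg X hX.1)) (sq_nonneg _)

theorem Co.Dv.Gr_mono (h : c.Dv L u u1 v) (hL : 0 ≤ L) {Y0 : ℝ} (h0 : 0 ≤ Y0) (h1 : Y0 ≤ Y) :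
    c.Gr L u u1 Y0 ≤ c.Gr L u u1 Y :=
  intervalIntegral.integral_mono_interval le_rfl h0 h1
    (ae_restrict_of_forall_mem measurableSet_Ioc fun _ hX => c_gr_nonneg c hL hX.1)
    (h.int_gr le_rfl (h0.trans h1))

theorem Co.Dv.Pot_mono (h : c.Dv L u u1 v) {Y0 : ℝ} (h0 : 0 ≤ Y0) (h1 : Y0 ≤ Y) :
    c.Pot u Y0 ≤ c.Pot u Y :=
  intervalIntegral.integral_mono_interval le_rfl h0 h1
    (ae_restrict_of_forall_mem measurableSet_Ioc fun X hX =>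
      mul_nonneg (mul_nonneg (cint_dm c hX.1) (c.M_nonneg X hX.1)) (sq_nonneg _))
    (h.int_pot le_rfl (h0.trans h1))

theorem Co.Dv.Ms_mono (h : c.Dv L u u1 v) {Y0 Y1 Y2 : ℝ} (h0 : 0 ≤ Y0) (h1 : Y0 ≤ Y1)
    (h2 : Y1 ≤ Y2) (h3 : Y2 ≤ Y) : c.Ms u Y1 Y2 ≤ c.Ms u Y0 Y :=
  intervalIntegral.integral_mono_interval h1 h2 h3
    (ae_restrict_of_forall_mem measurableSet_Ioc fun _ hX =>
      mul_nonneg (cint_dm c (h0.trans_lt hX.1)) (sq_nonneg _))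
    (h.int_ms h0 (h0.trans (h1.trans (h2.trans h3))))

/-- Vanishing gradient energy. -/
theorem Co.Dv.zero_of_Gr (h : c.Dv L u u1 v) (hL : 0 ≤ L) (hY : 0 < Y) (h0 : c.Gr L u u1 Y = 0) :
    (∀ X ∈ Ioc 0 Y, u1 X = 0 ∧ u X = u Y) ∧ (0 < L → u Y = 0) := by
  have a1 := (intervalIntegral.integral_eq_zero_iff_of_le_of_nonneg_ae hY.le
    (ae_restrict_of_forall_mem measurableSet_Ioc fun _ hX => c_gr_nonneg c hL hX.1)
    (h.int_gr le_rfl hY.le)).1 h0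
  have a2 := Measure.eqOn_Ioc_of_ae_eq volume a1 ((cint_cgr h).mono Ioc_subset_Ioi_self)
    continuousOn_const
  have a3 : ∀ X ∈ Ioc 0 Y, X ^ 6 * ‖u1 X‖ ^ 2 = 0 ∧ L / 4 * X ^ 4 * ‖u X‖ ^ 2 = 0 := by
    intro X hX
    have b1 : c.gr L u u1 X = 0 := a2 hX
    have b2 := (mul_eq_zero.1 b1).resolve_left (c.R_pos X hX.1).ne'
    exact (add_eq_zero_iff_of_nonneg (by positivity) (by positivity)).1 b2
  have a4 : ∀ X ∈ Ioc 0 Y, u1 X = 0 := fun X hX => by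
    have b1 := (mul_eq_zero.1 (a3 X hX).1).resolve_left (pow_pos hX.1 6).ne'
    exact norm_eq_zero.1 (pow_eq_zero_iff two_ne_zero |>.1 b1)
  refine ⟨fun X hX => ⟨a4 X hX, ?_⟩, fun hL' => ?_⟩
  · refine (constant_of_has_deriv_right_zero (f := u) (a := X) (b := Y)
      (h.c0.mono fun x hx => hX.1.trans_le hx.1) (fun x hx => ?_) Y ⟨hX.2, le_rfl⟩).symm
    have b1 := h.d1 x (hX.1.trans_le hx.1)
    rw [a4 x ⟨hX.1.trans_le hx.1, hx.2.le⟩] at b1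
    exact b1.hasDerivWithinAt
  · have b1 := (mul_eq_zero.1 (a3 Y ⟨hY, le_rfl⟩).2).resolve_left (by positivity)
    exact norm_eq_zero.1 (pow_eq_zero_iff two_ne_zero |>.1 b1)

end Vale.Agent.P139
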