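import Vale.Agent.P139.Def

/-! P139 C/ModesAux: symbol classes and the differentiated profile equation. -/

noncomputable section

open MeasureTheory Filter Topology Set Complex
open scoped ComplexConjugate ContDiff

namespace Vale.Agent.P139

variable {L Y : ℝ} {lam : ℂ} {u u1 v η η1 ψ ψ1 sη sψ f g ef eg : ℝ → ℂ} {m l : ℕ}
  {Q : Prof m}

/-- Symbols of order `k`. -/
def cmodes_Sy (k : ℝ) (f : ℝ → ℂ) : Prop := ContDiffOn ℝ ∞ f (Ioi 0) ∧
  ∀ j : ℕ, ∃ C, ∀ X : ℝ, 1 ≤ X → ‖iteratedDeriv j f X‖ ≤ C * X ^ (k - j)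

theorem cmodes_Sy.at {k X : ℝ} (h : cmodes_Sy k f) (hX : 1 ≤ X) (j : ℕ) : ContDiffAt ℝ j f X :=
  (h.1.contDiffAt (Ioi_mem_nhds (one_pos.trans_le hX))).of_le (by exact_mod_cast le_top)

theorem cmodes_Sy.mono {k k' : ℝ} (h : cmodes_Sy k f) (hk : k ≤ k') : cmodes_Sy k' f :=
  ⟨h.1, fun j => (h.2 j).imp fun C hC X hX => (hC X hX).trans (mul_le_mul_of_nonneg_left
    (Real.rpow_le_rpow_of_exponent_le hX (sub_le_sub_right hk _))
    (by simpa using (norm_nonneg _).trans (hC 1 le_rfl)))⟩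

theorem cmodes_Sy.add {k : ℝ} (h : cmodes_Sy k f) (h' : cmodes_Sy k g) :
    cmodes_Sy k fun X => f X + g X := ⟨h.1.add h'.1, fun j => by
  obtain ⟨C, hC⟩ := h.2 j
  obtain ⟨C', hC'⟩ := h'.2 j
  refine ⟨C + C', fun X hX => ?_⟩
  rw [iteratedDeriv_fun_add (h.at hX j) (h'.at hX j), add_mul]
  exact norm_add_le_of_le (hC X hX) (hC' X hX)⟩

theorem cmodes_Sy.cmul {k : ℝ} (h : cmodes_Sy k f) (a : ℂ) : cmodes_Sy k fun X => a * f X :=
  ⟨contDiffOn_const.mul h.1, fun j => by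
    obtain ⟨C, hC⟩ := h.2 j
    refine ⟨‖a‖ * C, fun X hX => ?_⟩
    rw [iteratedDeriv_const_mul_field, norm_mul, mul_assoc]
    exact mul_le_mul_of_nonneg_left (hC X hX) (norm_nonneg _)⟩

theorem cmodes_Sy.mul {k k' : ℝ} (h : cmodes_Sy k f) (h' : cmodes_Sy k' g) :
    cmodes_Sy (k + k') fun X => f X * g X := ⟨h.1.mul h'.1, fun j => by
  choose C hC using h.2
  choose C' hC' using h'.2
  refine ⟨∑ i ∈ Finset.range (j + 1), j.choose i * C i * C' (j - i), fun X hX => ?_⟩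
  rw [iteratedDeriv_fun_mul (h.at hX j) (h'.at hX j), Finset.sum_mul]
  refine norm_sum_le_of_le _ fun i hi => ?_
  rw [norm_mul, norm_mul, Complex.norm_natCast, show k + k' - j = k - i + (k' - (j - i : ℕ)) by
    rw [Nat.cast_sub (Finset.mem_range_succ_iff.1 hi)]; ring, Real.rpow_add (one_pos.trans_le hX)]
  refine (mul_le_mul (mul_le_mul_of_nonneg_left (hC i X hX) (Nat.cast_nonneg _)) (hC' _ X hX)
    (norm_nonneg _) (mul_nonneg (Nat.cast_nonneg _) ((norm_nonneg _).trans (hC i X hX)))).trans_eq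
    (by ring)⟩

theorem cmodes_rpow (s : ℝ) : cmodes_Sy s fun X => ((X ^ s : ℝ) : ℂ) := by
  have h : ∀ {n : WithTop ℕ∞} {X : ℝ}, 0 < X → ContDiffAt ℝ n (fun X : ℝ => X ^ s) X := fun hX =>
    Real.contDiffAt_rpow_const_of_ne hX.ne'
  refine ⟨fun X hX => (ofRealCLM.contDiff.contDiffAt.comp X (h hX)).contDiffWithinAt, fun j =>
    ⟨|(descPochhammer ℝ j).eval s|, fun X hX => ?_⟩⟩
  have e := iteratedDeriv_smul_const (n := j) (h (one_pos.trans_le hX)) (1 : ℂ)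
  simp only [real_smul, mul_one] at e
  rw [e, iteratedDeriv_eq_iterate, Real.iter_deriv_rpow_const, norm_real, norm_mul,
    Real.norm_of_nonneg (r := X ^ _) (by positivity), Real.norm_eq_abs]

theorem cmodes_at (Q : Prof m) {X : ℝ} (hX : 0 ≤ X) : ContDiffAt ℝ ∞ Q.q X ∧
    ContDiffAt ℝ ∞ (deriv Q.q) X ∧ ContDiffAt ℝ ∞ (deriv (deriv Q.q)) X := by
  obtain ⟨δ, hδ, h⟩ := Q.smooth
  have h1 := h.deriv_of_isOpen (m := ∞) isOpen_Ioi (by simp)
  have h2 := h1.deriv_of_isOpen (m := ∞) isOpen_Ioi (by simp)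
  have hm := Ioi_mem_nhds (show -δ < X by linarith)
  exact ⟨h.contDiffAt hm, h1.contDiffAt hm, h2.contDiffAt hm⟩

theorem cmodes_d (Q : Prof m) {X : ℝ} (hX : 0 ≤ X) : HasDerivAt Q.q (deriv Q.q X) X ∧
    HasDerivAt (deriv Q.q) (deriv (deriv Q.q) X) X ∧
      HasDerivAt (deriv (deriv Q.q)) (deriv (deriv (deriv Q.q)) X) X :=
  ⟨((cmodes_at Q hX).1.differentiableAt (by simp)).hasDerivAt,
    ((cmodes_at Q hX).2.1.differentiableAt (by simp)).hasDerivAt,
    ((cmodes_at Q hX).2.2.differentiableAt (by simp)).hasDerivAt⟩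

theorem cmodes_aa (m : ℕ) : 0 ≤ aa m := by
  unfold aa
  positivity

theorem cmodes_q (Q : Prof m) : cmodes_Sy 0 Q.q ∧ cmodes_Sy (-1) (deriv Q.q) := by
  have h : cmodes_Sy 0 Q.q := cmodes_Sy.mono
    ⟨fun X hX => (cmodes_at Q (le_of_lt hX)).1.contDiffWithinAt, Q.symb⟩
    (neg_nonpos.2 (cmodes_aa m))
  refine ⟨h, fun X hX => (cmodes_at Q (le_of_lt hX)).2.1.contDiffWithinAt, fun j => ?_⟩
  rw [← iteratedDeriv_succ', show (-1 : ℝ) - j = 0 - (j + 1 : ℕ) by push_cast; ring]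
  exact h.2 _

theorem cmodes_V (Q : Prof m) (X : ℝ) : ∃ n : ℂ,
    (normSq (Q.q X) : ℂ) ^ m = n * (Q.q X * conj (Q.q X)) ∧
      Q.V1 X = (m + 1) * (n * (Q.q X * conj (Q.q X))) ∧ Q.V2 X = m * n * Q.q X ^ 2 ∧
        n = (Q.q X * conj (Q.q X)) ^ (m - 1) := by
  have h : (normSq (Q.q X) : ℂ) ^ m = (normSq (Q.q X) : ℂ) ^ (m - 1) * (Q.q X * conj (Q.q X)) := by
    rw [mul_conj, ← pow_succ, Nat.sub_add_cancel Q.m_pos]
  exact ⟨_, h, by rw [← h, Prof.V1, Prof.P, ofReal_pow], rfl, by rw [mul_conj]⟩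

theorem cmodes_ode (Q : Prof m) {X : ℝ} (hX : 0 < X) :
    X * deriv (deriv (deriv Q.q)) X + (7 + I * X) * deriv (deriv Q.q) X +
      (Q.β + I * aa m + I) * deriv Q.q X = Q.V1 X * deriv Q.q X + Q.V2 X * conj (deriv Q.q X) := by
  obtain ⟨d0, d1, d2⟩ := cmodes_d Q hX.le
  have d := (hasDerivAt_id' X).ofReal_comp
  have h1 := ((d.fun_mul d2).fun_add (((d.const_mul I).const_add 6).fun_mul d1)).fun_add
    (d0.const_mul (Q.β + I * aa m))
  have h2 := ((d0.fun_mul d0.star).fun_pow m).fun_mul d0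
  have h3 := h1.unique (h2.congr_of_eventuallyEq ((eventually_gt_nhds hX).mono fun Y hY => by
    simpa only [← mul_conj, star_def] using Q.ode Y hY.le))
  obtain ⟨n, e1, e2, e3, e4⟩ := cmodes_V Q X
  rw [← mul_conj] at e1
  simp only [star_def, ← e4, e1, ofReal_one] at h3
  rw [e2, e3]
  linear_combination h3

theorem cmodes_star (e : ℝ → ℂ) (j : ℕ) :
    iteratedDeriv j (fun X => conj (e X)) = fun X => conj (iteratedDeriv j e X) := by
  induction j with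
  | zero => simp only [iteratedDeriv_zero]
  | succ j ih =>
    rw [iteratedDeriv_succ, iteratedDeriv_succ, ih]
    exact deriv.star'

theorem cmodes_sol {z : ℝ} {e e1 e2 b : ℝ → ℂ} (hs : cmodes_Sy 0 e)
    (h1 : ∀ X, 0 < X → HasDerivAt e (e1 X) X) (h2 : ∀ X, 0 < X → HasDerivAt e1 (e2 X) X)
    (ho : ∀ X : ℝ, 0 < X → X * e2 X + (6 + I * X) * e1 X - l * (l + 10) / (4 * X) * e X +
      (Q.β + I * aa m + I * z) * e X - Q.V1 X * e X - Q.V2 X * conj (e X) = 0)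
    (c0 : ContinuousOn e (Icc 0 1)) (c1 : ContinuousOn b (Icc 0 1))
    (hb : ∀ X, 0 < X → (√X : ℝ) * e1 X = b X) : Q.RSol l z e (fun X => conj (e X)) 0 0 := by
  have s1 : deriv (fun X => conj (e X)) = fun X => conj (deriv e X) := deriv.star'
  have s2 : deriv (fun X => conj (deriv e X)) = fun X => conj (deriv (deriv e) X) := deriv.star'
  have k : ∀ X, 0 < X → deriv (deriv e) X = e2 X := fun X hX =>
    ((h2 X hX).congr_of_eventuallyEq ((eventually_gt_nhds hX).mono fun Y hY => (h1 Y hY).deriv)).deriv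
  have sm : ContDiffOn ℝ 10 e (Ioi 0) := hs.1.of_le (WithTop.coe_le_coe.2 le_top)
  refine ⟨sm, conjCLE.contDiff.comp_contDiffOn sm, fun X hX => ?_, fun X hX => ?_, ?_,
    fun j _ => (hs.2 j).imp fun C hC X hX => ?_⟩
  · rw [k X hX, (h1 X hX).deriv, ho X hX, Pi.zero_apply, mul_zero]
  · have := congrArg conj (ho X hX)
    simp only [map_add, map_sub, map_mul, map_div₀, conj_ofReal, conj_I, map_natCast, map_ofNat,
      conj_conj, map_zero, Prof.V1, map_one] at this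
    rw [s1, s2]
    simp only [k X hX, (h1 X hX).deriv, Prof.V1, Pi.zero_apply]
    linear_combination this
  · obtain ⟨C, hC⟩ := isCompact_Icc.exists_bound_of_continuousOn (c0.prodMk c1)
    refine ⟨C, fun X hX => ?_⟩
    have h3 := norm_prod_le_iff.1 (hC X (Ioc_subset_Icc_self hX))
    rw [← hb X hX.1, norm_mul, norm_real, Real.norm_of_nonneg (Real.sqrt_nonneg _),
      ← (h1 X hX.1).deriv] at h3
    simpa only [s1, norm_conj] using ⟨h3.1, h3.2, h3.1, h3.2⟩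
  · simpa only [cmodes_star, norm_conj, and_self, zero_sub] using hC X hX

end Vale.Agent.P139
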