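import Vale.Agent.P139.C.Def
import Vale.Agent.P139.X.Defs
import Vale.Agent.P139.C.ModesAux

/-! P139 task C/Modes (PROOF.md section C). The symmetry modes solve the homogeneous system: differentiate the profile equation
(`(|q|^(2m) q)' = V1 q' + V2 conj q'`, and `V1 q - V2 conj q = P q`). Symbol bounds from `Q.symb` (Leibniz with `X` and `√X`).
Sizes at `X0`: `|q| ≈ 1`, `|lg| ≤ ε`, `P X0 ≤ ε` (from `ext`, `W1 = (m+1) X P`), `Lam eX = √X (q'/2 + X q'')`, `X q''` from the equation, `β ≥ 1/3`.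
-/

noncomputable section

open MeasureTheory Filter Topology Set Complex
open scoped ComplexConjugate ContDiff

namespace Vale.Agent.P139

variable {c : Co} {L Y : ℝ} {lam : ℂ} {u u1 v η η1 ψ ψ1 sη sψ f g ef eg : ℝ → ℂ} {m l : ℕ}
  {Q : Prof m}

theorem cmodes_dP (Q : Prof m) {X : ℝ} (hX : 0 < X) : HasDerivAt Q.eP (I * deriv Q.q X) X :=
  (cmodes_d Q hX.le).1.const_mul I

theorem cmodes_dT (Q : Prof m) {X : ℝ} (hX : 0 < X) : HasDerivAt Q.eT
    (deriv Q.q X + X * deriv (deriv Q.q) X + nu0 m Q.β * deriv Q.q X) X :=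
  ((((hasDerivAt_id' X).ofReal_comp).fun_mul (cmodes_d Q hX.le).2.1).fun_add
    ((cmodes_d Q hX.le).1.const_mul _)).congr_deriv (by simp)

theorem cmodes_dX (Q : Prof m) {X : ℝ} (hX : 0 < X) : HasDerivAt Q.eX
    ((1 / (2 * √X) : ℝ) * deriv Q.q X + (√X : ℝ) * deriv (deriv Q.q) X) X :=
  (Real.hasDerivAt_sqrt hX.ne').ofReal_comp.fun_mul (cmodes_d Q hX.le).2.1

theorem c_mode {z : ℂ} {e : ℝ → ℂ} (h : Q.IsMode l z e) :
    Q.RSol l z e (fun X => conj (e X)) 0 0 := by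
  obtain ⟨q0, q1⟩ := cmodes_q Q
  have c0 : ContinuousOn Q.q (Icc 0 1) := fun X hX =>
    (cmodes_d Q hX.1).1.continuousAt.continuousWithinAt
  have c1 : ContinuousOn (deriv Q.q) (Icc 0 1) := fun X hX =>
    (cmodes_d Q hX.1).2.1.continuousAt.continuousWithinAt
  have c2 : ContinuousOn (deriv (deriv Q.q)) (Icc 0 1) := fun X hX =>
    (cmodes_d Q hX.1).2.2.continuousAt.continuousWithinAt
  rcases h with ⟨rfl, rfl, rfl⟩ | ⟨rfl, rfl, rfl⟩ | ⟨rfl, rfl, rfl⟩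
  · refine cmodes_sol (z := 0) (q0.cmul I) (fun X => cmodes_dP Q)
      (fun X hX => (cmodes_d Q hX.le).2.1.const_mul I) (fun X hX => ?_) (continuousOn_const.mul c0)
      (by fun_prop) fun _ _ => rfl
    obtain ⟨n, e1, e2, e3, -⟩ := cmodes_V Q X
    have h := Q.ode X hX.le
    rw [e1] at h
    simp only [e2, e3, Prof.eP, map_mul, conj_I, Nat.cast_zero, ofReal_zero]
    linear_combination I * h
  · have s := (((cmodes_rpow 1).mul q1).mono (by norm_num)).add (q0.cmul (nu0 m Q.β))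
    simp only [Real.rpow_one] at s
    refine cmodes_sol (z := 1) s (fun X => cmodes_dT Q)
      (fun X hX => ((cmodes_d Q hX.le).2.1.fun_add ((hasDerivAt_id' X).ofReal_comp.fun_mul
        (cmodes_d Q hX.le).2.2)).fun_add ((cmodes_d Q hX.le).2.1.const_mul _)) (fun X hX => ?_)
      (by unfold Prof.eT; fun_prop) (by fun_prop) fun _ _ => rfl
    obtain ⟨n, e1, e2, e3, -⟩ := cmodes_V Q X
    have h := Q.ode X hX.le
    have h' := cmodes_ode Q hX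
    have ha : 2 * m * (aa m : ℂ) = 1 := by
      have : (m : ℂ) ≠ 0 := Nat.cast_ne_zero.2 (Nat.one_le_iff_ne_zero.1 Q.m_pos)
      simp only [aa]
      push_cast
      field_simp
    rw [e1] at h
    rw [e2, e3] at h'
    simp only [e2, e3, Prof.eT, nu0, map_mul, map_add, map_sub, conj_ofReal, conj_I, Nat.cast_zero,
      ofReal_one]
    linear_combination X * h' + (1 + aa m - I * Q.β) * h -
      n * Q.q X ^ 2 * conj (Q.q X) * ha - Q.β * Q.q X * I_sq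
  · have s := ((cmodes_rpow (1 / 2)).mul q1).mono (k' := 0) (by norm_num)
    simp only [← Real.sqrt_eq_rpow] at s
    rw [show (1 / 2 : ℂ) = (1 / 2 : ℝ) by simp]
    refine cmodes_sol (b := fun X => deriv Q.q X / 2 + X * deriv (deriv Q.q) X) s
      (fun X => cmodes_dX Q) (fun X hX => (((hasDerivAt_const X 1).fun_div
        ((Real.hasDerivAt_sqrt hX.ne').const_mul 2) (by positivity)).ofReal_comp.fun_mul
        (cmodes_d Q hX.le).2.1).fun_add ((Real.hasDerivAt_sqrt hX.ne').ofReal_comp.fun_mul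
        (cmodes_d Q hX.le).2.2)) (fun X hX => ?_) (by unfold Prof.eX; fun_prop) (by fun_prop)
      fun X hX => ?_
    all_goals
      have h' := cmodes_ode Q hX
      have h0 : ((√X : ℝ) : ℂ) ≠ 0 := ofReal_ne_zero.2 (Real.sqrt_pos.2 hX).ne'
      have h1 : (X : ℂ) = (√X : ℝ) ^ 2 := by rw [← ofReal_pow, Real.sq_sqrt hX.le]
      try simp only [Prof.eX, map_mul, conj_ofReal]
      push_cast
      generalize ((√X : ℝ) : ℂ) = r at *
      rw [h1] at h' ⊢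
      field_simp
    linear_combination 16 * r ^ 2 * h'

theorem cmodes_F {e : ℝ → ℂ} {X : ℝ} (hX : 0 ≤ X) {A : ℂ} (h : e X = Q.q X * A) :
    ‖Q.Fη e (fun Y => conj (e Y)) X‖ = |A.re| ∧ ‖Q.Fψ e (fun Y => conj (e Y)) X‖ = |A.im| := by
  have h1 := Q.ne X hX
  have h2 : conj (Q.q X) ≠ 0 := by simpa using h1
  simp only [Prof.Fη, Prof.Fψ, h, map_mul, mul_div_cancel_left₀ _ h1, mul_div_cancel_left₀ _ h2,
    add_conj, sub_conj]
  simp

theorem cmodes_sz {q A B : ℂ} (hq : |‖q‖ - 1| ≤ 1 / 1000) (h : 1 / 5 ≤ ‖A‖ ∨ 1 / 5 ≤ ‖B‖)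
    (hA : ‖A‖ ≤ 9) (hB : ‖B‖ ≤ 9) : 1 / 10 ≤ ‖(q * A, q * B)‖ ∧ ‖(q * A, q * B)‖ ≤ 10 := by
  obtain ⟨h1, h2⟩ := abs_le.1 hq
  simp only [Prod.norm_def, norm_mul, le_max_iff, max_le_iff]
  exact ⟨h.imp (fun h => by nlinarith) fun h => by nlinarith,
    by nlinarith [norm_nonneg A], by nlinarith [norm_nonneg B]⟩

theorem cmodes_P {C X0 ε : ℝ} (hG : Q.Good X0 ε C) (h1 : 1 ≤ X0) : Q.P X0 ≤ ε := by
  refine le_trans ?_ (hG.ext 0 (Nat.zero_le _) X0 le_rfl).1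
  have h2 : ‖Q.q X0‖ ≤ ‖Q.G X0‖ := by
    rw [Prof.G, Gt, norm_mul, norm_cpow_eq_rpow_re_of_pos (one_pos.trans_le h1)]
    exact le_mul_of_one_le_left (norm_nonneg _)
      (Real.one_le_rpow h1 (by simpa [nu0] using cmodes_aa m))
  have h3 : 1 ≤ ‖(m + 1 : ℂ)‖ := by
    rw [← Nat.cast_succ, Complex.norm_natCast]
    exact Nat.one_le_cast.2 m.succ_pos
  rw [Function.iterate_zero_apply, Prof.W1, norm_mul, norm_pow, norm_real,
    Real.norm_of_nonneg (normSq_nonneg _), Prof.P, normSq_eq_norm_sq, normSq_eq_norm_sq]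
  refine le_trans ?_ (le_mul_of_one_le_left (by positivity) h3)
  gcongr

theorem c_mode_size {C X0 ε : ℝ} (hG : Q.Good X0 ε C) (hε : ε ∈ Ioc (0 : ℝ) (1 / 1000)) {z : ℂ}
    {e : ℝ → ℂ} (h : Q.IsMode l z e) : 1 / 10 ≤ ‖dat e X0‖ ∧ ‖dat e X0‖ ≤ 10 ∧
      ∀ X ∈ Ioc 0 X0, ‖Q.Fη e (fun Y => conj (e Y)) X‖ ≤ 10 * ε ∧
        ‖Q.Fψ e (fun Y => conj (e Y)) X‖ ≤ 10 := by
  obtain ⟨⟨x1, x2⟩, b1, b2⟩ := hG.box
  norm_num [Xlo, Xhi, βlo, βhi] at x1 x2 b1 b2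
  obtain ⟨ε0, ε1⟩ := hε
  have a0 := cmodes_aa m
  have a1 := hG.a_le
  have h0 : 0 < X0 := by linarith
  have hq : ∀ X, 0 ≤ X → deriv Q.q X = Q.q X * Q.lg X := fun X hX =>
    (mul_div_cancel₀ _ (Q.ne X hX)).symm
  obtain ⟨n1, n2⟩ := hG.near X0 ⟨h0.le, le_rfl⟩
  have nX : ∀ {X : ℝ}, 0 ≤ X → ‖(X : ℂ)‖ = X := fun hX => by rw [norm_real, Real.norm_of_nonneg hX]
  have r : ∀ {X : ℝ}, X ≤ X0 → √X ≤ 2 := fun hX => Real.sqrt_le_iff.2 ⟨zero_le_two, by linarith⟩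
  have hl : ∀ {X t : ℝ}, X ∈ Icc 0 X0 → 0 ≤ t → t ≤ 3 → ‖t * Q.lg X‖ ≤ 3 * ε := fun hX t0 t1 => by
    rw [norm_mul, nX t0]
    exact mul_le_mul t1 (hG.near _ hX).2 (norm_nonneg _) zero_le_three
  have l0 := hl ⟨h0.le, le_rfl⟩ h0.le (by linarith)
  obtain ⟨u, hu, u1⟩ : ∃ u : ℂ, X0 * deriv (deriv Q.q) X0 = Q.q X0 * (u - Q.β) ∧ ‖u‖ ≤ 11 * ε := by
    refine ⟨Q.P X0 - 6 * Q.lg X0 - I * (X0 * Q.lg X0) - I * aa m, ?_, ?_⟩
    · have := Q.ode X0 h0.le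
      rw [hq X0 h0.le] at this
      rw [Prof.P, ofReal_pow]
      linear_combination this
    · refine (norm_sub_le_of_le (norm_sub_le_of_le (norm_sub_le _ _) le_rfl) le_rfl).trans ?_
      rw [norm_mul I, norm_mul I, norm_mul, norm_I, nX a0,
        nX (X := Q.P X0) (pow_nonneg (normSq_nonneg _) _), Complex.norm_ofNat]
      linarith [cmodes_P hG (by linarith)]
  have nβ := nX (show 0 ≤ Q.β by linarith)
  have nν : ‖nu0 m Q.β‖ ≤ 1 := (norm_sub_le _ _).trans (by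
    rw [norm_mul, norm_I, nX a0, nβ]
    linarith)
  rw [← and_assoc]
  rcases h with ⟨-, -, rfl⟩ | ⟨-, -, rfl⟩ | ⟨-, -, rfl⟩
  · refine ⟨?_, fun X hX => ?_⟩
    · rw [show dat Q.eP X0 = (Q.q X0 * I, Q.q X0 * (I * (X0 * Q.lg X0) + 5 / 2 * I)) by
        rw [dat, Lam, (cmodes_dP Q h0).deriv, hq X0 h0.le, Prof.eP]
        exact Prod.ext (by ring) (by ring)]
      refine cmodes_sz (n1.trans ε1) (.inl (by norm_num)) (by norm_num)
        ((norm_add_le _ _).trans ?_)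
      rw [norm_mul I, norm_mul _ I, norm_I, norm_div, Complex.norm_ofNat, Complex.norm_ofNat]
      linarith
    · obtain ⟨e1, e2⟩ := cmodes_F hX.1.le (e := Q.eP) (mul_comm _ _)
      rw [e1, e2]
      norm_num
      exact ε0.le
  · have hA : ∀ X, 0 ≤ X → Q.eT X = Q.q X * (X * Q.lg X + nu0 m Q.β) := fun X hX => by
      rw [Prof.eT, hq X hX]
      ring
    refine ⟨?_, fun X hX => ?_⟩
    · rw [show dat Q.eT X0 = (Q.q X0 * (X0 * Q.lg X0 + nu0 m Q.β), Q.q X0 * (X0 * Q.lg X0 +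
          X0 * (u - Q.β) + nu0 m Q.β * (X0 * Q.lg X0) + 5 / 2 * (X0 * Q.lg X0 + nu0 m Q.β))) by
        rw [dat, Lam, (cmodes_dT Q h0).deriv, hu, hq X0 h0.le, hA X0 h0.le]
        exact Prod.ext rfl (by ring)]
      have k1 := norm_add_le_of_le l0 nν
      have k2 := (abs_le.1 ((abs_im_le_norm _).trans l0)).2
      have k3 := (abs_le.1 (abs_im_le_norm (X0 * Q.lg X0 + nu0 m Q.β))).1
      rw [add_im, show (nu0 m Q.β).im = -Q.β by simp [nu0]] at k3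
      refine cmodes_sz (n1.trans ε1) (.inl (by linarith)) (by linarith) ((norm_add_le_of_le
        (norm_add_le_of_le (norm_add_le_of_le l0 le_rfl) le_rfl) le_rfl).trans ?_)
      rw [norm_mul, norm_mul (nu0 _ _), norm_mul (5 / 2 : ℂ), nX h0.le, norm_div,
        Complex.norm_ofNat, Complex.norm_ofNat]
      nlinarith [norm_sub_le_of_le u1 nβ.le, norm_nonneg (X0 * Q.lg X0)]
    · obtain ⟨e1, e2⟩ := cmodes_F hX.1.le (hA X hX.1.le)
      have k := hl (Ioc_subset_Icc_self hX) hX.1.le (by linarith [hX.2])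
      have k1 := abs_le.1 ((abs_re_le_norm _).trans k)
      rw [e1, e2, add_re, show (nu0 m Q.β).re = aa m by simp [nu0]]
      exact ⟨abs_le.2 ⟨by linarith [k1.1], by linarith [k1.2]⟩,
        (abs_im_le_norm _).trans ((norm_add_le_of_le k nν).trans (by linarith))⟩
  · have hA : ∀ X, 0 ≤ X → Q.eX X = Q.q X * ((√X : ℝ) * Q.lg X) := fun X hX => by
      rw [Prof.eX, hq X hX]
      ring
    have k : ∀ X ∈ Icc 0 X0, ‖(√X : ℝ) * Q.lg X‖ ≤ 3 * ε := fun X hX =>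
      hl hX (Real.sqrt_nonneg _) (by linarith [r hX.2])
    refine ⟨?_, fun X hX => ?_⟩
    · have s0 : 1 ≤ √X0 := Real.one_le_sqrt.2 (by linarith)
      rw [show dat Q.eX X0 = (Q.q X0 * ((√X0 : ℝ) * Q.lg X0),
          Q.q X0 * ((√X0 : ℝ) * (3 * Q.lg X0 + u - Q.β))) by
        rw [dat, Lam, (cmodes_dX Q h0).deriv, hA X0 h0.le, hq X0 h0.le]
        refine Prod.ext rfl ?_
        have h1 : ((√X0 : ℝ) : ℂ) ≠ 0 := ofReal_ne_zero.2 (by positivity)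
        have h2 : (X0 : ℂ) = (√X0 : ℝ) ^ 2 := by rw [← ofReal_pow, Real.sq_sqrt h0.le]
        have h3 : (X0 : ℂ) * (1 / (2 * √X0) : ℝ) = (√X0 : ℝ) / 2 := by
          push_cast
          nth_rw 1 [h2]
          field_simp
        linear_combination (√X0 : ℝ) * hu + Q.q X0 * Q.lg X0 * h3]
      have k1 : ‖3 * Q.lg X0 + u‖ ≤ 14 * ε := (norm_add_le_of_le le_rfl u1).trans (by
        rw [norm_mul, Complex.norm_ofNat]
        linarith)
      have k2 := norm_sub_le_of_le k1 nβ.le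
      have k3 := norm_sub_norm_le (Q.β : ℂ) (3 * Q.lg X0 + u)
      rw [norm_sub_rev, nβ] at k3
      refine cmodes_sz (n1.trans ε1) (.inr ?_) (by linarith [k X0 ⟨h0.le, le_rfl⟩]) ?_ <;>
        rw [norm_mul, nX (Real.sqrt_nonneg _)] <;> nlinarith [r le_rfl]
    · obtain ⟨e1, e2⟩ := cmodes_F hX.1.le (hA X hX.1.le)
      have k1 := k X (Ioc_subset_Icc_self hX)
      rw [e1, e2]
      exact ⟨(abs_re_le_norm _).trans (by linarith), (abs_im_le_norm _).trans (by linarith)⟩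

theorem c_mode_ex {z : ℂ} (Q : Prof m) (h : Sym l z) : ∃ e, Q.IsMode l z e := by
  rcases h with h | h | h
  exacts [⟨_, .inl ⟨h.1, h.2, rfl⟩⟩, ⟨_, .inr (.inl ⟨h.1, h.2, rfl⟩)⟩,
    ⟨_, .inr (.inr ⟨h.1, h.2, rfl⟩)⟩]

theorem Prof.IsMode.sym {z : ℂ} {e : ℝ → ℂ} (h : Q.IsMode l z e) : Sym l z :=
  h.imp (fun h => ⟨h.1, h.2.1⟩) (Or.imp (fun h => ⟨h.1, h.2.1⟩) fun h => ⟨h.1, h.2.1⟩)

end Vale.Agent.P139
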