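import Vale.Agent.P139.C.R2aAux
import Vale.Agent.P139.C.Green
import Vale.Agent.P139.C.Sob

/-! P139 task C/R2a (PROOF.md section C). Regime II, steps (a), (b), (d). (a) `c_green` for `ψ` with `z = conj η`, imaginary part. (b) `c_green` for `η` with
`z = χ² conj ψ`, `χ = max (X - X0) 0` (so `χ²` is `C¹`), `M ≤ K` on `[X0, Y]`. (d) `F = η + iψ` satisfies `D F = M η - i (T + λ) F`;
`c_green` for `η` and `ψ` with `z = χ² conj F`, `χ = max (X - Y0) 0`, real part; absorb the gradient terms and drop `ω χ²‖F‖²`.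
-/

noncomputable section

open MeasureTheory Filter Topology Set Complex
open scoped ComplexConjugate

namespace Vale.Agent.P139

variable {c : Co} {L Y : ℝ} {lam : ℂ} {u u1 v η η1 ψ ψ1 sη sψ f g ef eg : ℝ → ℂ} {m l : ℕ}
  {Q : Prof m}

theorem cr2a_pa {X w K L : ℝ} (lam e e1 p p1 : ℂ) (hX : 0 < X) (h4 : X ≤ 4) (hw : 0 ≤ w)
    (hK : w ≤ K) (hL : 0 ≤ L) :
    0 ≤ (I * (X * (-(lam * e + w * X * e1) + 0) * ((1 : ℝ) * conj e) +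
      X * p1 * (X * ((0 : ℝ) * conj e + (1 : ℝ) * conj e1)) +
        (L / 4 : ℝ) * p * ((1 : ℝ) * conj e))).re + (1 / 2 - lam.im) * (X * ‖e‖ ^ 2) +
      (2 * K ^ 2 + 1 / 2) * (X ^ 2 * ‖e1‖ ^ 2 + L / 4 * ‖e‖ ^ 2) +
      1 / 2 * (X ^ 2 * ‖p1‖ ^ 2 + L / 4 * ‖p‖ ^ 2) := by
  have e0 : (I * (X * (-(lam * e + w * X * e1) + 0) * ((1 : ℝ) * conj e) +
      X * p1 * (X * ((0 : ℝ) * conj e + (1 : ℝ) * conj e1)) +
        (L / 4 : ℝ) * p * ((1 : ℝ) * conj e))).re = X * lam.im * ‖e‖ ^ 2 +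
      w * X ^ 2 * (e1 * conj e).im - X ^ 2 * (p1 * conj e1).im - L / 4 * (p * conj e).im := by
    simp only [mul_re, mul_im, add_re, add_im, neg_re, neg_im, ofReal_re, ofReal_im, conj_re,
      conj_im, I_re, I_im, zero_re, zero_im, Complex.sq_norm, normSq_apply]
    ring
  have a1 := mul_le_mul_of_nonneg_left (cr2a_im e1 e (-(w * X)) 1) hX.le
  have a2 := cr2a_im p1 e1 X X
  have a3 := mul_le_mul_of_nonneg_left (cr2a_im p e 1 1) (show 0 ≤ L / 4 by linarith)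
  have a4 : w ^ 2 * X ≤ K ^ 2 * 4 := by gcongr
  have a5 := mul_le_mul_of_nonneg_right a4 (show 0 ≤ X ^ 2 * ‖e1‖ ^ 2 by positivity)
  have a6 : 0 ≤ K ^ 2 * L * ‖e‖ ^ 2 := by positivity
  rw [e0]
  linarith

theorem cr2a_pb {X w M K L χ : ℝ} (lam e e1 p p1 : ℂ) (hX : 0 < X) (h4 : X ≤ 4) (hw : 0 ≤ w)
    (hK : w ≤ K) (hL : 0 ≤ L) (h0 : 0 ≤ χ) (h1 : χ ≤ 1) (hM : 0 ≤ M) (hM' : M * χ ^ 2 ≤ K) :
    0 ≤ (-I * (X * (lam * p + w * X * p1 + M * e - 0) * ((χ ^ 2 : ℝ) * conj p) +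
      X * e1 * (X * ((2 * χ : ℝ) * conj p + (χ ^ 2 : ℝ) * conj p1)) +
        (L / 4 : ℝ) * e * ((χ ^ 2 : ℝ) * conj p))).re + (3 / 2 - lam.im) * (X * χ ^ 2 * ‖p‖ ^ 2) +
      (2 * K ^ 2 + 1 / 2) * (X ^ 2 * ‖p1‖ ^ 2 + L / 4 * ‖p‖ ^ 2) +
      17 / 2 * (X ^ 2 * ‖e1‖ ^ 2 + L / 4 * ‖e‖ ^ 2) + K / 2 * (X * M * ‖e‖ ^ 2) := by
  have e0 : (-I * (X * (lam * p + w * X * p1 + M * e - 0) * ((χ ^ 2 : ℝ) * conj p) +
      X * e1 * (X * ((2 * χ : ℝ) * conj p + (χ ^ 2 : ℝ) * conj p1)) +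
        (L / 4 : ℝ) * e * ((χ ^ 2 : ℝ) * conj p))).re = X * χ ^ 2 * lam.im * ‖p‖ ^ 2 +
      w * X ^ 2 * χ ^ 2 * (p1 * conj p).im + X * M * χ ^ 2 * (e * conj p).im +
      2 * X ^ 2 * χ * (e1 * conj p).im + X ^ 2 * χ ^ 2 * (e1 * conj p1).im +
      L / 4 * χ ^ 2 * (e * conj p).im := by
    simp only [mul_re, mul_im, add_re, add_im, sub_re, sub_im, neg_re, neg_im, ofReal_re,
      ofReal_im, conj_re, conj_im, I_re, I_im, zero_re, zero_im, Complex.sq_norm, normSq_apply]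
    ring
  have c2 : χ ^ 2 ≤ 1 := pow_le_one₀ h0 h1
  have a1 := mul_le_mul_of_nonneg_left (cr2a_im p1 p (-(w * X * χ)) χ) hX.le
  have a2 := mul_le_mul_of_nonneg_left (cr2a_im e p (-(M * χ)) χ) hX.le
  have a3 := mul_le_mul_of_nonneg_left (cr2a_im e1 p (-(2 * X)) χ) hX.le
  have a4 := cr2a_im e1 p1 (-(X * χ)) (X * χ)
  have a5 := mul_le_mul_of_nonneg_left (cr2a_im e p (-χ) χ) (show 0 ≤ L / 4 by linarith)
  have b1 : w ^ 2 * X * χ ^ 2 ≤ K ^ 2 * 4 * 1 := by gcongr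
  have b2 := mul_le_mul_of_nonneg_right b1 (show 0 ≤ X ^ 2 * ‖p1‖ ^ 2 by positivity)
  have b3 := mul_le_mul_of_nonneg_right hM' (show 0 ≤ X * M * ‖e‖ ^ 2 by positivity)
  have b4 := mul_le_mul_of_nonneg_right h4 (show 0 ≤ X ^ 2 * ‖e1‖ ^ 2 by positivity)
  have b5 := mul_le_mul_of_nonneg_right c2 (show 0 ≤ X ^ 2 * ‖e1‖ ^ 2 by positivity)
  have b6 := mul_le_mul_of_nonneg_right c2 (show 0 ≤ X ^ 2 * ‖p1‖ ^ 2 by positivity)
  have b7 := mul_le_mul_of_nonneg_right c2 (show 0 ≤ L * ‖e‖ ^ 2 by positivity)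
  have b8 := mul_le_mul_of_nonneg_right c2 (show 0 ≤ L * ‖p‖ ^ 2 by positivity)
  have b9 : 0 ≤ K ^ 2 * L * ‖p‖ ^ 2 := by positivity
  have b10 : 0 ≤ L * ‖e‖ ^ 2 := by positivity
  rw [e0]
  linarith

theorem cr2a_pd {X w M K L χ : ℝ} (lam e e1 p p1 : ℂ) (hX : 0 < X) (h4 : X ≤ 4) (hw : 0 ≤ w)
    (hK : w ≤ K) (hL : 0 ≤ L) (h0 : 0 ≤ χ) (h1 : χ ≤ 1) (hM : 0 ≤ M) (hM' : M ≤ K)
    (hl : 0 ≤ lam.im) :
    0 ≤ (1 * (X * (lam * p + w * X * p1 + M * e - 0) * ((χ ^ 2 : ℝ) * conj (e + I * p)) +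
      X * e1 * (X * ((2 * χ : ℝ) * conj (e + I * p) + (χ ^ 2 : ℝ) * conj (e1 + I * p1))) +
        (L / 4 : ℝ) * e * ((χ ^ 2 : ℝ) * conj (e + I * p)))).re +
      (I * (X * (-(lam * e + w * X * e1) + 0) * ((χ ^ 2 : ℝ) * conj (e + I * p)) +
      X * p1 * (X * ((2 * χ : ℝ) * conj (e + I * p) + (χ ^ 2 : ℝ) * conj (e1 + I * p1))) +
        (L / 4 : ℝ) * p * ((χ ^ 2 : ℝ) * conj (e + I * p)))).re +
      (5 * K ^ 2 + 17) * (X * ‖e‖ ^ 2) + (5 * K ^ 2 + 17) * (X * ‖p‖ ^ 2) := by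
  have e0 : (1 * (X * (lam * p + w * X * p1 + M * e - 0) * ((χ ^ 2 : ℝ) * conj (e + I * p)) +
      X * e1 * (X * ((2 * χ : ℝ) * conj (e + I * p) + (χ ^ 2 : ℝ) * conj (e1 + I * p1))) +
        (L / 4 : ℝ) * e * ((χ ^ 2 : ℝ) * conj (e + I * p)))).re +
      (I * (X * (-(lam * e + w * X * e1) + 0) * ((χ ^ 2 : ℝ) * conj (e + I * p)) +
      X * p1 * (X * ((2 * χ : ℝ) * conj (e + I * p) + (χ ^ 2 : ℝ) * conj (e1 + I * p1))) +
        (L / 4 : ℝ) * p * ((χ ^ 2 : ℝ) * conj (e + I * p)))).re =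
      X * M * χ ^ 2 * (e * conj (e + I * p)).re + X * χ ^ 2 * lam.im * ‖e + I * p‖ ^ 2 +
      w * X ^ 2 * χ ^ 2 * ((e1 + I * p1) * conj (e + I * p)).im +
      2 * χ * X ^ 2 * ((e1 + I * p1) * conj (e + I * p)).re + X ^ 2 * χ ^ 2 * ‖e1 + I * p1‖ ^ 2 +
      L / 4 * χ ^ 2 * ‖e + I * p‖ ^ 2 := by
    simp only [mul_re, mul_im, add_re, add_im, sub_re, sub_im, neg_re, neg_im, ofReal_re,
      ofReal_im, conj_re, conj_im, I_re, I_im, zero_re, zero_im, one_re, one_im, Complex.sq_norm,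
      normSq_apply]
    ring
  have e1' : ‖e + I * p‖ ^ 2 ≤ 2 * ‖e‖ ^ 2 + 2 * ‖p‖ ^ 2 := by
    simp only [mul_re, mul_im, add_re, add_im, I_re, I_im, Complex.sq_norm, normSq_apply]
    nlinarith [sq_nonneg (e.re + p.im), sq_nonneg (e.im - p.re)]
  rw [e0]
  generalize e + I * p = F at e1' ⊢
  generalize e1 + I * p1 = F1
  have c2 : χ ^ 2 ≤ 1 := pow_le_one₀ h0 h1
  have a1 := mul_le_mul_of_nonneg_left (cr2a_re e F (-(M * χ ^ 2)) 1) hX.le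
  have a2 := cr2a_im F1 F (X * χ) (-(w * X * χ))
  have a3 := cr2a_re F1 F (X * χ) (-(2 * X))
  have hK0 := hM.trans hM'
  have b1 : (M * χ ^ 2) ^ 2 ≤ (K * 1) ^ 2 := by gcongr
  have b2 := mul_le_mul_of_nonneg_right b1 (show 0 ≤ X * ‖e‖ ^ 2 by positivity)
  have b3 : w ^ 2 * X * χ ^ 2 ≤ K ^ 2 * 4 * 1 := by gcongr
  have b4 := mul_le_mul_of_nonneg_right b3 (show 0 ≤ X * ‖F‖ ^ 2 by positivity)
  have b5 := mul_le_mul_of_nonneg_right h4 (show 0 ≤ X * ‖F‖ ^ 2 by positivity)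
  have b6 := mul_le_mul_of_nonneg_left e1' (show 0 ≤ (2 * K ^ 2 + 17 / 2) * X by positivity)
  have b7 : 0 ≤ X * χ ^ 2 * lam.im * ‖F‖ ^ 2 := by positivity
  have b8 : 0 ≤ L * χ ^ 2 * ‖F‖ ^ 2 := by positivity
  have b9 : 0 ≤ K ^ 2 * X * ‖e‖ ^ 2 := by positivity
  have b10 : 0 ≤ K ^ 2 * X * ‖p‖ ^ 2 := by positivity
  linarith

theorem cr2a_M {X0 ε K a X : ℝ} (hB : c.Bd X0 ε K a) (hK : 0 < K) (hε : ε ≤ 1) (hX : X0 ≤ X) :
    c.M X ≤ K := by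
  have h0 := hB.X0_mem.1
  have h1 := (hB.ext X hX).1
  have h2 := c.M_nonneg X (by linarith)
  nlinarith

theorem cr2a_bd (p q : ℂ) (κ : ℂ) (hκ : ‖κ‖ = 1) : (κ * (p * conj q)).re ≤ ‖p‖ * ‖q‖ := by
  refine (re_le_norm _).trans ?_
  rw [norm_mul, norm_mul, hκ, one_mul, Complex.norm_conj]

theorem c_r2a (K : ℝ) (hK : 0 < K) : ∃ K', 0 ≤ K' ∧ ∀ (c : Co) (L X0 ε a Y : ℝ) (lam : ℂ)
    (η η1 ψ ψ1 : ℝ → ℂ), c.Bd X0 ε K a → c.Sys L lam η η1 ψ ψ1 0 0 → Y ∈ Icc X0 (X0 + 1) →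
      K' ≤ lam.im →
      lam.im * c.Ms η 0 Y ≤ K' * (c.En L η η1 ψ ψ1 Y + ‖ψ1 Y‖ * ‖η Y‖) := by
  refine ⟨4 * K ^ 2 + 2 + 8192 * K, by positivity, fun c L X0 ε a Y lam η η1 ψ ψ1 hB h hY hl => ?_⟩
  have h0 := hB.X0_mem
  have hY0 : 0 < Y := by linarith [h0.1, hY.1]
  have hL := h.L_nonneg
  obtain ⟨g1, g2⟩ := cr2a_green h.dψ h.dη.d1 h.dη.c1 h.dη.bz h.dη.bz_Xu1
    (fun X => hasDerivAt_const X (1 : ℝ)) continuous_const hY0 I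
  have k := cr2a_pos g1 (c.bz_dm.mul (h.dη.bz.norm.pow 2)) h.dη.bz_gr h.dψ.bz_gr h.dψ.bz_gr
    (a1 := 1) (a2 := 1 / 2 - lam.im) (a3 := 2 * K ^ 2 + 1 / 2) (a4 := 1 / 2) (a5 := 0) le_rfl
    hY0.le fun X hX => by
      have := mul_nonneg (mul_nonneg (c.R_pos X hX.1).le (pow_nonneg hX.1.le 4))
        (cr2a_pa lam (η X) (η1 X) (ψ X) (ψ1 X) hX.1 (by linarith [hX.2, hY.2, h0.2])
          (c.w_pos X hX.1).le (hB.all_w X hX.1).1 hL)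
      simp only [cr2a_G, Co.gr, Co.dm, Pi.zero_apply]
      linarith
  rw [g2] at k
  change 0 ≤ _ + _ * c.Ms η 0 Y + _ * c.Gr L η η1 Y + _ * c.Gr L ψ ψ1 Y + _ at k
  obtain ⟨j1, j2⟩ := cr2a_J hB hK hY
  have b1 := cr2a_bd (ψ1 Y) (η Y) I norm_I
  have b2 := mul_le_mul_of_nonneg_left b1 ((by positivity : 0 ≤ 1 / K).trans j1)
  have b3 := mul_le_mul_of_nonneg_right j2 (show 0 ≤ ‖ψ1 Y‖ * ‖η Y‖ by positivity)
  have m0 : 0 ≤ c.Ms η 0 Y := c_Ms_nonneg c le_rfl hY0.le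
  have m1 : 0 ≤ c.Gr L η η1 Y := c_Gr_nonneg c hL hY0.le
  have m2 : 0 ≤ c.Gr L ψ ψ1 Y := c_Gr_nonneg c hL hY0.le
  have m3 : 0 ≤ c.Pot η Y := c_Pot_nonneg c hY0.le
  have m4 := mul_le_mul_of_nonneg_right (show 1 ≤ lam.im by nlinarith) m0
  have m5 : 0 ≤ ‖ψ1 Y‖ * ‖η Y‖ := by positivity
  rw [Co.En]
  nlinarith [mul_nonneg hK.le m1, mul_nonneg hK.le m2, mul_nonneg hK.le m3,
    mul_nonneg (sq_nonneg K) m2, mul_nonneg (sq_nonneg K) m3, mul_nonneg (sq_nonneg K) m5]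

theorem c_r2b (K : ℝ) (hK : 0 < K) {δ : ℝ} (hδ : δ ∈ Ioc (0 : ℝ) 1) : ∃ K', 0 ≤ K' ∧
    ∀ (c : Co) (L X0 ε a : ℝ) (lam : ℂ) (η η1 ψ ψ1 : ℝ → ℂ), c.Bd X0 ε K a → ε ∈ Ioc (0 : ℝ) 1 →
      c.Sys L lam η η1 ψ ψ1 0 0 → K' ≤ lam.im →
      lam.im * c.Ms ψ (X0 + δ / 2) (X0 + δ) ≤
        K' * (c.En L η η1 ψ ψ1 (X0 + δ) + ‖η1 (X0 + δ)‖ * ‖ψ (X0 + δ)‖) := by
  have hδ0 := hδ.1
  refine ⟨3 + 8 / δ ^ 2 * (2 * K ^ 2 + 9 + 4096 * K), by positivity,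
    fun c L X0 ε a lam η η1 ψ ψ1 hB hε h hl => ?_⟩
  have h0 := hB.X0_mem
  have hY : X0 + δ ∈ Icc X0 (X0 + 1) := ⟨by linarith, by linarith [hδ.2]⟩
  have hY0 : 0 < X0 + δ := by linarith [h0.1]
  have hL := h.L_nonneg
  have cχ : Continuous fun t : ℝ => max (t - X0) 0 := by fun_prop
  obtain ⟨g1, g2⟩ := cr2a_green h.dη h.dψ.d1 h.dψ.c1 h.dψ.bz h.dψ.bz_Xu1 (cr2a_chi X0)
    (continuous_const.mul cχ) hY0 (-I)
  have bN := (c.bz_dm.mul ((cr2a_bzc cχ).pow 2)).mul (h.dψ.bz.norm.pow 2)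
  have k := cr2a_pos g1 bN h.dψ.bz_gr h.dη.bz_gr ((c.bz_dm.mul c.bz_M).mul (h.dη.bz.norm.pow 2))
    (a1 := 1) (a2 := 3 / 2 - lam.im) (a3 := 2 * K ^ 2 + 1 / 2) (a4 := 17 / 2) (a5 := K / 2) le_rfl
    hY0.le fun X hX => by
      have c1 : max (X - X0) 0 ≤ 1 := max_le (by linarith [hX.2, hδ.2]) zero_le_one
      have := mul_nonneg (mul_nonneg (c.R_pos X hX.1).le (pow_nonneg hX.1.le 4))
        (cr2a_pb lam (η X) (η1 X) (ψ X) (ψ1 X) hX.1 (by linarith [hX.2, hY.2, h0.2])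
          (c.w_pos X hX.1).le (hB.all_w X hX.1).1 hL (le_max_right (X - X0) 0) c1
          (c.M_nonneg X hX.1) (by
            rcases le_total X0 X with h1 | h1
            · exact (mul_le_of_le_one_right (c.M_nonneg X hX.1)
                (pow_le_one₀ (le_max_right _ _) c1)).trans (cr2a_M hB hK hε.2 h1)
            · rw [max_eq_right (sub_nonpos.2 h1), sq, mul_zero, mul_zero]
              exact hK.le))
      simp only [cr2a_G, Co.gr, Co.dm, Pi.zero_apply]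
      linarith
  have n1 : (δ / 2) ^ 2 * c.Ms ψ (X0 + δ / 2) (X0 + δ) ≤
      ∫ X in (0 : ℝ)..X0 + δ, c.dm X * max (X - X0) 0 ^ 2 * ‖ψ X‖ ^ 2 := by
    have y0 : 0 ≤ X0 + δ / 2 := by linarith [h0.1]
    rw [← intervalIntegral.integral_add_adjacent_intervals (bN.intble le_rfl y0)
      (bN.intble y0 hY0.le), Co.Ms, ← intervalIntegral.integral_const_mul]
    refine le_add_of_nonneg_of_le (intervalIntegral.integral_nonneg y0 fun X hX => ?_)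
      (c_mono (by linarith) ((h.dψ.int_ms y0 hY0.le).const_mul _) (bN.intble y0 hY0.le)
        fun X hX => ?_)
    · rcases hX.1.eq_or_lt with rfl | h1
      · simp [Co.dm]
      · have := c.R_pos X h1
        unfold Co.dm
        positivity
    · have := c.R_pos X (by linarith [hX.1])
      have h2 : 0 < X := by linarith [hX.1]
      have h3 : (δ / 2) ^ 2 ≤ max (X - X0) 0 ^ 2 :=
        pow_le_pow_left₀ (by linarith) (le_max_of_le_left (by linarith [hX.1])) 2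
      have := mul_le_mul_of_nonneg_right h3 (show 0 ≤ c.dm X * ‖ψ X‖ ^ 2 by unfold Co.dm; positivity)
      linarith
  rw [g2] at k
  change 0 ≤ _ + _ + _ * c.Gr L ψ ψ1 _ + _ * c.Gr L η η1 _ + _ * c.Pot η _ at k
  generalize ∫ X in (0 : ℝ)..X0 + δ, c.dm X * max (X - X0) 0 ^ 2 * ‖ψ X‖ ^ 2 = N at k n1
  obtain ⟨j1, j2⟩ := cr2a_J hB hK hY
  have j0 := (by positivity : 0 ≤ 1 / K).trans j1
  have b1 := cr2a_bd (η1 (X0 + δ)) (ψ (X0 + δ)) (-I) (by simp)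
  have m5 : 0 ≤ ‖η1 (X0 + δ)‖ * ‖ψ (X0 + δ)‖ := by positivity
  have c1 : max (X0 + δ - X0) 0 ^ 2 ≤ 1 :=
    pow_le_one₀ (le_max_right _ _) (max_le (by linarith [hδ.2]) zero_le_one)
  have b2 := mul_le_mul_of_nonneg_left b1 (mul_nonneg j0 (sq_nonneg (max (X0 + δ - X0) 0)))
  have b3 := mul_le_mul_of_nonneg_right ((mul_le_of_le_one_right j0 c1).trans j2) m5
  have m0 : 0 ≤ c.Ms ψ (X0 + δ / 2) (X0 + δ) := c_Ms_nonneg c (by linarith [h0.1]) (by linarith)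
  have m1 : 0 ≤ c.Gr L η η1 (X0 + δ) := c_Gr_nonneg c hL hY0.le
  have m2 : 0 ≤ c.Gr L ψ ψ1 (X0 + δ) := c_Gr_nonneg c hL hY0.le
  have m3 : 0 ≤ c.Pot η (X0 + δ) := c_Pot_nonneg c hY0.le
  have l3 : 3 ≤ lam.im := le_trans (le_add_of_nonneg_right (by positivity)) hl
  have m4 := mul_le_mul_of_nonneg_right l3 ((mul_nonneg (sq_nonneg _) m0).trans n1)
  have m6 := mul_le_mul_of_nonneg_left n1 (show 0 ≤ lam.im by linarith)
  rw [Co.En]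
  generalize ‖η1 (X0 + δ)‖ * ‖ψ (X0 + δ)‖ = b at *
  generalize c.Gr L η η1 (X0 + δ) = A at *
  generalize c.Gr L ψ ψ1 (X0 + δ) = B at *
  generalize c.Pot η (X0 + δ) = P at *
  have f1 : δ ^ 2 / 8 * (lam.im * c.Ms ψ (X0 + δ / 2) (X0 + δ)) ≤
      (2 * K ^ 2 + 9 + 4096 * K) * (B + A + P + b) := by
    nlinarith [mul_nonneg hK.le m1, mul_nonneg hK.le m2, mul_nonneg hK.le m3,
      mul_nonneg (sq_nonneg K) m1, mul_nonneg (sq_nonneg K) m3, mul_nonneg (sq_nonneg K) m5]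
  have f2 := mul_le_mul_of_nonneg_left f1 (show 0 ≤ 8 / δ ^ 2 by positivity)
  rw [← mul_assoc, div_mul_div_comm, mul_comm (δ ^ 2) 8, div_self (by positivity), one_mul] at f2
  linarith

theorem c_r2d (K : ℝ) (hK : 0 < K) {δ : ℝ} (hδ : δ ∈ Ioc (0 : ℝ) 1) : ∃ K', 0 ≤ K' ∧
    ∀ (c : Co) (L X0 ε a : ℝ) (lam : ℂ) (η η1 ψ ψ1 : ℝ → ℂ), c.Bd X0 ε K a → ε ∈ Ioc (0 : ℝ) 1 →
      c.Sys L lam η η1 ψ ψ1 0 0 → 0 ≤ lam.im →
      -((η1 (X0 + δ) + I * ψ1 (X0 + δ)) * conj (η (X0 + δ) + I * ψ (X0 + δ))).re ≤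
        K' * (c.Ms η (X0 + δ / 2) (X0 + δ) + c.Ms ψ (X0 + δ / 2) (X0 + δ)) := by
  have hδ0 := hδ.1
  refine ⟨4 * K / δ ^ 2 * (5 * K ^ 2 + 17), by positivity,
    fun c L X0 ε a lam η η1 ψ ψ1 hB hε h hl => ?_⟩
  have h0 := hB.X0_mem
  have hY : X0 + δ ∈ Icc X0 (X0 + 1) := ⟨by linarith, by linarith [hδ.2]⟩
  have hY0 : 0 < X0 + δ := by linarith [h0.1]
  have y0 : 0 ≤ X0 + δ / 2 := by linarith [h0.1]
  have hL := h.L_nonneg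
  have cχ : Continuous fun t : ℝ => max (t - (X0 + δ / 2)) 0 := by fun_prop
  have F0 : ∀ X, 0 < X → HasDerivAt (fun X => η X + I * ψ X) (η1 X + I * ψ1 X) X := fun X hX =>
    (h.dη.d1 X hX).add ((h.dψ.d1 X hX).const_mul I)
  have F1 : ContinuousOn (fun X => η1 X + I * ψ1 X) (Ioi 0) :=
    h.dη.c1.add (continuousOn_const.mul h.dψ.c1)
  have F2 := h.dη.bz.add ((Bz.const I).mul h.dψ.bz)
  have F3 : Bz fun X : ℝ => (X : ℂ) * (η1 X + I * ψ1 X) :=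
    (h.dη.bz_Xu1.add ((Bz.const I).mul h.dψ.bz_Xu1)).congr fun X _ => by ring
  obtain ⟨g1, g2⟩ := cr2a_green h.dη F0 F1 F2 F3 (cr2a_chi (X0 + δ / 2))
    (continuous_const.mul cχ) hY0 1
  obtain ⟨g3, g4⟩ := cr2a_green h.dψ F0 F1 F2 F3 (cr2a_chi (X0 + δ / 2))
    (continuous_const.mul cχ) hY0 I
  have k := cr2a_pos g1 g3 (c.bz_dm.mul (h.dη.bz.norm.pow 2)) (c.bz_dm.mul (h.dψ.bz.norm.pow 2)) g1
    (a1 := 1) (a2 := 1) (a3 := 5 * K ^ 2 + 17) (a4 := 5 * K ^ 2 + 17) (a5 := 0) y0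
    (show X0 + δ / 2 ≤ X0 + δ by linarith) fun X hX => by
      have x0 : 0 < X := by linarith [hX.1, h0.1]
      have := mul_nonneg (mul_nonneg (c.R_pos X x0).le (pow_nonneg x0.le 4))
        (cr2a_pd lam (η X) (η1 X) (ψ X) (ψ1 X) x0 (by linarith [hX.2, hY.2, h0.2])
          (c.w_pos X x0).le (hB.all_w X x0).1 hL (le_max_right (X - (X0 + δ / 2)) 0)
          (max_le (by linarith [hX.2, hδ.2]) zero_le_one) (c.M_nonneg X x0)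
          (cr2a_M hB hK hε.2 (by linarith [hX.1])) hl)
      simp only [cr2a_G, Co.dm, Pi.zero_apply]
      linarith
  have z : ∀ (κ : ℂ) (u u1 v g g1 : ℝ → ℂ), ∫ X in (0 : ℝ)..X0 + δ / 2, cr2a_G c L κ u u1 v g g1
      (fun t => max (t - (X0 + δ / 2)) 0 ^ 2) (fun t => 2 * max (t - (X0 + δ / 2)) 0) X = 0 := by
    intro κ u u1 v g g1
    refine (intervalIntegral.integral_congr (g := fun _ => 0) fun X hX => ?_).trans
      intervalIntegral.integral_zero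
    rw [uIcc_of_le y0] at hX
    simp [cr2a_G, max_eq_right (sub_nonpos.2 hX.2)]
  rw [← intervalIntegral.integral_add_adjacent_intervals (g1.intble le_rfl y0)
    (g1.intble y0 hY0.le), z, zero_add] at g2
  rw [← intervalIntegral.integral_add_adjacent_intervals (g3.intble le_rfl y0)
    (g3.intble y0 hY0.le), z, zero_add] at g4
  rw [g2, g4, max_eq_left (by linarith)] at k
  change 0 ≤ _ + _ + _ * c.Ms η _ _ + _ * c.Ms ψ _ _ + _ at k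
  obtain ⟨j1, -⟩ := cr2a_J hB hK hY
  have m0 : 0 ≤ c.Ms ψ (X0 + δ / 2) (X0 + δ) := c_Ms_nonneg c y0 (by linarith)
  have m1 : 0 ≤ c.Ms η (X0 + δ / 2) (X0 + δ) := c_Ms_nonneg c y0 (by linarith)
  rw [add_mul, add_re, mul_assoc I]
  rw [one_mul (η1 (X0 + δ) * _)] at k
  generalize (η1 (X0 + δ) * conj (η (X0 + δ) + I * ψ (X0 + δ))).re = r1 at k ⊢
  generalize (I * (ψ1 (X0 + δ) * conj (η (X0 + δ) + I * ψ (X0 + δ)))).re = r2 at k ⊢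
  rcases le_total 0 (r1 + r2) with h1 | h1
  · exact (neg_nonpos.2 h1).trans (by positivity)
  · have f0 := mul_le_mul_of_nonneg_right j1 (show 0 ≤ δ ^ 2 / 4 * -(r1 + r2) from
      mul_nonneg (by positivity) (by linarith))
    have f1 : δ ^ 2 / (4 * K) * -(r1 + r2) ≤ (5 * K ^ 2 + 17) *
        (c.Ms η (X0 + δ / 2) (X0 + δ) + c.Ms ψ (X0 + δ / 2) (X0 + δ)) := by
      have : δ ^ 2 / (4 * K) = 1 / K * (δ ^ 2 / 4) := by field_simp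
      rw [this]
      linarith
    have f2 := mul_le_mul_of_nonneg_left f1 (show 0 ≤ 4 * K / δ ^ 2 by positivity)
    rw [← mul_assoc, div_mul_div_comm, mul_comm (δ ^ 2), div_self (by positivity), one_mul] at f2
    linarith

end Vale.Agent.P139
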