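import Vale.Agent.P139.C.Green
import Vale.Agent.P139.C.Bz

/-! P139 task C/R2a: real form of the Green identity and small tools. -/

noncomputable section

open MeasureTheory Filter Topology Set Complex
open scoped ComplexConjugate

namespace Vale.Agent.P139

variable {c : Co} {L Y : ℝ} {u u1 v g g1 : ℝ → ℂ}

theorem cr2a_bzc {f : ℝ → ℝ} (h : Continuous f) : Bz f := by
  obtain ⟨K, hK⟩ := isCompact_Icc.exists_bound_of_continuousOn (h.continuousOn (s := Icc 0 1))
  exact ⟨h.continuousOn, K, fun X hX => hK X (Ioc_subset_Icc_self hX)⟩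

theorem cr2a_chi (b X : ℝ) : HasDerivAt (fun t => max (t - b) 0 ^ 2) (2 * max (X - b) 0) X := by
  rcases lt_trichotomy X b with h | rfl | h
  · rw [max_eq_right (sub_nonpos.2 h.le), mul_zero]
    refine (hasDerivAt_const X (0 : ℝ)).congr_of_eventuallyEq ?_
    filter_upwards [Iio_mem_nhds h] with t ht
    rw [max_eq_right (sub_nonpos.2 (le_of_lt ht)), sq, mul_zero]
  · rw [sub_self, max_self, mul_zero, hasDerivAt_iff_tendsto_slope_zero]
    have h : Tendsto (fun t : ℝ => max t 0) (𝓝[≠] 0) (𝓝 (max 0 0)) :=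
      ((continuous_id.max continuous_const).tendsto 0).mono_left nhdsWithin_le_nhds
    rw [max_self] at h
    refine h.congr' ?_
    filter_upwards [self_mem_nhdsWithin] with t ht
    have ht' : t ≠ 0 := ht
    rcases le_total t 0 with h | h
    · simp [max_eq_right h]
    · simp only [add_sub_cancel_left, sub_self, max_self, max_eq_left h, smul_eq_mul]
      field_simp
      ring
  · rw [max_eq_left (sub_nonneg.2 h.le)]
    have h1 : HasDerivAt (fun t => (t - b) * (t - b)) (1 * (X - b) + (X - b) * 1) X :=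
      ((hasDerivAt_id X).sub_const b).mul ((hasDerivAt_id X).sub_const b)
    refine (h1.congr_deriv (by ring)).congr_of_eventuallyEq ?_
    filter_upwards [Ioi_mem_nhds h] with t ht
    rw [max_eq_left (sub_nonneg.2 (le_of_lt ht)), sq]

theorem cr2a_im (p q : ℂ) (s t : ℝ) :
    s * t * (p * conj q).im ≤ (s ^ 2 * ‖p‖ ^ 2 + t ^ 2 * ‖q‖ ^ 2) / 2 := by
  simp only [mul_im, conj_re, conj_im, Complex.sq_norm, normSq_apply]
  nlinarith [sq_nonneg (s * p.im - t * q.re), sq_nonneg (s * p.re + t * q.im)]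

theorem cr2a_re (p q : ℂ) (s t : ℝ) :
    s * t * (p * conj q).re ≤ (s ^ 2 * ‖p‖ ^ 2 + t ^ 2 * ‖q‖ ^ 2) / 2 := by
  simp only [mul_re, conj_re, conj_im, Complex.sq_norm, normSq_apply]
  nlinarith [sq_nonneg (s * p.re - t * q.re), sq_nonneg (s * p.im - t * q.im)]

/-- The real integrand of the Green identity with the test function `θ conj g`. -/
def cr2a_G (c : Co) (L : ℝ) (κ : ℂ) (u u1 v g g1 : ℝ → ℂ) (θ θ' : ℝ → ℝ) (X : ℝ) : ℝ :=
  c.R X * X ^ 4 * (κ * (X * v X * (θ X * conj (g X)) +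
    X * u1 X * (X * (θ' X * conj (g X) + θ X * conj (g1 X))) +
      (L / 4 : ℝ) * u X * (θ X * conj (g X)))).re

theorem cr2a_green (h : c.Dv L u u1 v) (hg : ∀ X, 0 < X → HasDerivAt g (g1 X) X)
    (c1 : ContinuousOn g1 (Ioi 0)) (b0 : Bz g) (b1 : Bz fun X : ℝ => (X : ℂ) * g1 X)
    {θ θ' : ℝ → ℝ} (hθ : ∀ X, HasDerivAt θ (θ' X) X) (cθ : Continuous θ') (hY : 0 < Y) (κ : ℂ) :
    Bz (cr2a_G c L κ u u1 v g g1 θ θ') ∧ ∫ X in (0 : ℝ)..Y, cr2a_G c L κ u u1 v g g1 θ θ' X =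
      c.J Y * θ Y * (κ * (u1 Y * conj (g Y))).re := by
  have c0 : Continuous θ := continuous_iff_continuousAt.2 fun X => (hθ X).continuousAt
  have z0 : Bz fun X => (θ X : ℂ) * conj (g X) := (cr2a_bzc c0).ofReal.mul b0.cj
  have z1 : Bz fun X : ℝ => (X : ℂ) * (θ' X * conj (g X) + θ X * conj (g1 X)) :=
    ((Bz.idC.mul ((cr2a_bzc cθ).ofReal.mul b0.cj)).add ((cr2a_bzc c0).ofReal.mul b1.cj)).congr
      fun X _ => by rw [map_mul, conj_ofReal]; ring
  have bH := ((Bz.idC.mul h.bz_v).mul z0).add (h.bz_Xu1.mul z1) |>.add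
    (((Bz.const ((L / 4 : ℝ) : ℂ)).mul h.bz).mul z0)
  refine ⟨c.bz_d4.mul ((Bz.const κ).mul bH).re, ?_⟩
  have k := c_green h (z := fun X => (θ X : ℂ) * conj (g X))
    (z1 := fun X => θ' X * conj (g X) + θ X * conj (g1 X))
    (fun X hX => (hθ X).ofReal_comp.mul (hg X hX).star)
    (((continuous_ofReal.comp cθ).continuousOn.mul b0.cj.c).add
      ((continuous_ofReal.comp c0).continuousOn.mul (continuous_conj.comp_continuousOn c1)))
    (by
      obtain ⟨K0, h0⟩ := z0.b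
      obtain ⟨K1, h1⟩ := z1.b
      refine ⟨max K0 K1, fun X hX => ⟨(h0 X hX).trans (le_max_left _ _), ?_⟩⟩
      have := h1 X hX
      rw [norm_mul, Complex.norm_real, Real.norm_of_nonneg hX.1.le] at this
      exact this.trans (le_max_right _ _)) hY
  have k2 := (reCLM.comp (ContinuousLinearMap.mul ℝ ℂ κ)).intervalIntegral_comp_comm
    ((c.bz_d4.ofReal.mul bH).intble le_rfl hY.le)
  have k3 : ∫ X in (0 : ℝ)..Y, ((c.R X * X ^ 4 : ℝ) : ℂ) * (X * v X * (θ X * conj (g X)) +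
      X * u1 X * (X * (θ' X * conj (g X) + θ X * conj (g1 X))) +
      (L / 4 : ℝ) * u X * (θ X * conj (g X))) = c.J Y * u1 Y * (θ Y * conj (g Y)) := by
    rw [← k]
    refine intervalIntegral.integral_congr_ae (Eventually.of_forall fun X hX => ?_)
    rw [uIoc_of_le hY.le] at hX
    have : (X : ℂ) ≠ 0 := ofReal_ne_zero.2 hX.1.ne'
    simp only [Co.dm]
    push_cast
    field_simp
  rw [k3] at k2
  refine Eq.trans ?_ (k2.trans ?_)
  · refine intervalIntegral.integral_congr fun X _ => ?_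
    show _ = (κ * _).re
    rw [mul_left_comm, re_ofReal_mul]
    rfl
  · show (κ * _).re = _
    rw [← re_ofReal_mul]
    refine congrArg re ?_
    push_cast
    ring

theorem cr2a_pos {f1 f2 f3 f4 f5 : ℝ → ℝ} (b1 : Bz f1) (b2 : Bz f2) (b3 : Bz f3) (b4 : Bz f4)
    (b5 : Bz f5) {a1 a2 a3 a4 a5 Y0 : ℝ} (h0 : 0 ≤ Y0) (h1 : Y0 ≤ Y)
    (h : ∀ X ∈ Ioc Y0 Y, 0 ≤ a1 * f1 X + a2 * f2 X + a3 * f3 X + a4 * f4 X + a5 * f5 X) :
    0 ≤ (a1 * ∫ X in Y0..Y, f1 X) + (a2 * ∫ X in Y0..Y, f2 X) + (a3 * ∫ X in Y0..Y, f3 X) +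
      (a4 * ∫ X in Y0..Y, f4 X) + a5 * ∫ X in Y0..Y, f5 X := by
  have hY := h0.trans h1
  have i1 := (b1.intble h0 hY).const_mul a1
  have i2 := (b2.intble h0 hY).const_mul a2
  have i3 := (b3.intble h0 hY).const_mul a3
  have i4 := (b4.intble h0 hY).const_mul a4
  have i5 := (b5.intble h0 hY).const_mul a5
  have k := c_mono h1 intervalIntegrable_const ((((i1.add i2).add i3).add i4).add i5) h
  rw [intervalIntegral.integral_add (((i1.add i2).add i3).add i4) i5,
    intervalIntegral.integral_add ((i1.add i2).add i3) i4,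
    intervalIntegral.integral_add (i1.add i2) i3, intervalIntegral.integral_add i1 i2] at k
  simpa only [intervalIntegral.integral_const_mul, intervalIntegral.integral_zero] using k

theorem cr2a_J {X0 ε K a : ℝ} (hB : c.Bd X0 ε K a) (hK : 0 < K) (hY : Y ∈ Icc X0 (X0 + 1)) :
    1 / K ≤ c.J Y ∧ c.J Y ≤ 4096 * K := by
  have h0 := hB.X0_mem
  obtain ⟨h1, h2⟩ := hB.in_R Y ⟨by linarith [h0.1, hY.1], hY.2⟩
  have h3 : 1 ≤ Y ^ 6 := one_le_pow₀ (by linarith [h0.1, hY.1])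
  have h4 : Y ^ 6 ≤ 4 ^ 6 := pow_le_pow_left₀ (by linarith [h0.1, hY.1]) (by linarith [h0.2, hY.2]) 6
  have h5 : 0 < 1 / K := by positivity
  exact ⟨h1.trans (le_mul_of_one_le_right (by linarith) h3),
    (mul_le_mul h2 h4 (by linarith) hK.le).trans (by linarith)⟩

end Vale.Agent.P139
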