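import Vale.Agent.P139.C.R2aAux
import Vale.Agent.P139.C.Pair
import Vale.Agent.P139.C.Sob

/-! P139 task C/R4a (PROOF.md section C). Interior lemma of the compact regime. `c_pair`, `c_core`, `c_poin` give `En X0 ≤ C (S0 + s1 + s2)²` for small `ε`, so `‖η X0‖` and
`Ms η` are small. Green for `ψ` against `z = X^(l/2)`: `c_green`, then integrate `X ψ1 z'` by parts once more
(`(J z')' = dm (L z/(4X) + 2 X al z')`, `|al| ≤ ε`); the term `T η z` is integrated by parts (`c.div`).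
-/

noncomputable section

open MeasureTheory Filter Topology Set Complex
open scoped ComplexConjugate

namespace Vale.Agent.P139

variable {c : Co} {L Y : ℝ} {lam : ℂ} {u u1 v η η1 ψ ψ1 sη sψ f g ef eg : ℝ → ℂ} {m l : ℕ}
  {Q : Prof m}

theorem cr4a_id (h : c.Sys (l * (l + 10)) lam η η1 ψ ψ1 sη sψ) (hY : 0 < Y) :
    ∫ X in (0 : ℝ)..Y, ((X ^ ((l : ℝ) / 2) * c.dm X : ℝ) : ℂ) *
      (((c.κ + c.w X * l / 2 : ℝ) - lam) * η X - (l * c.al X : ℝ) * ψ X + sη X) =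
      ((Y ^ ((l : ℝ) / 2) * c.dm Y : ℝ) : ℂ) *
        (Y * ψ1 Y - l / 2 * ψ Y + (c.w Y * Y : ℝ) * η Y) := by
  have bz : Bz fun X : ℝ => X ^ ((l : ℝ) / 2) :=
    cr2a_bzc (Real.continuous_rpow_const (by positivity))
  have bs : Bz sη := ⟨h.cη, h.s0.imp fun _ hK X hX => (hK X hX).1⟩
  have b1 := (bz.mul c.bz_dm).ofReal.mul
    ((((((Bz.const c.κ).add ((c.bz_w.mul (Bz.const (l : ℝ))).div_const 2)).ofReal.sub
      (Bz.const lam)).mul h.dη.bz).sub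
        (((Bz.const (l : ℝ)).mul c.bz_al).ofReal.mul h.dψ.bz)).add bs)
  obtain ⟨K, hK⟩ := ((bz.mul c.bz_d4).ofReal.mul ((h.dψ.bz_Xu1.sub
    ((Bz.const ((l : ℂ) / 2)).mul h.dψ.bz)).add ((c.bz_w.mul Bz.id).ofReal.mul h.dη.bz))).b
  refine (c_ftc (Φ := fun X => ((X ^ ((l : ℝ) / 2) : ℝ) : ℂ) * ((c.R X * X ^ 6 : ℝ) * ψ1 X -
    (l / 2 * (c.R X * X ^ 5) : ℝ) * ψ X + (c.w X * (c.R X * X ^ 6) : ℝ) * η X))
    (fun X hX => ?_) b1.c b1.b ⟨K, fun X hX => ?_⟩ hY).trans ?_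
  · have d0 := (Real.hasDerivAt_rpow_const (p := (l : ℝ) / 2) (Or.inl hX.ne')).ofReal_comp
    have d1 := (((c.dR X hX).mul (hasDerivAt_pow 5 X)).const_mul ((l : ℝ) / 2)).ofReal_comp
    have d2 := ((c.dw X hX).mul ((c.dR X hX).mul (hasDerivAt_pow 6 X))).ofReal_comp
    refine (d0.mul (((h.dψ.d2 X hX).sub (d1.mul (h.dψ.d1 X hX))).add
      (d2.mul (h.dη.d1 X hX)))).congr_deriv ?_
    have : (X : ℂ) ≠ 0 := ofReal_ne_zero.2 hX.ne'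
    simp only [Pi.mul_apply, Pi.sub_apply, Pi.add_apply, Co.dm, ← c.div X hX,
      Real.rpow_sub_one hX.ne']
    push_cast
    field_simp
    ring
  · have := mul_le_mul_of_nonneg_right (hK X hX) hX.1.le
    refine le_of_eq_of_le ?_ this
    rw [← Real.norm_of_nonneg hX.1.le, ← Complex.norm_real, ← norm_mul,
      Complex.norm_real X, Real.norm_of_nonneg hX.1.le]
    refine congrArg norm ?_
    push_cast
    ring
  · simp only [Co.dm]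
    push_cast
    ring

theorem cr4a_dm {X0 ε K a : ℝ} (hB : c.Bd X0 ε K a) (hK : 0 < K) :
    ∫ X in (0 : ℝ)..X0, c.dm X ≤ 729 * K := by
  have h0 := hB.X0_mem
  have h1 := c_mono (p := fun _ => 243 * K) (show 0 ≤ X0 by linarith [h0.1])
    (c.bz_dm.intble le_rfl (by linarith [h0.1])) intervalIntegrable_const fun X hX => by
      have h2 : X ^ 5 ≤ 3 ^ 5 := pow_le_pow_left₀ hX.1.le (hX.2.trans h0.2) 5
      exact (mul_le_mul (hB.in_R X ⟨hX.1, by linarith [hX.2]⟩).2 h2 (pow_nonneg hX.1.le 5)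
        hK.le).trans (by linarith)
  rw [intervalIntegral.integral_const, smul_eq_mul] at h1
  nlinarith [h0.2]

theorem cr4a_l1 {X0 ε K a : ℝ} (hB : c.Bd X0 ε K a) (hK : 0 < K) (hu : Bz u) :
    ∫ X in (0 : ℝ)..X0, c.dm X * ‖u X‖ ≤ √(729 * K) * √(c.Ms u 0 X0) := by
  have h0 : 0 ≤ X0 := by linarith [hB.X0_mem.1]
  have hd : ∀ X ∈ Ioc 0 X0, 0 ≤ c.dm X := fun X hX =>
    mul_nonneg (c.R_pos X hX.1).le (pow_nonneg hX.1.le 5)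
  have h1 := c_cs h0 ((c.bz_dm.mul hu.norm).intble le_rfl h0) (c.bz_dm.intble le_rfl h0)
    ((c.bz_dm.mul (hu.norm.pow 2)).intble le_rfl h0) hd
    (fun X hX => mul_nonneg (hd X hX) (sq_nonneg _)) fun X _ => le_of_eq (by ring)
  exact (le_abs_self _).trans (h1.trans (mul_le_mul_of_nonneg_right
    (Real.sqrt_le_sqrt (cr4a_dm hB hK)) (Real.sqrt_nonneg _)))

theorem cr4a_src {X0 ε K a s : ℝ} (hB : c.Bd X0 ε K a) (hK : 0 < K) (hu : Bz u) (hs : 0 ≤ s)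
    (h : ∀ X ∈ Ioc 0 X0, ‖u X‖ ≤ s) : √(c.Ms u 0 X0) ≤ √(729 * K) * s := by
  have h0 : 0 ≤ X0 := by linarith [hB.X0_mem.1]
  have h1 := c_mono h0 ((c.bz_dm.mul (hu.norm.pow 2)).intble le_rfl h0)
    ((c.bz_dm.intble le_rfl h0).mul_const (s ^ 2)) fun X hX =>
      mul_le_mul_of_nonneg_left (pow_le_pow_left₀ (norm_nonneg _) (h X hX) 2)
        (mul_nonneg (c.R_pos X hX.1).le (pow_nonneg hX.1.le 5))
  rw [intervalIntegral.integral_mul_const] at h1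
  rw [← Real.sqrt_sq hs, ← Real.sqrt_mul (by positivity)]
  exact Real.sqrt_le_sqrt (h1.trans (mul_le_mul_of_nonneg_right (cr4a_dm hB hK) (sq_nonneg _)))

theorem cr4a_bd {X0 ε K a Λ : ℝ} {l0 : ℕ} (hB : c.Bd X0 ε K a) (hK : 0 < K) (hε : 0 ≤ ε)
    (h : c.Sys (l * (l + 10)) lam η η1 ψ ψ1 sη sψ) (hl : l ≤ l0) (hΛ : ‖lam‖ ≤ Λ) :
    ‖X0 * ψ1 X0 - l / 2 * ψ X0‖ ≤ 3 * K * ‖η X0‖ + K * √(729 * K) *
      ((6 + K * l0 + Λ) * √(c.Ms η 0 X0) + l0 * ε * √(c.Ms ψ 0 X0) + √(c.Ms sη 0 X0)) := by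
  have h0 := hB.X0_mem
  have hY : 0 < X0 := by linarith [h0.1]
  have bs : Bz sη := ⟨h.cη, h.s0.imp fun _ hK X hX => (hK X hX).1⟩
  have hl' : (l : ℝ) ≤ l0 := by exact_mod_cast hl
  have hz : 0 < X0 ^ ((l : ℝ) / 2) := Real.rpow_pos_of_pos hY _
  have i1 := ((c.bz_dm.mul h.dη.bz.norm).intble le_rfl hY.le).const_mul (6 + K * l0 + Λ)
  have i2 := ((c.bz_dm.mul h.dψ.bz.norm).intble le_rfl hY.le).const_mul (l0 * ε)
  have i3 := (c.bz_dm.mul bs.norm).intble le_rfl hY.le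
  have k := intervalIntegral.norm_integral_le_of_norm_le hY.le
    (f := fun X => ((X ^ ((l : ℝ) / 2) * c.dm X : ℝ) : ℂ) *
      (((c.κ + c.w X * l / 2 : ℝ) - lam) * η X - (l * c.al X : ℝ) * ψ X + sη X))
    (Eventually.of_forall fun X hX => ?_) (((i1.add i2).add i3).const_mul (X0 ^ ((l : ℝ) / 2)))
  · rw [cr4a_id h hY, intervalIntegral.integral_const_mul,
      intervalIntegral.integral_add (i1.add i2) i3, intervalIntegral.integral_add i1 i2,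
      intervalIntegral.integral_const_mul, intervalIntegral.integral_const_mul, norm_mul,
      Complex.norm_real] at k
    have d1 : 1 / K ≤ c.dm X0 := (hB.in_R X0 ⟨hY, by linarith⟩).1.trans
      (le_mul_of_one_le_right (c.R_pos X0 hY).le (one_le_pow₀ (by linarith [h0.1])))
    have d0 : 0 < c.dm X0 := lt_of_lt_of_le (by positivity) d1
    rw [Real.norm_of_nonneg (by positivity), mul_assoc] at k
    have k1 := le_of_mul_le_mul_left k hz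
    have hΛ0 := (norm_nonneg _).trans hΛ
    have a1 := mul_le_mul_of_nonneg_left (cr4a_l1 hB hK h.dη.bz)
      (show 0 ≤ 6 + K * l0 + Λ by positivity)
    have a2 := mul_le_mul_of_nonneg_left (cr4a_l1 hB hK h.dψ.bz)
      (show 0 ≤ l0 * ε by positivity)
    have a3 := cr4a_l1 hB hK bs
    have a4 := mul_le_mul_of_nonneg_right d1
      (norm_nonneg (X0 * ψ1 X0 - l / 2 * ψ X0 + (c.w X0 * X0 : ℝ) * η X0))
    have a5 := norm_le_add_norm_add (X0 * ψ1 X0 - l / 2 * ψ X0) ((c.w X0 * X0 : ℝ) * η X0)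
    have a6 : ‖((c.w X0 * X0 : ℝ) : ℂ) * η X0‖ ≤ K * 3 * ‖η X0‖ := by
      rw [norm_mul, Complex.norm_real, Real.norm_of_nonneg (mul_nonneg (c.w_pos X0 hY).le hY.le)]
      exact mul_le_mul_of_nonneg_right (mul_le_mul (hB.all_w X0 hY).1 h0.2 hY.le hK.le)
        (norm_nonneg _)
    have a7 := mul_le_mul_of_nonneg_left (a4.trans k1) hK.le
    rw [← mul_assoc, mul_one_div_cancel hK.ne', one_mul] at a7
    have a8 := mul_le_mul_of_nonneg_left (add_le_add (add_le_add a1 a2) a3) hK.le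
    linarith
  · have hd : 0 ≤ c.dm X := mul_nonneg (c.R_pos X hX.1).le (pow_nonneg hX.1.le 5)
    have z0 : 0 ≤ X ^ ((l : ℝ) / 2) := Real.rpow_nonneg hX.1.le _
    have z1 : X ^ ((l : ℝ) / 2) ≤ X0 ^ ((l : ℝ) / 2) :=
      Real.rpow_le_rpow hX.1.le hX.2 (by positivity)
    have w0 := (c.w_pos X hX.1).le
    have n1 : ‖((c.κ + c.w X * l / 2 : ℝ) : ℂ) - lam‖ ≤ 6 + K * l0 + Λ := by
      refine (norm_sub_le _ _).trans (add_le_add ?_ hΛ)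
      have := mul_le_mul (hB.all_w X hX.1).1 hl' (Nat.cast_nonneg l) hK.le
      have := mul_nonneg w0 (Nat.cast_nonneg (α := ℝ) l)
      rw [Complex.norm_real, Real.norm_of_nonneg (by linarith [c.κ_mem.1])]
      linarith [c.κ_mem.2]
    have n2 : ‖((l * c.al X : ℝ) : ℂ)‖ ≤ l0 * ε := by
      rw [Complex.norm_real, norm_mul, Real.norm_natCast]
      exact mul_le_mul hl' (hB.small X hX) (norm_nonneg _) (Nat.cast_nonneg _)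
    have n3 : ‖(((c.κ + c.w X * l / 2 : ℝ) : ℂ) - lam) * η X - (l * c.al X : ℝ) * ψ X + sη X‖ ≤
        (6 + K * l0 + Λ) * ‖η X‖ + l0 * ε * ‖ψ X‖ + ‖sη X‖ := by
      refine norm_add_le_of_le (norm_sub_le_of_le ?_ ?_) le_rfl <;> rw [norm_mul]
      · exact mul_le_mul_of_nonneg_right n1 (norm_nonneg _)
      · exact mul_le_mul_of_nonneg_right n2 (norm_nonneg _)
    rw [norm_mul, Complex.norm_real, Real.norm_of_nonneg (mul_nonneg z0 hd), mul_assoc]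
    refine mul_le_mul z1 ((mul_le_mul_of_nonneg_left n3 hd).trans (le_of_eq (by ring)))
      (by positivity) hz.le

theorem cr4a_real {e S A B : ℝ} (hS : 0 ≤ S) (hA : 0 ≤ A) (hB : 0 ≤ B)
    (h : e ^ 2 / 2 ≤ A * S ^ 2 + B * (e * S)) : e ≤ (2 * A + 2 * B + 1) * S := by
  by_contra hn
  push Not at hn
  have h1 : S ≤ e := by nlinarith [mul_nonneg hA hS, mul_nonneg hB hS]
  have h0 : 0 < e := lt_of_le_of_lt (by positivity) hn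
  nlinarith [mul_lt_mul_of_pos_right hn h0, mul_le_mul_of_nonneg_left h1 (mul_nonneg hA hS),
    mul_nonneg hS h0.le]

theorem cr4a_en {e S K Λ k2 k3 t J n1 n2 n3 n4 ω a b g sa sb y : ℝ} (hK : 0 ≤ K) (he : 0 ≤ e)
    (hk2 : 0 ≤ k2) (hk3 : 0 ≤ k3) (ht : 0 ≤ t) (hΛ : 0 ≤ Λ) (hJ : J ≤ 4096 * K)
    (h1 : n1 ∈ Icc 0 S) (h2 : n2 ∈ Icc 0 S) (h3 : n3 ∈ Icc 0 S) (h4 : n4 ∈ Icc 0 S)
    (hω : ω ≤ Λ) (ha : a ∈ Icc 0 (t * e)) (hb : b ∈ Icc 0 (k2 * (e + S))) (hg : g ∈ Icc 0 e)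
    (hsa : sa ≤ k3 * S) (hsb : sb ≤ k3 * S) (hy : y ≤ 2)
    (hD : t * ((2 * Λ + 6) * k2 + 4 * K + 1) ≤ 1 / 2)
    (k : e ^ 2 ≤ J * (n4 * n2 + n3 * n1 + K * n1 * n2) + (2 * ω + 6) * (a * b) +
      2 * K * y * (g * a) + sa * b + sb * a) :
    e ≤ (2 * (4096 * K * (2 + K) + k3 * k2) + 2 * (1 / 2 + k3 * k2 + k3) + 1) * S := by
  obtain ⟨h1, h1'⟩ := h1
  obtain ⟨h2, h2'⟩ := h2
  obtain ⟨h3, h3'⟩ := h3
  obtain ⟨h4, h4'⟩ := h4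
  obtain ⟨ha, ha'⟩ := ha
  obtain ⟨hb, hb'⟩ := hb
  obtain ⟨hg, hg'⟩ := hg
  have hS := h1.trans h1'
  have t1 : t ≤ 1 := by nlinarith [mul_nonneg ht (show 0 ≤ (2 * Λ + 6) * k2 + 4 * K by positivity)]
  have ha'' := ha'.trans (mul_le_mul_of_nonneg_right t1 he)
  have k1 : e ^ 2 ≤ 4096 * K * (S * S + S * S + K * S * S) +
      (2 * Λ + 6) * (t * e * (k2 * (e + S))) + 2 * K * 2 * (e * (t * e)) +
      k3 * S * (k2 * (e + S)) + k3 * S * (1 * e) := k.trans (by gcongr)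
  refine cr4a_real hS (by positivity) (by positivity) ?_
  have t0 : 0 ≤ t * e ^ 2 := by positivity
  have t0' : 0 ≤ (4 * K + 1) * (t * e * S) := by positivity
  linarith [mul_le_mul_of_nonneg_right hD (sq_nonneg e),
    mul_le_mul_of_nonneg_right hD (mul_nonneg he hS)]

theorem cr4a_fin {e S K Λ k1 k2 k3 C τ ε l0 s1 n x a b sa : ℝ} (hK : 0 ≤ K) (he : 0 ≤ e)
    (hS : 0 ≤ S) (hk1 : 0 ≤ k1) (hk2 : 0 ≤ k2) (hk3 : 0 ≤ k3) (hC : 0 ≤ C) (hΛ : 0 ≤ Λ)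
    (τ0 : 0 ≤ τ) (τ1 : τ ≤ 1) (τ4 : (τ ^ 2) ^ 2 = ε) (hl : 0 ≤ l0) (hs : 0 ≤ s1) (eS : e ≤ C * S)
    (q1 : a ≤ k1 * τ ^ 2 * e) (q2 : n ≤ k1 * τ * e) (hb : 0 ≤ b) (q3 : b ≤ k2 * (e + S))
    (q5 : sa ≤ k3 * s1) (k : x ≤ 3 * K * n + K * k3 * ((6 + K * l0 + Λ) * a + l0 * ε * b + sa)) :
    n + x ≤ ((1 + 3 * K) * k1 * C + K * k3 * ((6 + K * l0 + Λ) * k1 * C + l0 * k2 * (C + 1) + k3)) *
      (τ * S + s1) := by
  have τa : τ ^ 2 ≤ τ := by nlinarith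
  have τb : ε ≤ τ := by nlinarith
  have r1 : n ≤ k1 * τ * (C * S) := q2.trans (by gcongr)
  have r2 : a ≤ k1 * τ * (C * S) := q1.trans (by gcongr)
  have r3 : l0 * ε * b ≤ l0 * τ * (k2 * (C * S + S)) := by
    have := q3.trans (mul_le_mul_of_nonneg_left (add_le_add_left eS S) hk2)
    gcongr
  have r4 := mul_le_mul_of_nonneg_left r2 (show 0 ≤ 6 + K * l0 + Λ by positivity)
  have r5 := mul_le_mul_of_nonneg_left (add_le_add (add_le_add r4 r3) q5)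
    (show 0 ≤ K * k3 by positivity)
  have r6 := mul_le_mul_of_nonneg_left r1 (show 0 ≤ 1 + 3 * K by positivity)
  have r7 : 0 ≤ ((1 + 3 * K) * k1 * C + K * k3 * ((6 + K * l0 + Λ) * k1 * C +
    l0 * k2 * (C + 1))) * s1 := by positivity
  have r8 : 0 ≤ K * k3 * k3 * (τ * S) := by positivity
  linarith

theorem c_interior (K Λ : ℝ) (hK : 0 < K) (l0 : ℕ) : ∃ K' ε0, 0 < ε0 ∧ 0 ≤ K' ∧ ∀ (c : Co)
    (X0 ε a s1 s2 : ℝ) (l : ℕ) (lam : ℂ) (η η1 ψ ψ1 sη sψ : ℝ → ℂ), c.Bd X0 ε K a → ε ∈ Ioc 0 ε0 →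
      c.Sys (l * (l + 10)) lam η η1 ψ ψ1 sη sψ → l ≤ l0 → ‖lam‖ ≤ Λ →
      (∀ X ∈ Ioc 0 X0, ‖sη X‖ ≤ s1 ∧ ‖sψ X‖ ≤ s2) →
      ‖η X0‖ + ‖X0 * ψ1 X0 - l / 2 * ψ X0‖ ≤
        K' * (√√ε * (‖η X0‖ + ‖ψ X0‖ + ‖η1 X0‖ + ‖ψ1 X0‖ + s1 + s2) + s1) := by
  obtain ⟨K1, hK1, c1⟩ := c_core K hK
  obtain ⟨K2, hK2, c2⟩ := c_poin K hK
  obtain ⟨D, hD⟩ : ∃ D, D = (2 * |Λ| + 6) * √K2 + 4 * K + 1 := ⟨_, rfl⟩
  obtain ⟨k3, h3⟩ : ∃ k3, k3 = √(729 * K) := ⟨_, rfl⟩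
  have hk3 : 0 ≤ k3 := h3 ▸ Real.sqrt_nonneg _
  have hD0 : 0 < D := by rw [hD]; positivity
  obtain ⟨C, hC⟩ : ∃ C, C = 2 * (4096 * K * (2 + K) + k3 * √K2) + 2 * (1 / 2 + k3 * √K2 + k3) + 1 :=
    ⟨_, rfl⟩
  have hC0 : 0 ≤ C := by rw [hC]; positivity
  refine ⟨(1 + 3 * K) * √K1 * C + K * k3 * ((6 + K * l0 + |Λ|) * √K1 * C + l0 * √K2 * (C + 1) + k3),
    min (1 / 4) ((1 / (2 * (√K1 + 1) * D)) ^ 2), by positivity, by positivity,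
    fun c X0 ε a s1 s2 l lam η η1 ψ ψ1 sη sψ hB hε h hl hΛ hs => ?_⟩
  have h0 := hB.X0_mem
  have hY : 0 < X0 := by linarith [h0.1]
  have hL := h.L_nonneg
  have s1p : 0 ≤ s1 := (norm_nonneg _).trans (hs X0 ⟨hY, le_rfl⟩).1
  have s2p : 0 ≤ s2 := (norm_nonneg _).trans (hs X0 ⟨hY, le_rfl⟩).2
  have hε4 : ε ≤ 1 / 4 := hε.2.trans (min_le_left _ _)
  have hΛ' := hΛ.trans (le_abs_self Λ)
  obtain ⟨S, hS⟩ : ∃ S, S = ‖η X0‖ + ‖ψ X0‖ + ‖η1 X0‖ + ‖ψ1 X0‖ + s1 + s2 := ⟨_, rfl⟩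
  have n1 := norm_nonneg (η X0)
  have n2 := norm_nonneg (ψ X0)
  have n3 := norm_nonneg (η1 X0)
  have n4 := norm_nonneg (ψ1 X0)
  have hS0 : 0 ≤ S := by rw [hS]; positivity
  have m1 : 0 ≤ c.Gr (l * (l + 10)) η η1 X0 := c_Gr_nonneg c hL hY.le
  have m2 : 0 ≤ c.Gr (l * (l + 10)) ψ ψ1 X0 := c_Gr_nonneg c hL hY.le
  have m3 : 0 ≤ c.Pot η X0 := c_Pot_nonneg c hY.le
  obtain ⟨e, he⟩ : ∃ e, e = √(c.En (l * (l + 10)) η η1 ψ ψ1 X0) := ⟨_, rfl⟩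
  have he0 : 0 ≤ e := he ▸ Real.sqrt_nonneg _
  have he2 : e ^ 2 = c.En (l * (l + 10)) η η1 ψ ψ1 X0 := by
    rw [he, Real.sq_sqrt (by rw [Co.En]; positivity)]
  obtain ⟨τ, hτ⟩ : ∃ τ, τ = √√ε := ⟨_, rfl⟩
  have τ0 : 0 ≤ τ := hτ ▸ Real.sqrt_nonneg _
  have τ2 : τ ^ 2 = √ε := by rw [hτ, Real.sq_sqrt (Real.sqrt_nonneg _)]
  have τ4 : (τ ^ 2) ^ 2 = ε := by rw [τ2, Real.sq_sqrt hε.1.le]
  have τ1 : τ ≤ 1 := by
    rw [hτ]
    exact Real.sqrt_le_one.2 (Real.sqrt_le_one.2 (by linarith))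
  have τD : √K1 * τ ^ 2 * D ≤ 1 / 2 := by
    have a1 : τ ^ 2 ≤ 1 / (2 * (√K1 + 1) * D) := by
      rw [τ2]
      exact Real.sqrt_le_iff.2 ⟨by positivity, hε.2.trans (min_le_right _ _)⟩
    rw [le_div_iff₀ (by positivity)] at a1
    nlinarith [mul_nonneg (sq_nonneg τ) hD0.le]
  obtain ⟨p1, p2⟩ := c1 c _ X0 ε a η η1 _ h.dη hL hB ⟨hε.1, hε4⟩
  have q0 : c.Gr (l * (l + 10)) η η1 X0 + c.Pot η X0 ≤ e ^ 2 := by rw [he2, Co.En]; linarith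
  have q0' : c.Gr (l * (l + 10)) ψ ψ1 X0 ≤ e ^ 2 := by rw [he2, Co.En]; linarith
  have q1 : √(c.Ms η 0 X0) ≤ √K1 * τ ^ 2 * e := by
    refine Real.sqrt_le_iff.2 ⟨by positivity, p1.trans ?_⟩
    rw [mul_pow, mul_pow, Real.sq_sqrt hK1, τ4]
    exact mul_le_mul_of_nonneg_left q0 (mul_nonneg hK1 hε.1.le)
  have q2 : ‖η X0‖ ≤ √K1 * τ * e := by
    refine (pow_le_pow_iff_left₀ n1 (by positivity) two_ne_zero).1 (p2.trans ?_)
    rw [mul_pow, mul_pow, Real.sq_sqrt hK1, τ2]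
    exact mul_le_mul_of_nonneg_left q0 (by positivity)
  have q3 : √(c.Ms ψ 0 X0) ≤ √K2 * (e + S) := by
    refine Real.sqrt_le_iff.2 ⟨by positivity, (c2 c _ X0 ψ ψ1 _ h.dψ hL
      ⟨by linarith [h0.1], by linarith [h0.2]⟩
      fun s hs => hB.in_R s ⟨hs.1, by linarith [hs.2]⟩).1.trans ?_⟩
    rw [mul_pow, Real.sq_sqrt hK2]
    refine mul_le_mul_of_nonneg_left ?_ hK2
    have : ‖ψ X0‖ ^ 2 ≤ S ^ 2 := pow_le_pow_left₀ n2 (by linarith) 2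
    nlinarith [mul_nonneg he0 hS0]
  have q4 : √(c.Gr (l * (l + 10)) ψ ψ1 X0) ≤ e := Real.sqrt_le_iff.2 ⟨he0, q0'⟩
  have q5 : √(c.Ms sη 0 X0) ≤ k3 * s1 := h3 ▸ cr4a_src hB hK
    ⟨h.cη, h.s0.imp fun _ hK X hX => (hK X hX).1⟩ s1p fun X hX => (hs X hX).1
  have q6 : √(c.Ms sψ 0 X0) ≤ k3 * s2 := h3 ▸ cr4a_src hB hK
    ⟨h.cψ, h.s0.imp fun _ hK X hX => (hK X hX).2⟩ s2p fun X hX => (hs X hX).2
  have q7 : √X0 ≤ 2 := Real.sqrt_le_iff.2 ⟨by norm_num, by linarith [h0.2]⟩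
  have q8 : |lam.im| ≤ |Λ| := (abs_im_le_norm lam).trans hΛ'
  have eS : e ≤ C * S := by
    have k := c_pair h hY fun X hX => (hB.all_w X hX.1).1
    have u5 : s1 ≤ S := by linarith only [hS, n1, n2, n3, n4, s2p]
    have u6 : s2 ≤ S := by linarith only [hS, n1, n2, n3, n4, s1p]
    rw [← he2] at k
    rw [hC]
    exact cr4a_en hK.le he0 (Real.sqrt_nonneg _) hk3 (by positivity) (abs_nonneg _)
      (cr2a_J hB hK ⟨le_rfl, by linarith⟩).2 ⟨n1, by linarith only [hS, n2, n3, n4, s1p, s2p]⟩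
      ⟨n2, by linarith only [hS, n1, n3, n4, s1p, s2p]⟩
      ⟨n3, by linarith only [hS, n1, n2, n4, s1p, s2p]⟩
      ⟨n4, by linarith only [hS, n1, n2, n3, s1p, s2p]⟩ q8 ⟨Real.sqrt_nonneg _, q1⟩
      ⟨Real.sqrt_nonneg _, q3⟩ ⟨Real.sqrt_nonneg _, q4⟩
      (q5.trans (mul_le_mul_of_nonneg_left u5 hk3)) (q6.trans (mul_le_mul_of_nonneg_left u6 hk3))
      q7 (hD ▸ τD) k
  have k := cr4a_bd hB hK hε.1.le h hl hΛ'
  rw [← h3] at k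
  rw [← hS, ← hτ]
  exact cr4a_fin hK.le he0 hS0 (Real.sqrt_nonneg _) (Real.sqrt_nonneg _) hk3 hC0 (abs_nonneg _) τ0
    τ1 τ4 (Nat.cast_nonneg _) s1p eS q1 q2 (Real.sqrt_nonneg _) q3 q5 k

end Vale.Agent.P139
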